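import Mathlib
import Vale.Agent.Lib.P002.Closed.Defs

namespace Vale.Agent.Lib.P002.Surf

open Polynomial

/-- Every eigenspace of `M` has dimension at most one, that is, the Jordan form of `M` has one
block for each eigenvalue. -/
def IsRegularMat {r : ℕ} (M : Matrix (Fin r) (Fin r) ℂ) : Prop :=
  ∀ μ : ℂ, Module.finrank ℂ (Module.End.eigenspace (Matrix.toLin' M) μ) ≤ 1

/-- `M` lies in the regular conjugacy class with eigenvalues `d i` (with multiplicity). -/
def InRegClass {r : ℕ} (d : Fin r → ℂ) (M : SLr r) : Prop :=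
  (M : Matrix (Fin r) (Fin r) ℂ).charpoly = ∏ i, (X - C (d i)) ∧
    IsRegularMat (M : Matrix (Fin r) (Fin r) ℂ)

/-- The representations of the surface group whose boundary monodromies lie in the regular classes
with eigenvalues `a j`. -/
def RelReg {r g s : ℕ} (a : Fin s → Fin r → ℂ) : Set (RepData r g s) :=
  {ρ | SurfaceRelation ρ ∧ ∀ j, InRegClass (a j) (ρ (Sum.inr (Sum.inr j)))}

end Vale.Agent.Lib.P002.Surf
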