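import Mathlib
import Vale.Agent.Lib.P002.Reg.Defs
import Vale.Agent.Lib.P002.Surf.Tri

set_option linter.unusedSectionVars false
set_option linter.unusedVariables false
set_option linter.unusedSimpArgs false
set_option linter.unnecessarySeqFocus false

namespace Vale.Agent.Lib.P002.Surf

open Matrix Polynomial

variable {r : ℕ}

lemma mem_eigenspace_toLin' (M : Matrix (Fin r) (Fin r) ℂ) (μ : ℂ) (w : Fin r → ℂ) :
    w ∈ Module.End.eigenspace (Matrix.toLin' M) μ ↔ M *ᵥ w = μ • w := by
  rw [Module.End.mem_eigenspace_iff]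
  rfl

lemma regular_iff (M : Matrix (Fin r) (Fin r) ℂ) :
    IsRegularMat M ↔ ∀ μ : ℂ, ∃ v : Fin r → ℂ, ∀ w, M *ᵥ w = μ • w → ∃ c : ℂ, w = c • v := by
  constructor
  · intro h μ
    obtain ⟨v, hv⟩ := finrank_le_one_iff.mp (h μ)
    refine ⟨v.1, fun w hw => ?_⟩
    obtain ⟨c, hc⟩ := hv ⟨w, (mem_eigenspace_toLin' M μ w).2 hw⟩
    exact ⟨c, (congrArg Subtype.val hc).symm⟩
  · intro h μ
    obtain ⟨v, hv⟩ := h μ
    by_cases h0 : M *ᵥ v = μ • v
    · apply finrank_le_one (⟨v, (mem_eigenspace_toLin' M μ v).2 h0⟩ :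
        Module.End.eigenspace (Matrix.toLin' M) μ)
      rintro ⟨w, hw⟩
      obtain ⟨c, hc⟩ := hv w ((mem_eigenspace_toLin' M μ w).1 hw)
      exact ⟨c, Subtype.ext hc.symm⟩
    · -- the eigenspace vanishes
      have hz : ∀ w : Module.End.eigenspace (Matrix.toLin' M) μ, w = 0 := by
        rintro ⟨w, hw⟩
        have hw' := (mem_eigenspace_toLin' M μ w).1 hw
        obtain ⟨c, hc⟩ := hv w hw'
        apply Subtype.ext
        show w = 0
        by_contra hne
        have hc0 : c ≠ 0 := by
          rintro rfl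
          exact hne (by simpa using hc)
        apply h0
        rw [hc, Matrix.mulVec_smul] at hw'
        have := congrArg (fun x => c⁻¹ • x) hw'
        simp only [smul_smul, inv_mul_cancel₀ hc0, one_smul] at this
        rw [this, mul_comm, ← smul_smul, smul_smul]
        simp [hc0, mul_comm]
      apply finrank_le_one (0 : Module.End.eigenspace (Matrix.toLin' M) μ)
      intro w
      exact ⟨1, by rw [hz w]; simp⟩

/-- A regular matrix stays regular under conjugation. -/
lemma regular_conj {M P Q : Matrix (Fin r) (Fin r) ℂ} (hPQ : P * Q = 1) (hQP : Q * P = 1)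
    (h : IsRegularMat M) : IsRegularMat (P * M * Q) := by
  rw [regular_iff] at h ⊢
  intro μ
  obtain ⟨v, hv⟩ := h μ
  refine ⟨P *ᵥ v, fun w hw => ?_⟩
  have h1 : M *ᵥ (Q *ᵥ w) = μ • (Q *ᵥ w) := by
    have h2 := congrArg (fun x => Q *ᵥ x) hw
    simp only [Matrix.mulVec_mulVec, Matrix.mulVec_smul] at h2
    have h3 : Q * (P * M * Q) = M * Q := by
      calc Q * (P * M * Q) = (Q * P) * M * Q := by simp only [Matrix.mul_assoc]
        _ = _ := by rw [hQP, Matrix.one_mul]
    rw [h3] at h2
    rw [Matrix.mulVec_mulVec]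
    exact h2
  obtain ⟨c, hc⟩ := hv _ h1
  refine ⟨c, ?_⟩
  have h4 := congrArg (fun x => P *ᵥ x) hc
  simp only [Matrix.mulVec_mulVec, Matrix.mulVec_smul, hPQ, Matrix.one_mulVec] at h4
  exact h4

/-- An upper triangular matrix whose equal diagonal entries are contiguous and whose superdiagonal
entries inside a block do not vanish is regular. -/
lemma regular_of_UT {B : Matrix (Fin r) (Fin r) ℂ} (hB : UT B) (d : Fin r → ℂ)
    (hd : ∀ i, B i i = d i)
    (hc : ∀ i j k : Fin r, i < j → j < k → d i = d k → d j = d i)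
    (hs : ∀ i k : Fin r, i.val + 1 = k.val → d i = d k → B i k ≠ 0) : IsRegularMat B := by
  rw [regular_iff]
  intro μ
  -- the top index of an eigenvector
  have key : ∀ (v : Fin r → ℂ) (i : Fin r), B *ᵥ v = μ • v → v i ≠ 0 → (∀ l, i < l → v l = 0) →
      d i = μ ∧ ∀ l, l < i → d l ≠ μ := by
    intro v i hv hi htop
    have row : ∀ x : Fin r, ∑ l, B x l * v l = μ * v x := by
      intro x
      have := congrFun hv x
      simpa [Matrix.mulVec, dotProduct] using this
    have h1 : d i = μ := by
      have := row i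
      rw [Finset.sum_eq_single i] at this
      · rw [hd] at this
        exact mul_right_cancel₀ hi this
      · intro l _ hl
        rcases lt_or_gt_of_ne hl with h' | h'
        · rw [hB i l h', zero_mul]
        · rw [htop l h', mul_zero]
      · simp
    refine ⟨h1, fun l hl hdl => ?_⟩
    -- the index just below
    have hi0 : 0 < i.val := lt_of_le_of_lt (Nat.zero_le _) hl
    let i₁ : Fin r := ⟨i.val - 1, by have := i.isLt; omega⟩
    have hi₁ : i₁.val + 1 = i.val := by
      show i.val - 1 + 1 = i.val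
      omega
    have hi₁lt : i₁ < i := by
      show i₁.val < i.val
      omega
    have hdi₁ : d i₁ = μ := by
      by_cases hli : l = i₁
      · rw [← hli]; exact hdl
      · have hl' : l < i₁ := by
          have h3 : l.val < i.val := hl
          have h4 : l.val ≠ i₁.val := fun h => hli (Fin.ext h)
          show l.val < i₁.val
          omega
        have := hc l i₁ i hl' hi₁lt (by rw [hdl, h1])
        rw [this, hdl]
    have h2 := row i₁
    have h3 : ∑ x, B i₁ x * v x = B i₁ i₁ * v i₁ + B i₁ i * v i := by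
      rw [← Finset.add_sum_erase _ _ (Finset.mem_univ i₁),
        ← Finset.add_sum_erase _ _ (Finset.mem_erase.mpr ⟨(ne_of_lt hi₁lt).symm, Finset.mem_univ i⟩)]
      rw [Finset.sum_eq_zero, add_zero]
      intro x hx
      have hx1 : x ≠ i := (Finset.mem_erase.mp hx).1
      have hx2 : x ≠ i₁ := (Finset.mem_erase.mp (Finset.mem_erase.mp hx).2).1
      by_cases hx3 : x < i₁
      · rw [hB _ _ hx3, zero_mul]
      · have hx4 : i < x := by
          have h5 : i₁.val ≠ x.val := fun h => hx2 (Fin.ext h.symm)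
          have h6 : x.val ≠ i.val := fun h => hx1 (Fin.ext h)
          have h7 : ¬ x.val < i₁.val := hx3
          show i.val < x.val
          omega
        rw [htop x hx4, mul_zero]
    rw [h3, hd, hdi₁] at h2
    have h4 : B i₁ i * v i = 0 := by linear_combination h2
    exact mul_ne_zero (hs i₁ i hi₁ (by rw [hdi₁, h1])) hi h4
  -- every non-zero vector has a top index
  have htop : ∀ v : Fin r → ℂ, v ≠ 0 → ∃ i, v i ≠ 0 ∧ ∀ l, i < l → v l = 0 := by
    intro v hv
    obtain ⟨x, hx⟩ := Function.ne_iff.mp hv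
    have hne : (Finset.univ.filter fun i => v i ≠ 0).Nonempty := ⟨x, by simpa using hx⟩
    refine ⟨(Finset.univ.filter fun i => v i ≠ 0).max' hne, ?_, fun l hl => ?_⟩
    · have := Finset.max'_mem _ hne
      simpa using this
    · by_contra h0
      have := Finset.le_max' (Finset.univ.filter fun i => v i ≠ 0) l (by simpa using h0)
      exact absurd hl (not_lt.mpr this)
  by_cases hex : ∃ v₀ : Fin r → ℂ, v₀ ≠ 0 ∧ B *ᵥ v₀ = μ • v₀
  · obtain ⟨v₀, hv₀, hv₀'⟩ := hex
    obtain ⟨i₀, hi₀, hi₀'⟩ := htop v₀ hv₀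
    obtain ⟨h1, h2⟩ := key v₀ i₀ hv₀' hi₀ hi₀'
    refine ⟨v₀, fun w hw => ⟨w i₀ / v₀ i₀, ?_⟩⟩
    by_contra hne
    let u : Fin r → ℂ := w - (w i₀ / v₀ i₀) • v₀
    have hu : u ≠ 0 := fun h => hne (sub_eq_zero.mp h)
    have hu' : B *ᵥ u = μ • u := by
      simp only [u, Matrix.mulVec_sub, Matrix.mulVec_smul, hw, hv₀', smul_sub]
      rw [smul_comm]
    obtain ⟨i₁, hi₁, hi₁'⟩ := htop u hu
    obtain ⟨h3, h4⟩ := key u i₁ hu' hi₁ hi₁'
    have heq : i₁ = i₀ := by
      rcases lt_trichotomy i₁ i₀ with h | h | h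
      · exact absurd h3 (h2 _ h)
      · exact h
      · exact absurd h1 (h4 _ h)
    apply hi₁
    rw [heq]
    simp only [u, Pi.sub_apply, Pi.smul_apply, smul_eq_mul]
    field_simp
    ring
  · refine ⟨0, fun w hw => ⟨0, ?_⟩⟩
    by_contra hne
    exact hex ⟨w, by simpa using hne, hw⟩

/-! ### Kernels of polynomials in a regular matrix -/

lemma finrank_ker_mul_le (A B : Matrix (Fin r) (Fin r) ℂ) :
    Module.finrank ℂ (LinearMap.ker (A * B).mulVecLin) ≤
      Module.finrank ℂ (LinearMap.ker A.mulVecLin) + Module.finrank ℂ (LinearMap.ker B.mulVecLin) := by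
  set K := LinearMap.ker (A * B).mulVecLin with hK
  let f : K →ₗ[ℂ] LinearMap.ker A.mulVecLin :=
    (B.mulVecLin.domRestrict K).codRestrict _ (by
      rintro ⟨v, hv⟩
      rw [LinearMap.mem_ker] at hv ⊢
      simpa [Matrix.mulVec_mulVec] using hv)
  have h1 := LinearMap.finrank_range_add_finrank_ker f
  have h2 : Module.finrank ℂ (LinearMap.range f) ≤ Module.finrank ℂ (LinearMap.ker A.mulVecLin) :=
    Submodule.finrank_le _
  let g : LinearMap.ker f →ₗ[ℂ] LinearMap.ker B.mulVecLin :=
    (K.subtype.comp (LinearMap.ker f).subtype).codRestrict _ (by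
      rintro ⟨⟨v, hv⟩, hv'⟩
      rw [LinearMap.mem_ker] at hv' ⊢
      have := congrArg Subtype.val hv'
      simpa [f] using this)
  have hg : Function.Injective g := by
    rintro ⟨⟨v, hv⟩, hv'⟩ ⟨⟨w, hw⟩, hw'⟩ h
    have := congrArg Subtype.val h
    apply Subtype.ext
    apply Subtype.ext
    exact this
  have h3 := LinearMap.finrank_le_finrank_of_injective hg
  omega

lemma ker_sub_eq_eigenspace (M : Matrix (Fin r) (Fin r) ℂ) (μ : ℂ) :
    Module.finrank ℂ (LinearMap.ker (M - μ • (1 : Matrix (Fin r) (Fin r) ℂ)).mulVecLin) =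
      Module.finrank ℂ (Module.End.eigenspace (Matrix.toLin' M) μ) := by
  have h : LinearMap.ker (M - μ • (1 : Matrix (Fin r) (Fin r) ℂ)).mulVecLin =
      Module.End.eigenspace (Matrix.toLin' M) μ := by
    ext v
    rw [mem_eigenspace_toLin', LinearMap.mem_ker, Matrix.mulVecLin_apply, Matrix.sub_mulVec,
      sub_eq_zero, Matrix.smul_mulVec, Matrix.one_mulVec]
  rw [h]

/-- The kernel of a polynomial in a regular matrix has dimension at most the degree. -/
lemma finrank_ker_aeval_le {M : Matrix (Fin r) (Fin r) ℂ} (hM : IsRegularMat M) :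
    ∀ (d : ℕ) (q : ℂ[X]), q.Monic → q.natDegree = d →
      Module.finrank ℂ (LinearMap.ker (aeval M q).mulVecLin) ≤ d := by
  intro d
  induction d with
  | zero =>
    intro q hq hd
    have h1 : q = 1 := Polynomial.eq_one_of_monic_natDegree_zero hq hd
    subst h1
    have : LinearMap.ker ((aeval M (1 : ℂ[X])).mulVecLin) = ⊥ := by
      ext v
      simp
    rw [this]
    simp
  | succ d ih =>
    intro q hq hd
    obtain ⟨μ, hμ⟩ := IsAlgClosed.exists_root q (by
      rw [Polynomial.degree_eq_natDegree hq.ne_zero, hd]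
      exact_mod_cast Nat.succ_ne_zero d)
    obtain ⟨q', hq'⟩ := Polynomial.dvd_iff_isRoot.mpr hμ
    have hm1 : (X - C μ : ℂ[X]).Monic := monic_X_sub_C μ
    have hm2 : q'.Monic := by
      apply Polynomial.Monic.of_mul_monic_left hm1
      rw [← hq']
      exact hq
    have hdeg : q'.natDegree = d := by
      have := congrArg Polynomial.natDegree hq'
      rw [Polynomial.natDegree_mul hm1.ne_zero hm2.ne_zero, natDegree_X_sub_C, hd] at this
      omega
    rw [hq', map_mul]
    have h1 : aeval M (X - C μ : ℂ[X]) = M - μ • (1 : Matrix (Fin r) (Fin r) ℂ) := by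
      simp [Polynomial.aeval_C, Algebra.algebraMap_eq_smul_one]
    rw [h1]
    have h2 := finrank_ker_mul_le (M - μ • (1 : Matrix (Fin r) (Fin r) ℂ)) (aeval M q')
    have h3 := ih q' hm2 hdeg
    rw [ker_sub_eq_eigenspace] at h2
    have h4 := hM μ
    omega

/-- A monic divisor of a split polynomial is a partial product. -/
lemma monic_dvd_prod {ι : Type*} [DecidableEq ι] (a : ι → ℂ) (T : Finset ι) :
    ∀ q : ℂ[X], q.Monic → q ∣ ∏ i ∈ T, (X - C (a i)) →
      ∃ I ⊆ T, q = ∏ i ∈ I, (X - C (a i)) := by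
  induction T using Finset.induction_on with
  | empty =>
    intro q hq hd
    refine ⟨∅, le_rfl, ?_⟩
    simp only [Finset.prod_empty] at hd ⊢
    exact Polynomial.eq_one_of_monic_natDegree_zero hq (by
      have := Polynomial.natDegree_le_of_dvd hd one_ne_zero
      simpa using this)
  | insert x T hx ih =>
    intro q hq hd
    rw [Finset.prod_insert hx] at hd
    by_cases hdx : (X - C (a x) : ℂ[X]) ∣ q
    · obtain ⟨q', hq'⟩ := hdx
      have hm1 : (X - C (a x) : ℂ[X]).Monic := monic_X_sub_C _
      have hm2 : q'.Monic := by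
        apply Polynomial.Monic.of_mul_monic_left hm1
        rw [← hq']
        exact hq
      rw [hq'] at hd
      have hd' := (mul_dvd_mul_iff_left hm1.ne_zero).mp hd
      obtain ⟨I, hI, hI'⟩ := ih q' hm2 hd'
      refine ⟨insert x I, Finset.insert_subset_insert x hI, ?_⟩
      rw [Finset.prod_insert (fun h => hx (hI h)), hq', hI']
    · have hirr : Irreducible (X - C (a x) : ℂ[X]) := irreducible_X_sub_C _
      have hco : IsCoprime q (X - C (a x) : ℂ[X]) :=
        ((hirr.coprime_iff_not_dvd).mpr hdx).symm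
      have hd' := hco.dvd_of_dvd_mul_left hd
      obtain ⟨I, hI, hI'⟩ := ih q hq hd'
      exact ⟨I, hI.trans (Finset.subset_insert _ _), hI'⟩

/-- The partial products. -/
noncomputable def qPoly (a : Fin r → ℂ) (I : Finset (Fin r)) : ℂ[X] := ∏ i ∈ I, (X - C (a i))

/-- The complementary partial products. -/
noncomputable def pPoly (a : Fin r → ℂ) (I : Finset (Fin r)) : ℂ[X] := ∏ i ∈ Iᶜ, (X - C (a i))

lemma qPoly_monic (a : Fin r → ℂ) (I : Finset (Fin r)) : (qPoly a I).Monic :=
  monic_prod_of_monic _ _ fun i _ => monic_X_sub_C _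

lemma pPoly_monic (a : Fin r → ℂ) (I : Finset (Fin r)) : (pPoly a I).Monic :=
  monic_prod_of_monic _ _ fun i _ => monic_X_sub_C _

lemma qPoly_natDegree (a : Fin r → ℂ) (I : Finset (Fin r)) : (qPoly a I).natDegree = I.card := by
  simp [qPoly, natDegree_prod_of_monic _ _ (fun i _ => monic_X_sub_C (a i))]

lemma pPoly_natDegree (a : Fin r → ℂ) (I : Finset (Fin r)) :
    (pPoly a I).natDegree = r - I.card := by
  simp [pPoly, natDegree_prod_of_monic _ _ (fun i _ => monic_X_sub_C (a i)), Finset.card_compl]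

lemma pPoly_mul_qPoly (a : Fin r → ℂ) (I : Finset (Fin r)) :
    pPoly a I * qPoly a I = ∏ i, (X - C (a i)) := by
  rw [pPoly, qPoly, mul_comm]
  exact Finset.prod_mul_prod_compl I _

section regular

variable {M : Matrix (Fin r) (Fin r) ℂ} {a : Fin r → ℂ}
  (hM : IsRegularMat M) (hχ : M.charpoly = ∏ i, (X - C (a i)))

include hχ in
lemma aeval_p_mul_q (I : Finset (Fin r)) : aeval M (pPoly a I) * aeval M (qPoly a I) = 0 := by
  rw [← map_mul, pPoly_mul_qPoly, ← hχ, Matrix.aeval_self_charpoly]

include hM hχ in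
/-- The image of `q(M)` is the kernel of the complementary `p(M)`. -/
lemma range_q_eq_ker_p (I : Finset (Fin r)) :
    LinearMap.range (aeval M (qPoly a I)).mulVecLin = LinearMap.ker (aeval M (pPoly a I)).mulVecLin := by
  apply Submodule.eq_of_le_of_finrank_le
  · rintro _ ⟨w, rfl⟩
    rw [LinearMap.mem_ker, Matrix.mulVecLin_apply, Matrix.mulVecLin_apply, Matrix.mulVec_mulVec,
      aeval_p_mul_q hχ]
    simp
  · have h1 := finrank_ker_aeval_le hM _ (pPoly a I) (pPoly_monic a I) rfl
    have h2 := finrank_ker_aeval_le hM _ (qPoly a I) (qPoly_monic a I) rfl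
    have h3 := LinearMap.finrank_range_add_finrank_ker (aeval M (qPoly a I)).mulVecLin
    simp only [Module.finrank_fintype_fun_eq_card, Fintype.card_fin] at h3
    rw [pPoly_natDegree] at h1
    rw [qPoly_natDegree] at h2
    omega

include hM hχ in
/-- An invariant subspace of a regular matrix is the image of a partial product. -/
theorem invariant_eq_range (V : Submodule ℂ (Fin r → ℂ)) (hV : ∀ v ∈ V, M *ᵥ v ∈ V) :
    ∃ I : Finset (Fin r), V = LinearMap.range (aeval M (qPoly a I)).mulVecLin := by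
  classical
  let T : (Fin r → ℂ) →ₗ[ℂ] (Fin r → ℂ) := M.mulVecLin
  have hT : V ≤ V.comap T := fun v hv => hV v hv
  let Tb : Module.End ℂ ((Fin r → ℂ) ⧸ V) := V.mapQ V T hT
  have haev : ∀ (f : ℂ[X]) (w : Fin r → ℂ),
      aeval Tb f (V.mkQ w) = V.mkQ ((aeval M f) *ᵥ w) := by
    intro f
    induction f using Polynomial.induction_on with
    | C c =>
      intro w
      simp only [aeval_C, Module.algebraMap_end_apply, Algebra.algebraMap_eq_smul_one,
        Matrix.smul_mulVec, Matrix.one_mulVec, map_smul]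
      rfl
    | add p q hp hq =>
      intro w
      simp only [map_add, LinearMap.add_apply, hp, hq, Matrix.add_mulVec]
    | monomial k c ih =>
      intro w
      have e1 : (C c * X ^ (k + 1) : ℂ[X]) = (C c * X ^ k) * X := by ring
      have h1 : aeval Tb (C c * X ^ k * X : ℂ[X]) = aeval Tb (C c * X ^ k) * Tb := by
        rw [map_mul, aeval_X]
      have h2 : aeval M (C c * X ^ k * X : ℂ[X]) = aeval M (C c * X ^ k) * M := by
        rw [map_mul, aeval_X]
      rw [e1, h1, h2, Module.End.mul_apply]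
      have : Tb (V.mkQ w) = V.mkQ (M *ᵥ w) := by
        rfl
      rw [this, ih, Matrix.mulVec_mulVec]
  let q : ℂ[X] := minpoly ℂ Tb
  have hq : q.Monic := minpoly.monic (Algebra.IsIntegral.isIntegral Tb)
  have h0 : ∀ w, (aeval M q) *ᵥ w ∈ V := by
    intro w
    rw [← Submodule.Quotient.mk_eq_zero]
    have := haev q w
    rw [minpoly.aeval] at this
    exact this.symm
  have hdiv : q ∣ ∏ i, (X - C (a i)) := by
    rw [← hχ]
    apply minpoly.dvd
    apply LinearMap.ext
    intro x
    obtain ⟨w, rfl⟩ := V.mkQ_surjective x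
    rw [haev, Matrix.aeval_self_charpoly]
    simp
  obtain ⟨I, -, hI⟩ := monic_dvd_prod a Finset.univ q hq hdiv
  refine ⟨I, ?_⟩
  have hqI : q = qPoly a I := hI
  symm
  apply Submodule.eq_of_le_of_finrank_le
  · rintro _ ⟨w, rfl⟩
    rw [← hqI]
    exact h0 w
  · have h1 := finrank_ker_aeval_le hM _ (qPoly a I) (qPoly_monic a I) rfl
    have h2 := LinearMap.finrank_range_add_finrank_ker (aeval M (qPoly a I)).mulVecLin
    simp only [Module.finrank_fintype_fun_eq_card, Fintype.card_fin] at h2
    have h3 : (qPoly a I).natDegree ≤ Module.finrank ℂ ((Fin r → ℂ) ⧸ V) := by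
      rw [← hqI]
      have h4 := LinearMap.minpoly_dvd_charpoly Tb
      have h5 := Polynomial.natDegree_le_of_dvd h4 (LinearMap.charpoly_monic Tb).ne_zero
      rw [LinearMap.charpoly_natDegree] at h5
      exact h5
    have h4 := Submodule.finrank_quotient_add_finrank V
    simp only [Module.finrank_fintype_fun_eq_card, Fintype.card_fin] at h4
    omega

include hM hχ in
/-- A proper partial product does not kill everything. -/
lemma range_q_ne_bot {I : Finset (Fin r)} (hI : I.card < r) :
    LinearMap.range (aeval M (qPoly a I)).mulVecLin ≠ ⊥ := by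
  intro h
  have h1 : LinearMap.ker (aeval M (qPoly a I)).mulVecLin = ⊤ := by
    rw [LinearMap.range_eq_bot] at h
    rw [h]
    exact LinearMap.ker_zero
  have h2 := finrank_ker_aeval_le hM _ (qPoly a I) (qPoly_monic a I) rfl
  rw [h1, qPoly_natDegree, finrank_top] at h2
  simp only [Module.finrank_fintype_fun_eq_card, Fintype.card_fin] at h2
  omega

include hχ in
/-- A non-trivial partial product is not invertible. -/
lemma range_q_ne_top {I : Finset (Fin r)} (hI : 0 < I.card) :
    LinearMap.range (aeval M (qPoly a I)).mulVecLin ≠ ⊤ := by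
  intro h
  obtain ⟨i, hi⟩ := Finset.card_pos.mp hI
  -- an eigenvector
  have h1 : (Matrix.scalar (Fin r) (a i) - M).det = 0 := by
    rw [← Matrix.eval_charpoly, hχ, Polynomial.eval_prod]
    apply Finset.prod_eq_zero (Finset.mem_univ i)
    simp
  obtain ⟨v, hv0, hv⟩ := Matrix.exists_mulVec_eq_zero_iff.mpr h1
  have hv' : M *ᵥ v = a i • v := by
    rw [Matrix.sub_mulVec, sub_eq_zero] at hv
    rw [← hv]
    ext x
    simp [Matrix.scalar_apply, Matrix.mulVec_diagonal]
  have hev : ∀ f : ℂ[X], (aeval M f) *ᵥ v = f.eval (a i) • v := by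
    intro f
    induction f using Polynomial.induction_on with
    | C c => simp [Algebra.algebraMap_eq_smul_one, Matrix.smul_mulVec]
    | add p q hp hq => simp [Matrix.add_mulVec, hp, hq, add_smul]
    | monomial k c ih =>
      have e1 : (C c * X ^ (k + 1) : ℂ[X]) = (C c * X ^ k) * X := by ring
      rw [e1, map_mul, aeval_X, ← Matrix.mulVec_mulVec, hv', Matrix.mulVec_smul, ih, smul_smul]
      congr 1
      simp
      ring
  have h2 : (aeval M (qPoly a I)) *ᵥ v = 0 := by
    rw [hev]
    have : (qPoly a I).eval (a i) = 0 := by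
      rw [qPoly, Polynomial.eval_prod]
      apply Finset.prod_eq_zero hi
      simp
    rw [this, zero_smul]
  have hsurj : Function.Surjective (aeval M (qPoly a I)).mulVecLin := LinearMap.range_eq_top.mp h
  have hinj := LinearMap.injective_iff_surjective.mpr hsurj
  apply hv0
  apply hinj
  rw [Matrix.mulVecLin_apply, h2, map_zero]

include hχ in
/-- Consequence for an operator preserving an invariant subspace. -/
lemma p_mul_g_mul_q_eq_zero (g : Matrix (Fin r) (Fin r) ℂ) (I : Finset (Fin r))
    (hV : ∀ v ∈ LinearMap.range (aeval M (qPoly a I)).mulVecLin,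
      g *ᵥ v ∈ LinearMap.range (aeval M (qPoly a I)).mulVecLin) :
    aeval M (pPoly a I) * g * aeval M (qPoly a I) = 0 := by
  apply Matrix.toLin'.injective
  apply LinearMap.ext
  intro w
  simp only [Matrix.toLin'_apply, map_zero, LinearMap.zero_apply]
  obtain ⟨w', hw'⟩ := hV _ ⟨w, rfl⟩
  rw [← Matrix.mulVec_mulVec, ← Matrix.mulVec_mulVec]
  have h1 : g *ᵥ (aeval M (qPoly a I) *ᵥ w) = aeval M (qPoly a I) *ᵥ w' := hw'.symm
  rw [h1, Matrix.mulVec_mulVec, aeval_p_mul_q hχ]
  simp

include hM hχ in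
/-- Conversely, the vanishing of `p(M) g q(M)` gives the invariance. -/
lemma invariant_of_p_mul_g_mul_q (g : Matrix (Fin r) (Fin r) ℂ) (I : Finset (Fin r))
    (h : aeval M (pPoly a I) * g * aeval M (qPoly a I) = 0)
    (v : Fin r → ℂ) (hv : v ∈ LinearMap.range (aeval M (qPoly a I)).mulVecLin) :
    g *ᵥ v ∈ LinearMap.range (aeval M (qPoly a I)).mulVecLin := by
  rw [range_q_eq_ker_p hM hχ, LinearMap.mem_ker, Matrix.mulVecLin_apply]
  obtain ⟨w, rfl⟩ := hv
  rw [Matrix.mulVecLin_apply, Matrix.mulVec_mulVec, Matrix.mulVec_mulVec, h]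
  simp

end regular

end Vale.Agent.Lib.P002.Surf
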