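import Mathlib
import Vale.Agent.Lib.P002.Closed.Irr

set_option linter.unusedSectionVars false
set_option linter.unusedVariables false
set_option linter.unusedSimpArgs false
set_option linter.unnecessarySeqFocus false

namespace Vale.Agent.Lib.P002.Surf

open Matrix

variable {R S : Type*} [CommRing R] [CommRing S] {n s g r : ℕ}

/-! ### Uniqueness of the Gauss factorisation -/

lemma LU_unique {h h' b b' : GLr R r} (hh : h ∈ Um R r) (hh' : h' ∈ Um R r) (hb : b ∈ Bp R r)
    (hb' : b' ∈ Bp R r) (e : h * b = h' * b') : h = h' ∧ b = b' := by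
  have h1 : h'⁻¹ * h = b' * b⁻¹ := by
    calc h'⁻¹ * h = h'⁻¹ * (h * b) * b⁻¹ := by group
      _ = h'⁻¹ * (h' * b') * b⁻¹ := by rw [e]
      _ = _ := by group
  have h2 : h'⁻¹ * h = 1 :=
    eq_one_of_Um_Bp (mul_mem (inv_mem hh') hh) (by rw [h1]; exact mul_mem hb' (inv_mem hb))
  have h3 : h = h' := by
    calc h = h' * (h'⁻¹ * h) := by group
      _ = h' := by rw [h2, mul_one]
  refine ⟨h3, ?_⟩
  rw [h3] at e
  exact mul_left_cancel e

lemma Tri.ext_u {T T' : Tri R r} (e : T.u = T'.u) : T = T' := by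
  have h1 : T.h * T.b = T'.h * T'.b := by
    rw [← T.rel, ← T'.rel, e]
  obtain ⟨h2, h3⟩ := LU_unique T.hh T'.hh T.hb T'.hb h1
  cases T
  cases T'
  simp only at e h2 h3
  subst e h2 h3
  rfl

/-- The image of a triangle. -/
def Tri.map (f : R →+* S) (T : Tri R r) : Tri S r where
  u := GLmap f T.u
  h := GLmap f T.h
  b := GLmap f T.b
  hu := GLmap_Up f T.hu
  hh := GLmap_Um f T.hh
  hb := GLmap_Bp f T.hb
  rel := by rw [← map_mul, ← T.rel, map_mul, GLmap_w0]

lemma GLmap_UcG (f : R →+* S) (c : ℕ → ℕ → R) (ρ : ℕ) :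
    GLmap f (UcG c ρ) = UcG (fun l j => f (c l j)) ρ := by
  apply Units.ext
  ext i j
  rw [GLmap_apply, UcG_val, UcG_val]
  exact Uc_map f c ρ i j

/-- The image of an input. -/
def Inp.map (f : R →+* S) (I : Inp R n s g) : Inp S n s g where
  cl := fun i l j => Units.map (f : R →* S) (I.cl i l j)
  tp := fun i q => Units.map (f : R →* S) (I.tp i q)
  zf := fun k q => Units.map (f : R →* S) (I.zf k q)
  a := fun k i => Units.map (f : R →* S) (I.a k i)
  hprod := fun k => by
    rw [← map_prod, I.hprod, map_one]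

lemma mapZ_mul (f : R →+* S) (x y : Fin r → Rˣ) : mapZ f (x * y) = mapZ f x * mapZ f y := by
  funext i
  simp [mapZ]

lemma mapZ_inv (f : R →+* S) (x : Fin r → Rˣ) : mapZ f x⁻¹ = (mapZ f x)⁻¹ := by
  funext i
  simp [mapZ]

lemma mapZ_one (f : R →+* S) : mapZ f (1 : Fin r → Rˣ) = 1 := by
  funext i
  simp [mapZ]

lemma mapZ_prod {ι : Type*} (f : R →+* S) (t : Finset ι) (x : ι → Fin r → Rˣ) :
    mapZ f (∏ i ∈ t, x i) = ∏ i ∈ t, mapZ f (x i) := by
  funext k
  simp [mapZ, Finset.prod_apply]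

section input

variable (f : R →+* S) (I : Inp R n s g)

lemma cOf_map (i l j : ℕ) : cOf (I.map f) i l j = Units.map (f : R →* S) (cOf I i l j) := by
  simp only [cOf, withTop]
  split_ifs <;> simp [Inp.map]

lemma T2_map (i : ℕ) : T2 (I.map f) i = (T2 I i).map f := by
  apply Tri.ext_u
  rw [T2_u]
  show _ = GLmap f (T2 I i).u
  rw [T2_u, GLmap_UcG]
  congr 1
  funext l j
  rw [cOf_map]
  rfl

lemma dg_Tri_map (T : Tri R r) : dg (T.map f).bB = mapZ f (dg T.bB) := by
  funext i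
  apply Units.ext
  rfl

lemma bhat'_map (i : ℕ) : bhat' (I.map f) i = mapZ f (bhat' I i) := by
  simp only [bhat']
  split_ifs
  · rw [T2_map, dg_Tri_map]
  · rw [mapZ_one]

lemma zS_map (bh : ℕ → Fin (n + 2) → Rˣ) (j : ℕ) :
    zS (I.map f) (fun i => mapZ f (bh i)) j = mapZ f (zS I bh j) := by
  funext k
  simp [zS, rv, mapZ, Inp.map]

lemma zH_map (i : ℕ) : zH (I.map f) i = mapZ f (zH I i) := by
  simp only [zH]
  rw [map_snocZ]
  congr 1
  split_ifs
  · simp
  · exact (dw_map f).symm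

lemma zH'_map (i : ℕ) : zH' (I.map f) i = mapZ f (zH' I i) := by
  simp only [zH']
  rw [map_snocZ]
  congr 1
  exact (dw_map f).symm

lemma rv_mapZ (x : Fin (n + 2) → Rˣ) : rv (mapZ f x) = mapZ f (rv x) := rfl

lemma dsp_map (bh : ℕ → Fin (n + 2) → Rˣ) (j : ℕ) :
    dsp (I.map f) (fun i => mapZ f (bh i)) j = mapZ f (dsp I bh j) := by
  simp only [dsp]
  rw [zS_map, mapZ_mul, mapZ_inv]

lemma dha_map (bh : ℕ → Fin (n + 2) → Rˣ) (i : ℕ) :
    dha (I.map f) (fun i => mapZ f (bh i)) i = mapZ f (dha I bh i) := by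
  simp only [dha]
  rw [zH_map, zH'_map]
  simp only [mapZ_mul, mapZ_inv, rv_mapZ]

lemma DD_map (bh : ℕ → Fin (n + 2) → Rˣ) :
    DD (I.map f) (fun i => mapZ f (bh i)) = mapZ f (DD I bh) := by
  simp only [DD]
  rw [mapZ_mul, mapZ_prod, mapZ_prod]
  congr 1
  · exact Finset.prod_congr rfl fun i _ => dha_map f I bh i
  · exact Finset.prod_congr rfl fun i _ => dsp_map f I bh i

lemma tauV_map : tauV (I.map f) = mapZ f (tauV I) := by
  simp only [tauV]
  have : bhat' (I.map f) = fun i => mapZ f (bhat' I i) := funext fun i => bhat'_map f I i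
  rw [this, DD_map, mapZ_mul]
  rfl

lemma tauN_map (k : ℕ) : tauN (I.map f) k = Units.map (f : R →* S) (tauN I k) := by
  simp only [tauN]
  split_ifs
  · rw [tauV_map]
    rfl
  · simp

lemma Dm_map (c : ℕ → ℕ → R) (m k : ℕ) : f (Dm c m k) = Dm (fun l j => f (c l j)) m k := by
  simp only [Dm]
  rw [RingHom.map_det]
  congr 1
  ext i j
  simp only [RingHom.mapMatrix_apply, Matrix.map_apply, Matrix.of_apply]
  exact Uc_map f c m _ _

lemma DmU_map (cl : ℕ → ℕ → Rˣ) (m k : ℕ) :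
    DmU (fun l j => Units.map (f : R →* S) (cl l j)) m k = Units.map (f : R →* S) (DmU cl m k) := by
  by_cases hk : k ≤ m + 1
  · apply Units.ext
    rw [DmU_val _ _ _ hk]
    show _ = f ((DmU cl m k : Rˣ) : R)
    rw [DmU_val _ _ _ hk, Dm_map]
    rfl
  · simp [DmU, hk]

lemma topLayer_map (cl : ℕ → ℕ → Rˣ) (τ : ℕ → Rˣ) (m j : ℕ) :
    topLayer (fun l j => Units.map (f : R →* S) (cl l j)) (fun k => Units.map (f : R →* S) (τ k)) m j =
      Units.map (f : R →* S) (topLayer cl τ m j) := by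
  simp only [topLayer, DmU_map, map_div, map_prod]

lemma T1_map : T1 (I.map f) = (T1 I).map f := by
  apply Tri.ext_u
  rw [T1_u]
  show _ = GLmap f (T1 I).u
  rw [T1_u, GLmap_UcG]
  congr 1
  funext l j
  simp only [withTop]
  split_ifs
  · have h1 : tauN (I.map f) = fun k => Units.map (f : R →* S) (tauN I k) := funext fun k => tauN_map f I k
    rw [h1]
    have h2 : (I.map f).cl 1 = fun l j => Units.map (f : R →* S) (I.cl 1 l j) := rfl
    rw [h2, topLayer_map]
    rfl
  · rfl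

lemma TT_map (i : ℕ) : TT (I.map f) i = (TT I i).map f := by
  simp only [TT]
  split_ifs
  · exact T1_map f I
  · exact T2_map f I i

lemma Fan.ext_data {m : ℕ} {F F' : Fan R r m} (h1 : F.uu = F'.uu) (h2 : F.hh = F'.hh)
    (h3 : F.bb = F'.bb) : F = F' := by
  cases F
  cases F'
  simp only at h1 h2 h3
  subst h1 h2 h3
  rfl

lemma theFan_map (hm : 4 ≤ mm s g) : theFan (I.map f) hm = (theFan I hm).map f := by
  apply Fan.ext_data
  · funext i
    show (TT (I.map f) i).u = GLmap f (TT I i).u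
    rw [TT_map]
    rfl
  · funext i
    show (if i = mm s g - 1 then 1 else (TT (I.map f) i).h) =
      GLmap f (if i = mm s g - 1 then 1 else (TT I i).h)
    split_ifs
    · simp
    · rw [TT_map]
      rfl
  · funext i
    show (if i = 0 then 1 else (TT (I.map f) i).b) = GLmap f (if i = 0 then 1 else (TT I i).b)
    split_ifs
    · simp
    · rw [TT_map]
      rfl

lemma theChain_map (hm : 4 ≤ mm s g) : theChain (I.map f) hm = (theChain I hm).map f := by
  simp only [theChain]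
  rw [theFan_map, Fan.map_chain]

lemma bhat_map (hm : 4 ≤ mm s g) (i : ℕ) : bhat (I.map f) hm i = mapZ f (bhat I hm i) := by
  simp only [bhat]
  rw [theChain_map]
  exact dg_mapB f _

lemma Zs_map (hm : 4 ≤ mm s g) (j : ℕ) : Zs (I.map f) hm j = mapZ f (Zs I hm j) := by
  simp only [Zs]
  have : bhat (I.map f) hm = fun i => mapZ f (bhat I hm i) := funext fun i => bhat_map f I hm i
  rw [this, zS_map]

lemma rsWd_map (hm : 4 ≤ mm s g) (j : ℕ) : sWd (I.map f) hm j = GLmap f (sWd I hm j) := by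
  simp only [sWd]
  rw [theChain_map, Zs_map, Chain.map_sW]

lemma rsBd_map (hm : 4 ≤ mm s g) (j : ℕ) : sBd (I.map f) hm j = mapB f (sBd I hm j) := by
  simp only [sBd]
  rw [theChain_map, Zs_map, Chain.map_sB]

lemma rsQd_map (hm : 4 ≤ mm s g) (j : ℕ) : sQd (I.map f) hm j = mapB f (sQd I hm j) := by
  apply Subtype.ext
  simp only [sQd, Chain.sQ]
  rw [theChain_map, Zs_map]
  show ((mapB f ((theChain I hm).β (2 * j + 2)))⁻¹ * torB (mapZ f (Zs I hm j))).1 =
    (mapB f ((((theChain I hm).β (2 * j + 2))⁻¹ * torB (Zs I hm j)))).1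
  rw [mapB_mul, ← mapB_torB]
  congr 2

lemma rxW_map (hm : 4 ≤ mm s g) (i : ℕ) : xW (I.map f) hm i = GLmap f (xW I hm i) := by
  simp only [xW]
  rw [theChain_map, zH'_map, Chain.map_hB]

lemma ryW_map (hm : 4 ≤ mm s g) (i : ℕ) : yW (I.map f) hm i = GLmap f (yW I hm i) := by
  simp only [yW]
  rw [theChain_map, zH_map, map_inv, Chain.map_hA]

/-- The image in the triangular group, as a homomorphism. -/
def mapBHom (f : R →+* S) : Bp R r →* Bp S r where
  toFun := mapB f
  map_one' := by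
    apply Subtype.ext
    simp [mapB]
  map_mul' := mapB_mul f

lemma mapB_inv (f : R →+* S) (B : Bp R r) : mapB f B⁻¹ = (mapB f B)⁻¹ :=
  map_inv (mapBHom f) B

lemma rhQd_map (hm : 4 ≤ mm s g) (i : ℕ) : hQd (I.map f) hm i = mapB f (hQd I hm i) := by
  simp only [hQd, Chain.hQ, Chain.hQ1, Chain.hQ2, Chain.hQ3, Chain.hQ4]
  rw [theChain_map, zH_map, zH'_map]
  simp only [mapB_mul, mapB_inv, mapB_torB]
  have h1 : ∀ x : Fin (n + 2) → Rˣ, (rv (mapZ f x))⁻¹ = mapZ f (rv x)⁻¹ := by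
    intro x
    rw [mapZ_inv, rv_mapZ]
  simp only [h1]
  rfl

lemma HH_map (hm : 4 ≤ mm s g) : HH (I.map f) hm = mapB f (HH I hm) := by
  simp only [HH]
  rw [mapB_mul]
  have h1 := prodDown_map (mapBHom (r := n + 2) f) (sQd I hm) s
  have h2 := prodDown_map (mapBHom (r := n + 2) f) (hQd I hm) g
  have h3 : (fun j => mapBHom f (sQd I hm j)) = sQd (I.map f) hm :=
    funext fun j => (rsQd_map f I hm j).symm
  have h4 : (fun j => mapBHom f (hQd I hm j)) = hQd (I.map f) hm :=
    funext fun j => (rhQd_map f I hm j).symm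
  rw [h3] at h1
  rw [h4] at h2
  rw [← h1, ← h2]
  rfl

lemma gensGL_map (hm : 4 ≤ mm s g) (x : Gens g (s + 1)) :
    gensGL (I.map f) hm x = GLmap f (gensGL I hm x) := by
  rcases x with i | i | j
  · exact rxW_map f I hm _
  · exact ryW_map f I hm _
  · simp only [gensGL]
    split_ifs
    · exact rsWd_map f I hm _
    · rw [HH_map, ← mapB_inv]
      rfl

lemma point_repOf' (hm : 4 ≤ mm s g) (e : R →+* ℂ) (I : Inp R n s g) (p : Var (n + 2) g (s + 1)) :
    point (repOf I hm e) p = (gensGL (I.map e) hm p.1).1 p.2.1 p.2.2 := by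
  rw [gensGL_map]
  rfl

lemma slGL_repOf' (hm : 4 ≤ mm s g) (e : R →+* ℂ) (I : Inp R n s g) (x : Gens g (s + 1)) :
    slGL (repOf I hm e x) = gensGL (I.map e) hm x := by
  rw [gensGL_map, slGL_repOf]

end input

end Vale.Agent.Lib.P002.Surf
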