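import Mathlib
import Vale.Agent.Lib.P002.Reg.Map

set_option linter.unusedSectionVars false
set_option linter.unusedVariables false
set_option linter.unusedSimpArgs false
set_option linter.unnecessarySeqFocus false

namespace Vale.Agent.Lib.P002.Surf

open Matrix

lemma Uc_congr' {R : Type*} [CommRing R] {c c' : ℕ → ℕ → R} (m : ℕ)
    (h : ∀ l j, j < l → l ≤ m → c l j = c' l j) (i j : ℕ) :
    Uc c m i j = Uc c' m i j := by
  induction m generalizing i j with
  | zero => rw [Uc_zero, Uc_zero]
  | succ m ih =>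
    have ih' := ih (fun l j hj hl => h l j hj (by omega))
    cases j with
    | zero => rw [Uc_succ_zero, Uc_succ_zero, ih']
    | succ j =>
      by_cases hj : j ≤ m
      · rw [Uc_succ_succ c m i j hj, Uc_succ_succ c' m i j hj, ih', ih',
          h _ _ (by omega) le_rfl]
      · rw [Uc_succ_big c m i j (by omega), Uc_succ_big c' m i j (by omega), ih']

lemma sum_fin_castLE {N k : ℕ} (h : k ≤ N) (f : Fin N → ℂ) (hf : ∀ l : Fin N, k ≤ l.val → f l = 0) :
    ∑ l, f l = ∑ l' : Fin k, f (Fin.castLE h l') := by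
  symm
  apply Finset.sum_of_injOn (Fin.castLE h)
  · intro a _ b _ hab
    exact Fin.castLE_injective h hab
  · intro a _
    exact Finset.mem_univ _
  · intro i _ hi
    apply hf
    by_contra hlt
    apply hi
    exact ⟨⟨i.val, by omega⟩, by simp, by ext; simp⟩
  · intro i _
    rfl

/-- The rows of the minor computing a subdiagonal entry of `h`. -/
def rowS (k : ℕ) (x : Fin (k + 1)) : ℕ := if x.val < k then x.val else k + 1

/-- The columns of the minor computing a superdiagonal entry of `b`. -/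
def colS (k : ℕ) (y : Fin (k + 1)) : ℕ := if y.val < k then y.val else k + 1

section relations

variable {ρ : ℕ} (T : Tri ℂ (ρ + 1)) {k : ℕ} (hk : k < ρ)

include hk

/-- A minor which is a multiple of a subdiagonal entry of the lower factor. -/
lemma minor_h : ∃ w : ℂ,
    (Matrix.of fun x y : Fin (k + 1) =>
      (T.u * w0).1 ⟨rowS k x, by have := x.isLt; simp only [rowS]; split_ifs <;> omega⟩
        ⟨y.val, by have := y.isLt; omega⟩).det = T.h.1 ⟨k + 1, by omega⟩ ⟨k, by omega⟩ * w := by
  set S : Fin (k + 1) → Fin (ρ + 1) :=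
    fun x => ⟨rowS k x, by have := x.isLt; simp only [rowS]; split_ifs <;> omega⟩ with hS
  set C : Fin (k + 1) → Fin (ρ + 1) := fun y => ⟨y.val, by have := y.isLt; omega⟩ with hC
  have hfac : (Matrix.of fun x y : Fin (k + 1) => (T.u * w0).1 (S x) (C y)) =
      (Matrix.of fun x y : Fin (k + 1) => T.h.1 (S x) (C y)) *
        (Matrix.of fun x y : Fin (k + 1) => T.b.1 (C x) (C y)) := by
    ext x y
    rw [Matrix.mul_apply]
    simp only [Matrix.of_apply]
    rw [T.rel]
    show (T.h.1 * T.b.1) (S x) (C y) = _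
    rw [Matrix.mul_apply, sum_fin_castLE (show k + 1 ≤ ρ + 1 by omega)]
    · rfl
    · intro l hl
      rw [T.hb l (C y) (by
        show y.val < l.val
        have := y.isLt
        omega), mul_zero]
  refine ⟨(Matrix.of fun x y : Fin (k + 1) => T.b.1 (C x) (C y)).det, ?_⟩
  rw [hfac, Matrix.det_mul]
  congr 1
  have hL : LT (Matrix.of fun x y : Fin (k + 1) => T.h.1 (S x) (C y)) := by
    intro x y hxy
    simp only [Matrix.of_apply]
    apply T.hh.1
    show (S x).val < (C y).val
    have h1 : x.val < y.val := hxy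
    have h2 := y.isLt
    simp only [hS, hC, rowS]
    rw [if_pos (by omega)]
    exact h1
  rw [det_of_LT hL, Fin.prod_univ_castSucc]
  have h1 : ∀ x : Fin k, T.h.1 (S x.castSucc) (C x.castSucc) = 1 := by
    intro x
    have : S x.castSucc = C x.castSucc := by
      apply Fin.ext
      simp [hS, hC, rowS]
    rw [this]
    exact T.hh.2 _
  have h2 : S (Fin.last k) = ⟨k + 1, by omega⟩ := by
    apply Fin.ext
    simp [hS, rowS]
  have h3 : C (Fin.last k) = ⟨k, by omega⟩ := by
    apply Fin.ext
    simp [hC]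
  simp only [Matrix.of_apply, h1, h2, h3, Finset.prod_const_one, one_mul]

/-- A minor which is a multiple of a superdiagonal entry of the upper factor. -/
lemma minor_b : ∃ w : ℂ,
    (Matrix.of fun x y : Fin (k + 1) =>
      (T.u * w0).1 ⟨x.val, by have := x.isLt; omega⟩
        ⟨colS k y, by have := y.isLt; simp only [colS]; split_ifs <;> omega⟩).det =
      T.b.1 ⟨k, by omega⟩ ⟨k + 1, by omega⟩ * w := by
  set S : Fin (k + 1) → Fin (ρ + 1) :=
    fun x => ⟨colS k x, by have := x.isLt; simp only [colS]; split_ifs <;> omega⟩ with hS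
  set C : Fin (k + 1) → Fin (ρ + 1) := fun y => ⟨y.val, by have := y.isLt; omega⟩ with hC
  have hfac : (Matrix.of fun x y : Fin (k + 1) => (T.u * w0).1 (C x) (S y)) =
      (Matrix.of fun x y : Fin (k + 1) => T.h.1 (C x) (C y)) *
        (Matrix.of fun x y : Fin (k + 1) => T.b.1 (C x) (S y)) := by
    ext x y
    rw [Matrix.mul_apply]
    simp only [Matrix.of_apply]
    rw [T.rel]
    show (T.h.1 * T.b.1) (C x) (S y) = _
    rw [Matrix.mul_apply, sum_fin_castLE (show k + 1 ≤ ρ + 1 by omega)]
    · rfl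
    · intro l hl
      rw [T.hh.1 (C x) l (by
        show x.val < l.val
        have := x.isLt
        omega), zero_mul]
  have hL : LT (Matrix.of fun x y : Fin (k + 1) => T.h.1 (C x) (C y)) := by
    intro x y hxy
    exact T.hh.1 _ _ hxy
  have hdet : (Matrix.of fun x y : Fin (k + 1) => T.h.1 (C x) (C y)).det = 1 := by
    rw [det_of_LT hL]
    apply Finset.prod_eq_one
    intro x _
    exact T.hh.2 _
  have hU : UT (Matrix.of fun x y : Fin (k + 1) => T.b.1 (C x) (S y)) := by
    intro x y hxy
    simp only [Matrix.of_apply]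
    apply T.hb
    show (S y).val < (C x).val
    have h1 : y.val < x.val := hxy
    have h2 := x.isLt
    simp only [hS, hC, colS]
    rw [if_pos (by omega)]
    exact h1
  refine ⟨∏ x : Fin k, T.b.1 (C x.castSucc) (S x.castSucc), ?_⟩
  rw [hfac, Matrix.det_mul, hdet, one_mul, det_of_UT hU, Fin.prod_univ_castSucc, mul_comm]
  congr 1
  simp only [Matrix.of_apply]
  have h2 : S (Fin.last k) = ⟨k + 1, by omega⟩ := by
    apply Fin.ext
    simp [hS, colS]
  have h3 : C (Fin.last k) = ⟨k, by omega⟩ := by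
    apply Fin.ext
    simp [hC]
  rw [h2, h3]

end relations

/-! ### The layers of a minor with general rows -/

lemma layer_factor' {R : Type*} [CommRing R] (c : ℕ → ℕ → R) (m k : ℕ) (hk : k ≤ m + 1)
    (S : Fin k → ℕ) (hS : ∀ x, S x ≠ m + 1) :
    (Matrix.of fun i j : Fin k => Uc c (m + 1) (S i) (m + 1 - j)) =
      (Matrix.of fun i j : Fin k => Uc c m (S i) (m - j)) * layerT c m k := by
  ext i j
  rw [Matrix.mul_apply]
  simp only [layerT, Matrix.of_apply, mul_add, Finset.sum_add_distrib]
  have hjk : j.val < k := j.isLt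
  have h1 : ∑ x : Fin k, Uc c m (S i) (m - x) * (if x = j then c (m + 1) (m - j) else 0) =
      Uc c m (S i) (m - j) * c (m + 1) (m - j) := by
    rw [Finset.sum_eq_single j]
    · simp
    · intro b _ hb
      simp [hb]
    · simp
  rw [h1]
  by_cases hj0 : j.val = 0
  · rw [Finset.sum_eq_zero]
    · rw [hj0]
      simp only [Nat.sub_zero]
      rw [Uc_succ_succ c m (S i) m le_rfl, Uc_beyond c m (S i) (m + 1) (by omega) (hS i)]
      ring
    · intro x _
      rw [if_neg (by omega), mul_zero]
  · have hjm : m + 1 - j.val = (m - j.val) + 1 := by omega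
    rw [hjm, Uc_succ_succ c m (S i) (m - j.val) (by omega)]
    rw [Finset.sum_eq_single (⟨j.val - 1, by omega⟩ : Fin k)]
    · have : (⟨j.val - 1, by omega⟩ : Fin k).val + 1 = j.val := by
        show j.val - 1 + 1 = j.val
        omega
      rw [if_pos this]
      have h2 : m - (j.val - 1) = m - j.val + 1 := by omega
      show _ = Uc c m (S i) (m - j.val) * c (m + 1) (m - j.val) + Uc c m (S i) (m - (j.val - 1)) * 1
      rw [h2]
      ring
    · intro b _ hb
      rw [if_neg, mul_zero]
      intro h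
      apply hb
      apply Fin.ext
      show b.val = j.val - 1
      omega
    · simp

/-- The minor on the rows `S` in the last `k` columns of level `m`. -/
noncomputable def Nm {R : Type*} [CommRing R] (c : ℕ → ℕ → R) (m k : ℕ) (S : Fin k → ℕ) : R :=
  (Matrix.of fun i j : Fin k => Uc c m (S i) (m - j)).det

lemma Nm_succ {R : Type*} [CommRing R] (c : ℕ → ℕ → R) (m k : ℕ) (hk : k ≤ m + 1)
    (S : Fin k → ℕ) (hS : ∀ x, S x ≠ m + 1) :
    Nm c (m + 1) k S = Nm c m k S * ∏ j : Fin k, c (m + 1) (m - j) := by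
  simp only [Nm]
  rw [layer_factor' c m k hk S hS, Matrix.det_mul, layerT_det]

lemma Nm_map {R S' : Type*} [CommRing R] [CommRing S'] (f : R →+* S') (c : ℕ → ℕ → R) (m k : ℕ)
    (S : Fin k → ℕ) : f (Nm c m k S) = Nm (fun l j => f (c l j)) m k S := by
  simp only [Nm]
  rw [RingHom.map_det]
  congr 1
  ext i j
  simp only [RingHom.mapMatrix_apply, Matrix.map_apply, Matrix.of_apply]
  exact Uc_map f c m _ _

/-- The special point: the layer `k + 1` vanishes, all other parameters are one. -/
def cZero (k : ℕ) (ε : ℂ) : ℕ → ℕ → ℂ := fun l _ => if l = k + 1 then ε else 1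

lemma Dm_ones (k : ℕ) (ε : ℂ) : Dm (cZero k ε) k k ≠ 0 := by
  have h1 : Dm (cZero k ε) k k = Dm (fun _ _ => (1 : ℂ)) k k := by
    simp only [Dm]
    congr 1
    ext x y
    simp only [Matrix.of_apply]
    apply Uc_congr
    intro l j hl
    simp only [cZero]
    rw [if_neg (by omega)]
  rw [h1]
  exact (Dm_isUnit (c := fun _ _ => (1 : ℂ)) (fun _ _ => isUnit_one) k k (by omega)).ne_zero

lemma Uc_zero_layer (k i j : ℕ) : Uc (cZero k 0) (k + 1) i j = Uc (cZero k 0) k i j := by
  cases j with
  | zero => rw [Uc_succ_zero]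
  | succ j =>
    by_cases hj : j ≤ k
    · rw [Uc_succ_succ _ k i j hj]
      simp [cZero]
    · rw [Uc_succ_big _ k i j (by omega)]

lemma Nm_base (k : ℕ) : Nm (cZero k 0) (k + 1) (k + 1) (rowS k) ≠ 0 := by
  simp only [Nm, Uc_zero_layer]
  set A : Matrix (Fin (k + 1)) (Fin (k + 1)) ℂ :=
    Matrix.of fun i j : Fin (k + 1) => Uc (cZero k 0) k (rowS k i) (k + 1 - j) with hA
  rw [Matrix.det_succ_row A (Fin.last k), Finset.sum_eq_single 0]
  · have h1 : A (Fin.last k) 0 = 1 := by
      simp only [hA, Matrix.of_apply, rowS]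
      simp [Uc_self]
    have h2 : (A.submatrix (Fin.last k).succAbove (Fin.succAbove 0)).det = Dm (cZero k 0) k k := by
      simp only [Dm]
      congr 1
      ext x y
      simp only [hA, Matrix.submatrix_apply, Matrix.of_apply, Fin.succAbove_last, Fin.succAbove_zero,
        rowS, Fin.val_castSucc, Fin.val_succ]
      rw [if_pos x.isLt]
      congr 1
      omega
    rw [h1, h2]
    apply mul_ne_zero
    · apply mul_ne_zero
      · exact pow_ne_zero _ (by norm_num)
      · exact one_ne_zero
    · exact Dm_ones k 0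
  · intro y _ hy
    have hy0 : 0 < y.val := Nat.pos_of_ne_zero fun h => hy (Fin.ext h)
    have : A (Fin.last k) y = 0 := by
      simp only [hA, Matrix.of_apply, rowS]
      simp only [Fin.val_last, lt_self_iff_false, if_false]
      apply Uc_lt
      omega
    rw [this]
    simp
  · simp

lemma Nm_top_zero (k d : ℕ) : Nm (cZero k 0) (k + 1 + d) (k + 1) (rowS k) ≠ 0 := by
  induction d with
  | zero => exact Nm_base k
  | succ d ih =>
    rw [show k + 1 + (d + 1) = (k + 1 + d) + 1 by omega, Nm_succ _ _ _ (by omega)]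
    · apply mul_ne_zero ih
      apply Finset.prod_ne_zero_iff.mpr
      intro j _
      simp only [cZero]
      rw [if_neg (by omega)]
      exact one_ne_zero
    · intro x
      simp only [rowS]
      split_ifs <;> have := x.isLt <;> omega

/-- A unit point where the minor of the lower factor is not zero. -/
lemma exists_Nm_ne (ρ k : ℕ) (hk : k < ρ) :
    ∃ c : ℕ → ℕ → ℂˣ, Nm (fun l j => ((c l j : ℂˣ) : ℂ)) ρ (k + 1) (rowS k) ≠ 0 := by
  open Polynomial in
  let cX : ℕ → ℕ → ℂ[X] := fun l _ => if l = k + 1 then X else 1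
  have hev : ∀ ε : ℂ, Polynomial.evalRingHom ε (Nm cX ρ (k + 1) (rowS k)) =
      Nm (cZero k ε) ρ (k + 1) (rowS k) := by
    intro ε
    rw [Nm_map]
    congr 1
    funext l j
    simp only [cX, cZero]
    split_ifs <;> simp
  have h0 : Nm cX ρ (k + 1) (rowS k) ≠ 0 := by
    intro h
    have h1 := hev 0
    rw [h, map_zero] at h1
    obtain ⟨d, rfl⟩ : ∃ d, ρ = k + 1 + d := ⟨ρ - (k + 1), by omega⟩
    exact Nm_top_zero k d h1.symm
  have h1 : (Nm cX ρ (k + 1) (rowS k)) * Polynomial.X ≠ 0 := mul_ne_zero h0 Polynomial.X_ne_zero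
  have h2 : ∃ ε : ℂ, Polynomial.eval ε ((Nm cX ρ (k + 1) (rowS k)) * Polynomial.X) ≠ 0 := by
    by_contra hall
    simp only [not_exists, not_not] at hall
    apply h1
    apply Polynomial.funext
    intro ε
    rw [hall ε]
    simp
  obtain ⟨ε, hε⟩ := h2
  rw [Polynomial.eval_mul, Polynomial.eval_X] at hε
  have hε1 : ε ≠ 0 := right_ne_zero_of_mul hε
  have hε2 := left_ne_zero_of_mul hε
  refine ⟨fun l _ => if l = k + 1 then Units.mk0 ε hε1 else 1, ?_⟩
  have h3 := hev ε
  rw [Polynomial.coe_evalRingHom] at h3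
  rw [h3] at hε2
  convert hε2 using 2
  funext l j
  simp only [cZero]
  split_ifs <;> simp

/-- A triangle with a non-vanishing subdiagonal entry of the lower factor. -/
lemma exists_h_ne (ρ k : ℕ) (hk : k < ρ) :
    ∃ c : ℕ → ℕ → ℂˣ, ∀ T : Tri ℂ (ρ + 1),
      T.u = UcG (fun l j => ((c l j : ℂˣ) : ℂ)) ρ → T.h.1 ⟨k + 1, by omega⟩ ⟨k, by omega⟩ ≠ 0 := by
  obtain ⟨c, hc⟩ := exists_Nm_ne ρ k hk
  refine ⟨c, fun T hT h0 => hc ?_⟩
  obtain ⟨w, hw⟩ := minor_h T hk
  rw [h0, zero_mul] at hw
  rw [← hw]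
  simp only [Nm]
  congr 1
  ext x y
  simp only [Matrix.of_apply]
  show _ = (T.u.1 * (w0M : Matrix (Fin (ρ + 1)) (Fin (ρ + 1)) ℂ)) _ _
  rw [mul_w0M, hT, UcG_val]
  simp only [UcM, Matrix.of_apply, Fin.val_rev]
  congr 1
  have := y.isLt
  omega

/-! ### The superdiagonal of the upper factor -/

/-- The minor computing a superdiagonal entry of the upper factor. -/
noncomputable def Nb {R : Type*} [CommRing R] (c : ℕ → ℕ → R) (ρ k : ℕ) : R :=
  (Matrix.of fun x y : Fin (k + 1) => Uc c ρ x (ρ - colS k y)).det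

lemma Nb_map {R S' : Type*} [CommRing R] [CommRing S'] (f : R →+* S') (c : ℕ → ℕ → R) (ρ k : ℕ) :
    f (Nb c ρ k) = Nb (fun l j => f (c l j)) ρ k := by
  simp only [Nb]
  rw [RingHom.map_det]
  congr 1
  ext i j
  simp only [RingHom.mapMatrix_apply, Matrix.map_apply, Matrix.of_apply]
  exact Uc_map f c ρ _ _

/-- The line of parameters for the superdiagonal of the upper factor. -/
def cZb (m k : ℕ) (ε : ℂ) : ℕ → ℕ → ℂ := fun l j => if l = m + 1 ∧ j + k + 1 = m then ε else 1

lemma Nb_zero (m k : ℕ) (hk : k ≤ m) : Nb (cZb m k 0) (m + 1) k ≠ 0 := by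
  -- the bidiagonal factor
  let T : Matrix (Fin (k + 1)) (Fin (k + 1)) ℂ := Matrix.of fun a b =>
    (if a = b then 1 else 0) + (if a.val + 1 = b.val ∧ b.val < k then 1 else 0)
  have hT : UT T := by
    intro a b hab
    have h1 : b.val < a.val := hab
    simp only [T, Matrix.of_apply]
    rw [if_neg (ne_of_gt hab), if_neg]
    · simp
    · rintro ⟨h2, -⟩
      omega
  have hTd : T.det = 1 := by
    rw [det_of_UT hT]
    apply Finset.prod_eq_one
    intro a _
    simp [T]
  have hfac : (Matrix.of fun x y : Fin (k + 1) => Uc (cZb m k 0) (m + 1) x (m + 1 - colS k y)) =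
      (Matrix.of fun x y : Fin (k + 1) => Uc (cZb m k 0) m x (m - y)) * T := by
    ext x y
    have hx := x.isLt
    have hy := y.isLt
    rw [Matrix.mul_apply]
    simp only [T, Matrix.of_apply, mul_add, Finset.sum_add_distrib]
    have h1 : ∑ b : Fin (k + 1), Uc (cZb m k 0) m x (m - b) * (if b = y then (1 : ℂ) else 0) =
        Uc (cZb m k 0) m x (m - y) := by
      rw [Finset.sum_eq_single y]
      · simp
      · intro b _ hb
        simp [hb]
      · simp
    rw [h1]
    by_cases hyk : y.val < k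
    · have e1 : colS k y = y.val := by simp [colS, hyk]
      rw [e1, show m + 1 - y.val = (m - y.val) + 1 by omega,
        Uc_succ_succ _ m _ (m - y.val) (by omega)]
      have h2 : cZb m k 0 (m + 1) (m - y.val) = 1 := by
        simp only [cZb]
        rw [if_neg]
        rintro ⟨-, h⟩
        omega
      rw [h2, one_mul, add_comm]
      congr 1
      by_cases hy0 : y.val = 0
      · rw [Finset.sum_eq_zero]
        · rw [hy0]
          simp only [Nat.sub_zero]
          exact Uc_beyond _ m _ _ (by omega) (by omega)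
        · intro b _
          rw [if_neg (by omega), mul_zero]
      · rw [Finset.sum_eq_single (⟨y.val - 1, by omega⟩ : Fin (k + 1))]
        · rw [if_pos (by
            show y.val - 1 + 1 = y.val ∧ y.val < k
            omega), mul_one]
          show _ = Uc (cZb m k 0) m x (m - (y.val - 1))
          congr 1
          omega
        · intro b _ hb
          rw [if_neg, mul_zero]
          rintro ⟨h, -⟩
          apply hb
          apply Fin.ext
          show b.val = y.val - 1
          omega
        · simp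
    · have hyk' : y.val = k := by omega
      have e1 : colS k y = k + 1 := by simp [colS, hyk']
      have e2 : m + 1 - (k + 1) = m - k := by omega
      rw [e1, e2, hyk']
      have h2 : Uc (cZb m k 0) (m + 1) x (m - k) = Uc (cZb m k 0) m x (m - k) := by
        by_cases hmk : m = k
        · subst hmk
          simp only [Nat.sub_self]
          rw [Uc_succ_zero]
        · obtain ⟨j, hj⟩ : ∃ j, m - k = j + 1 := ⟨m - k - 1, by omega⟩
          rw [hj, Uc_succ_succ _ m _ j (by omega)]
          have h3 : cZb m k 0 (m + 1) j = 0 := by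
            show (if m + 1 = m + 1 ∧ j + k + 1 = m then (0 : ℂ) else 1) = 0
            rw [if_pos ⟨rfl, by omega⟩]
          rw [h3, zero_mul, add_zero]
      rw [h2, Finset.sum_eq_zero, add_zero]
      intro b _
      rw [if_neg, mul_zero]
      rintro ⟨-, h⟩
      omega
  simp only [Nb]
  rw [hfac, Matrix.det_mul, hTd, mul_one]
  have h1 : (Matrix.of fun x y : Fin (k + 1) => Uc (cZb m k 0) m x (m - y)).det =
      Dm (fun _ _ => (1 : ℂ)) m (k + 1) := by
    simp only [Dm]
    congr 1
    ext x y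
    simp only [Matrix.of_apply]
    apply Uc_congr
    intro l j hl
    simp only [cZb]
    rw [if_neg]
    rintro ⟨h, -⟩
    omega
  rw [h1]
  exact (Dm_isUnit (c := fun _ _ => (1 : ℂ)) (fun _ _ => isUnit_one) m (k + 1) (by omega)).ne_zero

lemma exists_Nb_ne (m k : ℕ) (hk : k ≤ m) :
    ∃ c : ℕ → ℕ → ℂˣ, Nb (fun l j => ((c l j : ℂˣ) : ℂ)) (m + 1) k ≠ 0 := by
  open Polynomial in
  let cX : ℕ → ℕ → ℂ[X] := fun l j => if l = m + 1 ∧ j + k + 1 = m then X else 1
  have hev : ∀ ε : ℂ, Polynomial.evalRingHom ε (Nb cX (m + 1) k) = Nb (cZb m k ε) (m + 1) k := by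
    intro ε
    rw [Nb_map]
    congr 1
    funext l j
    simp only [cX, cZb]
    split_ifs <;> simp
  have h0 : Nb cX (m + 1) k ≠ 0 := by
    intro h
    have h1 := hev 0
    rw [h, map_zero] at h1
    exact Nb_zero m k hk h1.symm
  have h1 : (Nb cX (m + 1) k) * Polynomial.X ≠ 0 := mul_ne_zero h0 Polynomial.X_ne_zero
  have h2 : ∃ ε : ℂ, Polynomial.eval ε ((Nb cX (m + 1) k) * Polynomial.X) ≠ 0 := by
    by_contra hall
    simp only [not_exists, not_not] at hall
    apply h1
    apply Polynomial.funext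
    intro ε
    rw [hall ε]
    simp
  obtain ⟨ε, hε⟩ := h2
  rw [Polynomial.eval_mul, Polynomial.eval_X] at hε
  have hε1 : ε ≠ 0 := right_ne_zero_of_mul hε
  have hε2 := left_ne_zero_of_mul hε
  refine ⟨fun l j => if l = m + 1 ∧ j + k + 1 = m then Units.mk0 ε hε1 else 1, ?_⟩
  have h3 := hev ε
  rw [Polynomial.coe_evalRingHom] at h3
  rw [h3] at hε2
  convert hε2 using 2
  funext l j
  simp only [cZb]
  split_ifs <;> simp

/-- A triangle with a non-vanishing superdiagonal entry of the upper factor. -/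
lemma exists_b_ne (ρ k : ℕ) (hk : k < ρ) :
    ∃ c : ℕ → ℕ → ℂˣ, ∀ T : Tri ℂ (ρ + 1),
      T.u = UcG (fun l j => ((c l j : ℂˣ) : ℂ)) ρ → T.b.1 ⟨k, by omega⟩ ⟨k + 1, by omega⟩ ≠ 0 := by
  obtain ⟨m, rfl⟩ : ∃ m, ρ = m + 1 := ⟨ρ - 1, by omega⟩
  obtain ⟨c, hc⟩ := exists_Nb_ne m k (by omega)
  refine ⟨c, fun T hT h0 => hc ?_⟩
  obtain ⟨w, hw⟩ := minor_b T hk
  rw [h0, zero_mul] at hw
  rw [← hw]
  simp only [Nb]
  congr 1
  ext x y
  simp only [Matrix.of_apply]
  show _ = (T.u.1 * (w0M : Matrix (Fin (m + 1 + 1)) (Fin (m + 1 + 1)) ℂ)) _ _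
  rw [mul_w0M, hT, UcG_val]
  simp only [UcM, Matrix.of_apply, Fin.val_rev]
  congr 1
  have := y.isLt
  simp only [colS]
  split_ifs <;> omega

end Vale.Agent.Lib.P002.Surf
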