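import Mathlib
import Vale.Agent.Lib.P002.Reg.Minor

set_option linter.unusedSectionVars false
set_option linter.unusedVariables false
set_option linter.unusedSimpArgs false
set_option linter.unnecessarySeqFocus false

namespace Vale.Agent.Lib.P002.Surf

open Matrix

variable {r : ℕ}

/-- The principal torus element. -/
noncomputable def eP (r : ℕ) (ν : ℂˣ) : Fin r → ℂˣ := fun i => ν ^ (2 * i.val) / ν ^ (r - 1)

lemma rv_eP (ν : ℂˣ) : rv (eP r ν) = (eP r ν)⁻¹ := by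
  funext i
  simp only [rv, eP, Pi.inv_apply, inv_div, Fin.val_rev]
  rw [div_eq_div_iff_mul_eq_mul, ← pow_add, ← pow_add]
  congr 1
  have := i.isLt
  omega

lemma prod_eP (ν : ℂˣ) : ∏ i, eP r ν i = 1 := by
  simp only [eP, Finset.prod_div_distrib, Finset.prod_const, Finset.card_univ, Fintype.card_fin,
    Finset.prod_pow_eq_pow_sum]
  rw [div_eq_one, ← Finset.mul_sum]
  have h : ∑ a : Fin r, a.val = ∑ a ∈ Finset.range r, a := Fin.sum_univ_eq_sum_range (fun a => a) r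
  rw [h, ← pow_mul]
  congr 1
  have := Finset.sum_range_id_mul_two r
  rcases r with _ | r
  · simp
  · simp only [Nat.add_sub_cancel] at this ⊢
    linarith

/-- The values of the principal torus element on natural numbers. -/
noncomputable def pP (r : ℕ) (ν : ℂˣ) : ℕ → ℂ := fun k => (ν : ℂ) ^ (2 * k) / (ν : ℂ) ^ (r - 1)

lemma pP_ne (ν : ℂˣ) (k : ℕ) : pP r ν k ≠ 0 :=
  div_ne_zero (pow_ne_zero _ ν.ne_zero) (pow_ne_zero _ ν.ne_zero)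

lemma pP_eP (ν : ℂˣ) (i : Fin r) : pP r ν i.val = ((eP r ν i : ℂˣ) : ℂ) := by
  simp [pP, eP]

lemma pP_ratio (ν : ℂˣ) (k : ℕ) : pP r ν k * (pP r ν (k + 1))⁻¹ = ((ν : ℂ) ^ 2)⁻¹ := by
  simp only [pP]
  have := ν.ne_zero
  field_simp
  ring

/-- The torus matrix of the principal element. -/
noncomputable def EE (r : ℕ) (ν : ℂˣ) : GLr ℂ r := tor (eP r ν)

lemma w0_EE_w0 (ν : ℂˣ) : (w0 * EE r ν * w0 : GLr ℂ r) = (EE r ν)⁻¹ := by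
  rw [EE, w0_conj_tor, rv_eP, tor_inv]

lemma EE_inv_w0 (ν : ℂˣ) : (EE r ν)⁻¹ * w0 = w0 * EE r ν := by
  rw [← w0_EE_w0]
  have h : (w0 * w0 : GLr ℂ r) = 1 := w0_mul_w0
  calc (w0 * EE r ν * w0 * w0 : GLr ℂ r) = w0 * EE r ν * (w0 * w0) := by group
    _ = _ := by rw [h, mul_one]

lemma w0_inv_EE_w0 (ν : ℂˣ) : (w0 * (EE r ν)⁻¹ * w0 : GLr ℂ r) = EE r ν := by
  have h : (w0 * w0 : GLr ℂ r) = 1 := w0_mul_w0
  rw [← w0_EE_w0]
  calc (w0 * (w0 * EE r ν * w0) * w0 : GLr ℂ r) = (w0 * w0) * EE r ν * (w0 * w0) := by group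
    _ = _ := by rw [h]; group

lemma EE_conj_apply (ν : ℂˣ) (X : GLr ℂ r) (a b : Fin r) :
    (EE r ν * X * (EE r ν)⁻¹).1 a b = (pP r ν a) * X.1 a b * (pP r ν b)⁻¹ := by
  rw [EE, tor_conj_apply, pP_eP, pP_eP]

lemma EE_conj_super (ν : ℂˣ) (X : GLr ℂ r) (a b : Fin r) (h : a.val + 1 = b.val) :
    (EE r ν * X * (EE r ν)⁻¹).1 a b = ((ν : ℂ) ^ 2)⁻¹ * X.1 a b := by
  rw [EE_conj_apply, ← h]
  have h1 := pP_ratio (r := r) ν a.val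
  rw [← h1]
  ring

lemma EE_conj_sub (ν : ℂˣ) (X : GLr ℂ r) (a b : Fin r) (h : b.val + 1 = a.val) :
    (EE r ν * X * (EE r ν)⁻¹).1 a b = (ν : ℂ) ^ 2 * X.1 a b := by
  rw [EE_conj_apply, ← h]
  have h1 := pP_ratio (r := r) ν b.val
  have h2 : (pP r ν (b.val + 1)) * (pP r ν b.val)⁻¹ = (ν : ℂ) ^ 2 := by
    have h3 := pP_ne (r := r) ν b.val
    have h4 := pP_ne (r := r) ν (b.val + 1)
    have h5 : pP r ν b.val * (pP r ν (b.val + 1))⁻¹ ≠ 0 := mul_ne_zero h3 (inv_ne_zero h4)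
    rw [h1] at h5
    have h6 : ((pP r ν b.val * (pP r ν (b.val + 1))⁻¹))⁻¹ = (((ν : ℂ) ^ 2)⁻¹)⁻¹ := by rw [h1]
    rw [inv_inv] at h6
    rw [← h6]
    field_simp
  rw [← h2]
  ring

lemma EE_conj_diag (ν : ℂˣ) (X : GLr ℂ r) (a : Fin r) :
    (EE r ν * X * (EE r ν)⁻¹).1 a a = X.1 a a := by
  rw [EE_conj_apply]
  have := pP_ne (r := r) ν a.val
  field_simp

lemma EE_conj_Um (ν : ℂˣ) {X : GLr ℂ r} (h : X ∈ Um ℂ r) : EE r ν * X * (EE r ν)⁻¹ ∈ Um ℂ r := by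
  refine ⟨fun a b hab => ?_, fun a => ?_⟩
  · rw [EE_conj_apply, h.1 a b hab]
    simp
  · rw [EE_conj_diag, h.2]

/-- The effect of the common scaling of all parameters of a triangle. -/
theorem tri_scale {ρ : ℕ} (T T' : Tri ℂ (ρ + 1)) (c c' : ℕ → ℕ → ℂ) (ν : ℂˣ)
    (hT : T.u = UcG c ρ) (hT' : T'.u = UcG c' ρ)
    (hc : ∀ l j, j < l → l ≤ ρ → c' l j = c l j * ((ν : ℂ) ^ 2)⁻¹) :
    T'.u = EE (ρ + 1) ν * T.u * (EE (ρ + 1) ν)⁻¹ ∧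
      T'.h = EE (ρ + 1) ν * T.h * (EE (ρ + 1) ν)⁻¹ ∧
      T'.b = EE (ρ + 1) ν * T.b * EE (ρ + 1) ν := by
  have hu : T'.u = EE (ρ + 1) ν * T.u * (EE (ρ + 1) ν)⁻¹ := by
    apply Units.ext
    ext x y
    rw [EE_conj_apply, hT, hT', UcG_val, UcG_val]
    simp only [UcM, Matrix.of_apply]
    rw [Uc_congr' (c' := fun l j => c l j * pP (ρ + 1) ν j * (pP (ρ + 1) ν (j + 1))⁻¹) ρ
      (fun l j h1 h2 => by
        rw [hc l j h1 h2, mul_assoc, pP_ratio]), Uc_scale c _ (pP_ne ν)]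
  refine ⟨hu, ?_⟩
  have hE : T'.h * T'.b = (EE (ρ + 1) ν * T.h * (EE (ρ + 1) ν)⁻¹) * (EE (ρ + 1) ν * T.b * EE (ρ + 1) ν) := by
    rw [← T'.rel, hu]
    have h1 : (EE (ρ + 1) ν * T.u * (EE (ρ + 1) ν)⁻¹ * w0 : GLr ℂ (ρ + 1)) =
        EE (ρ + 1) ν * (T.u * w0) * EE (ρ + 1) ν := by
      calc (EE (ρ + 1) ν * T.u * (EE (ρ + 1) ν)⁻¹ * w0 : GLr ℂ (ρ + 1))
          = EE (ρ + 1) ν * T.u * ((EE (ρ + 1) ν)⁻¹ * w0) := by group
        _ = EE (ρ + 1) ν * T.u * (w0 * EE (ρ + 1) ν) := by rw [EE_inv_w0]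
        _ = _ := by group
    rw [h1, T.rel]
    group
  obtain ⟨h1, h2⟩ := LU_unique T'.hh (EE_conj_Um ν T.hh) T'.hb
    (mul_mem (mul_mem (tor_mem _) T.hb) (tor_mem _)) hE
  exact ⟨h1, h2⟩

end Vale.Agent.Lib.P002.Surf
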