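import Mathlib
import Vale.Agent.Lib.P002.Reg.Scale

set_option linter.unusedSectionVars false
set_option linter.unusedVariables false
set_option linter.unusedSimpArgs false
set_option linter.unnecessarySeqFocus false

namespace Vale.Agent.Lib.P002.Surf

open Matrix

variable {n s g : ℕ}

lemma Inp.ext' {R : Type*} [CommRing R] {J J' : Inp R n s g} (h1 : J.cl = J'.cl) (h2 : J.tp = J'.tp)
    (h3 : J.zf = J'.zf) (h4 : J.a = J'.a) : J = J' := by
  cases J
  cases J'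
  simp only at h1 h2 h3 h4
  subst h1 h2 h3 h4
  rfl

/-- The inputs over the complex numbers which come from points of the torus. -/
structure Normal (a : Fin (s + 1) → Fin (n + 2) → ℂ) (J : Inp ℂ n s g) : Prop where
  cl_out : ∀ i l j, ¬ (1 ≤ i ∧ i ≤ mm s g - 2 ∧ l ≤ n ∧ j < l) → J.cl i l j = 1
  tp_out : ∀ i q, ¬ (3 ≤ i ∧ i ≤ mm s g - 2 ∧ q ≤ n) → J.tp i q = 1
  zf_out : ∀ k q, ¬ k < 2 * g → J.zf k q = 1
  a_in : ∀ k (h : k < s + 1) i, ((J.a k i : ℂˣ) : ℂ) = a ⟨k, h⟩ i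
  a_out : ∀ k i, ¬ k < s + 1 → J.a k i = 1

section torus

variable (a : Fin (s + 1) → Fin (n + 2) → ℂ)
  (hai : ∀ j i, IsIntegral ℤ (a j i)) (hp : ∀ j, ∏ i, a j i = 1)

/-- The input attached to a point of the torus. -/
noncomputable def Jt (t : ParIdx n s g → ℂˣ) : Inp ℂ n s g := (theInp a hai hp).map (ev t)

lemma Jt_normal (t : ParIdx n s g → ℂˣ) : Normal a (Jt a hai hp t) where
  cl_out := by
    intro i l j h
    simp only [Jt, Inp.map, theInp, chartInp]
    rw [dif_neg h]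
    simp
  tp_out := by
    intro i q h
    simp only [Jt, Inp.map, theInp, chartInp]
    rw [dif_neg h]
    simp
  zf_out := by
    intro k q h
    simp only [Jt, Inp.map, theInp, chartInp]
    rw [dif_neg h]
    simp
  a_in := by
    intro k h i
    exact ev_theInp_a a hai hp t ⟨k, h⟩ i
  a_out := by
    intro k i h
    simp only [Jt, Inp.map, theInp, chartInp]
    rw [dif_neg h]
    simp

lemma map_ev_tU {Ι : Type} {O : Subring ℂ} (t : Ι → ℂˣ) (x : Ι) :
    Units.map ((ev t : LRing O Ι →+* ℂ) : LRing O Ι →* ℂ) (tU x) = t x :=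
  Units.ext rfl

/-- Every input with the right shape comes from a point of the torus. -/
lemma exists_t_of_normal {J : Inp ℂ n s g} (hJ : Normal a J) :
    ∃ t : ParIdx n s g → ℂˣ, Jt a hai hp t = J := by
  let t : ParIdx n s g → ℂˣ := fun x => match x with
    | Sum.inl (i, ⟨l, j⟩) => J.cl (i.val + 1) l.val j.val
    | Sum.inr (Sum.inl (i, q)) => J.tp (i.val + 3) q.val
    | Sum.inr (Sum.inr (k, q)) => J.zf k.val q
  refine ⟨t, ?_⟩
  apply Inp.ext'
  · funext i l j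
    simp only [Jt, Inp.map, theInp, chartInp]
    by_cases h : 1 ≤ i ∧ i ≤ mm s g - 2 ∧ l ≤ n ∧ j < l
    · rw [dif_pos h, map_ev_tU]
      simp only [t]
      have e : i - 1 + 1 = i := by omega
      rw [e]
    · rw [dif_neg h, hJ.cl_out i l j h]
      simp
  · funext i q
    simp only [Jt, Inp.map, theInp, chartInp]
    by_cases h : 3 ≤ i ∧ i ≤ mm s g - 2 ∧ q ≤ n
    · rw [dif_pos h, map_ev_tU]
      simp only [t]
      have e : i - 3 + 3 = i := by omega
      rw [e]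
    · rw [dif_neg h, hJ.tp_out i q h]
      simp
  · funext k q
    simp only [Jt, Inp.map, theInp, chartInp]
    by_cases h : k < 2 * g
    · rw [dif_pos h]
      apply Units.ext
      rfl
    · rw [dif_neg h, hJ.zf_out k q h]
      simp
  · funext k i
    by_cases h : k < s + 1
    · apply Units.ext
      rw [hJ.a_in k h i]
      exact ev_theInp_a a hai hp t ⟨k, h⟩ i
    · simp only [Jt, Inp.map, theInp, chartInp]
      rw [dif_neg h, hJ.a_out k i h]
      simp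

end torus

/-! ### Families of inputs -/

/-- Scaling the parameters of the triangles with index in `A`, and twisting the handle vectors. -/
noncomputable def Inp.fam (J : Inp ℂ n s g) (A : ℕ → Prop) [DecidablePred A] (κ : ℂˣ)
    (zm : ℕ → Fin (n + 1) → ℂˣ) : Inp ℂ n s g where
  cl := fun i l j => if A i ∧ l ≤ n ∧ j < l then J.cl i l j * κ else J.cl i l j
  tp := fun i q => if A i ∧ q ≤ n then J.tp i q * κ else J.tp i q
  zf := fun k q => if k < 2 * g then J.zf k q * zm k q else J.zf k q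
  a := J.a
  hprod := J.hprod

/-- Prescribing the parameters of one triangle. -/
noncomputable def Inp.setT (J : Inp ℂ n s g) (i₀ : ℕ) (c : ℕ → ℕ → ℂˣ) : Inp ℂ n s g where
  cl := fun i l j => if i = i₀ ∧ l ≤ n ∧ j < l then c l j else J.cl i l j
  tp := fun i q => if i = i₀ ∧ q ≤ n then c (n + 1) (n - q) else J.tp i q
  zf := J.zf
  a := J.a
  hprod := J.hprod

/-- Changing the top layer of one triangle. -/
noncomputable def Inp.setTop (J : Inp ℂ n s g) (i₀ : ℕ) (y : ℕ → ℂˣ) : Inp ℂ n s g where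
  cl := J.cl
  tp := fun i q => if i = i₀ ∧ q ≤ n then y q else J.tp i q
  zf := J.zf
  a := J.a
  hprod := J.hprod

/-- Prescribing only the lower layers of one triangle. -/
noncomputable def Inp.setLow (J : Inp ℂ n s g) (i₀ : ℕ) (c : ℕ → ℕ → ℂˣ) : Inp ℂ n s g where
  cl := fun i l j => if i = i₀ ∧ l ≤ n ∧ j < l then c l j else J.cl i l j
  tp := J.tp
  zf := J.zf
  a := J.a
  hprod := J.hprod

section normal

variable {a : Fin (s + 1) → Fin (n + 2) → ℂ} {J : Inp ℂ n s g} (hJ : Normal a J)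

include hJ

lemma Normal.fam (A : ℕ → Prop) [DecidablePred A] (hA : ∀ i, A i → 3 ≤ i ∧ i ≤ mm s g - 2) (κ : ℂˣ)
    (zm : ℕ → Fin (n + 1) → ℂˣ) : Normal a (J.fam A κ zm) where
  cl_out := by
    intro i l j h
    simp only [Inp.fam]
    rw [if_neg, hJ.cl_out i l j h]
    rintro ⟨h1, h2, h3⟩
    have := hA i h1
    exact h ⟨by omega, this.2, h2, h3⟩
  tp_out := by
    intro i q h
    simp only [Inp.fam]
    rw [if_neg, hJ.tp_out i q h]
    rintro ⟨h1, h2⟩
    have := hA i h1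
    exact h ⟨this.1, this.2, h2⟩
  zf_out := by
    intro k q h
    simp only [Inp.fam]
    rw [if_neg h, hJ.zf_out k q h]
  a_in := hJ.a_in
  a_out := hJ.a_out

lemma Normal.setT (i₀ : ℕ) (h0 : 3 ≤ i₀ ∧ i₀ ≤ mm s g - 2) (c : ℕ → ℕ → ℂˣ) :
    Normal a (J.setT i₀ c) where
  cl_out := by
    intro i l j h
    simp only [Inp.setT]
    rw [if_neg, hJ.cl_out i l j h]
    rintro ⟨rfl, h2, h3⟩
    exact h ⟨by omega, h0.2, h2, h3⟩
  tp_out := by
    intro i q h
    simp only [Inp.setT]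
    rw [if_neg, hJ.tp_out i q h]
    rintro ⟨rfl, h2⟩
    exact h ⟨h0.1, h0.2, h2⟩
  zf_out := hJ.zf_out
  a_in := hJ.a_in
  a_out := hJ.a_out

lemma Normal.setTop (i₀ : ℕ) (h0 : 3 ≤ i₀ ∧ i₀ ≤ mm s g - 2) (y : ℕ → ℂˣ) :
    Normal a (J.setTop i₀ y) where
  cl_out := hJ.cl_out
  tp_out := by
    intro i q h
    simp only [Inp.setTop]
    rw [if_neg, hJ.tp_out i q h]
    rintro ⟨rfl, h2⟩
    exact h ⟨h0.1, h0.2, h2⟩
  zf_out := hJ.zf_out
  a_in := hJ.a_in
  a_out := hJ.a_out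

lemma Normal.setLow (i₀ : ℕ) (h0 : 1 ≤ i₀ ∧ i₀ ≤ mm s g - 2) (c : ℕ → ℕ → ℂˣ) :
    Normal a (J.setLow i₀ c) where
  cl_out := by
    intro i l j h
    simp only [Inp.setLow]
    rw [if_neg, hJ.cl_out i l j h]
    rintro ⟨rfl, h2, h3⟩
    exact h ⟨h0.1, h0.2, h2, h3⟩
  tp_out := hJ.tp_out
  zf_out := hJ.zf_out
  a_in := hJ.a_in
  a_out := hJ.a_out

end normal

section cof

variable (J : Inp ℂ n s g)

lemma cOf_fam_same (A : ℕ → Prop) [DecidablePred A] (κ : ℂˣ) (zm : ℕ → Fin (n + 1) → ℂˣ) {i : ℕ}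
    (hA : ¬ A i) : cOf (J.fam A κ zm) i = cOf J i := by
  funext l j
  simp only [cOf, withTop, Inp.fam]
  simp [hA]

lemma cOf_fam_scale (A : ℕ → Prop) [DecidablePred A] (κ : ℂˣ) (zm : ℕ → Fin (n + 1) → ℂˣ) {i : ℕ}
    (hA : A i) (h2 : i ≠ 2) {l j : ℕ} (hj : j < l) (hl : l ≤ n + 1) :
    cOf (J.fam A κ zm) i l j = cOf J i l j * κ := by
  simp only [cOf, withTop, Inp.fam]
  by_cases hl' : l = n + 1
  · subst hl'
    simp only [if_true, h2, if_false]
    rw [if_pos ⟨hA, by omega⟩]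
  · rw [if_neg hl', if_neg hl', if_pos ⟨hA, by omega, hj⟩]

lemma cOf_setT_same (i₀ : ℕ) (c : ℕ → ℕ → ℂˣ) {i : ℕ} (hi : i ≠ i₀) :
    cOf (J.setT i₀ c) i = cOf J i := by
  funext l j
  simp only [cOf, withTop, Inp.setT]
  simp [hi]

lemma cOf_setT_self (i₀ : ℕ) (c : ℕ → ℕ → ℂˣ) (h2 : i₀ ≠ 2) {l j : ℕ} (hj : j < l) (hl : l ≤ n + 1) :
    cOf (J.setT i₀ c) i₀ l j = c l j := by
  simp only [cOf, withTop, Inp.setT]
  by_cases hl' : l = n + 1
  · subst hl'
    simp only [if_true, h2, if_false]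
    rw [if_pos ⟨trivial, by omega⟩]
    congr 1
    omega
  · rw [if_neg hl', if_pos ⟨trivial, by omega, hj⟩]

lemma cOf_setTop_same (i₀ : ℕ) (y : ℕ → ℂˣ) {i : ℕ} (hi : i ≠ i₀) :
    cOf (J.setTop i₀ y) i = cOf J i := by
  funext l j
  simp only [cOf, withTop, Inp.setTop]
  simp [hi]

lemma cOf_setLow_same (i₀ : ℕ) (c : ℕ → ℕ → ℂˣ) {i : ℕ} (hi : i ≠ i₀) :
    cOf (J.setLow i₀ c) i = cOf J i := by
  funext l j
  simp only [cOf, withTop, Inp.setLow]
  simp [hi]

/-- A triangle depends only on the relevant parameters. -/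
lemma T2_congr {J J' : Inp ℂ n s g} {i : ℕ} (h : cOf J' i = cOf J i) : T2 J' i = T2 J i := by
  apply Tri.ext_u
  rw [T2_u, T2_u, h]

end cof

/-- The vectors of the handles. -/
lemma snocZ_mul_castSucc (t : Fin (n + 1) → ℂˣ) (κ : ℂˣ) (w : Fin (n + 2) → ℂˣ)
    (hw : ∏ i, w i = 1) :
    snocZ (fun q => t q * w q.castSucc) κ = snocZ t κ * w := by
  funext i
  induction i using Fin.lastCases with
  | cast q => simp [snocZ]
  | last =>
    have h1 : w (Fin.last (n + 1)) = (∏ q : Fin (n + 1), w q.castSucc)⁻¹ := by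
      rw [Fin.prod_univ_castSucc] at hw
      exact eq_inv_of_mul_eq_one_right hw
    simp only [snocZ, Fin.snoc_last, Pi.mul_apply]
    rw [Finset.prod_mul_distrib, h1, div_eq_mul_inv, div_eq_mul_inv, mul_inv, mul_assoc]

/-- The vector of the handles of a family. -/
lemma zH_fam (J : Inp ℂ n s g) (A : ℕ → Prop) [DecidablePred A] (κ : ℂˣ) (zm : ℕ → Fin (n + 1) → ℂˣ)
    {i : ℕ} (hi : i < g) (w : Fin (n + 2) → ℂˣ) (hw : ∏ q, w q = 1)
    (hz : ∀ q, zm (2 * i) q = w q.castSucc) :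
    zH (J.fam A κ zm) i = zH J i * w := by
  simp only [zH]
  rw [← snocZ_mul_castSucc _ _ w hw]
  congr 1
  funext q
  simp only [Inp.fam]
  rw [if_pos (by omega), hz]

lemma zH'_fam (J : Inp ℂ n s g) (A : ℕ → Prop) [DecidablePred A] (κ : ℂˣ) (zm : ℕ → Fin (n + 1) → ℂˣ)
    {i : ℕ} (hi : i < g) (w : Fin (n + 2) → ℂˣ) (hw : ∏ q, w q = 1)
    (hz : ∀ q, zm (2 * i + 1) q = w q.castSucc) :
    zH' (J.fam A κ zm) i = zH' J i * w := by
  simp only [zH']
  rw [← snocZ_mul_castSucc _ _ w hw]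
  congr 1
  funext q
  simp only [Inp.fam]
  rw [if_pos (by omega), hz]

lemma zH_fam_same (J : Inp ℂ n s g) (A : ℕ → Prop) [DecidablePred A] (κ : ℂˣ)
    (zm : ℕ → Fin (n + 1) → ℂˣ) {i : ℕ} (hz : zm (2 * i) = 1) :
    zH (J.fam A κ zm) i = zH J i := by
  simp only [zH]
  congr 1
  funext q
  simp only [Inp.fam, hz]
  simp

lemma zH'_fam_same (J : Inp ℂ n s g) (A : ℕ → Prop) [DecidablePred A] (κ : ℂˣ)
    (zm : ℕ → Fin (n + 1) → ℂˣ) {i : ℕ} (hz : zm (2 * i + 1) = 1) :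
    zH' (J.fam A κ zm) i = zH' J i := by
  simp only [zH']
  congr 1
  funext q
  simp only [Inp.fam, hz]
  simp

end Vale.Agent.Lib.P002.Surf
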