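import Mathlib
import Vale.Agent.Lib.P002.Reg.Normal

set_option linter.unusedSectionVars false
set_option linter.unusedVariables false
set_option linter.unusedSimpArgs false
set_option linter.unnecessarySeqFocus false

namespace Vale.Agent.Lib.P002.Surf

open Matrix

variable {n s g : ℕ}

/-! ### The entries of a product of upper triangular matrices -/

lemma sup_mul {r : ℕ} {A B : Matrix (Fin r) (Fin r) ℂ} (hA : UT A) (hB : UT B) {k k' : Fin r}
    (h : k.val + 1 = k'.val) : (A * B) k k' = A k k * B k k' + A k k' * B k' k' := by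
  rw [Matrix.mul_apply]
  have hne : k ≠ k' := fun e => by
    rw [e] at h
    omega
  rw [← Finset.add_sum_erase _ _ (Finset.mem_univ k),
    ← Finset.add_sum_erase _ _ (Finset.mem_erase.mpr ⟨hne.symm, Finset.mem_univ k'⟩)]
  rw [Finset.sum_eq_zero, add_zero]
  intro x hx
  have hx1 : x ≠ k' := (Finset.mem_erase.mp hx).1
  have hx2 : x ≠ k := (Finset.mem_erase.mp (Finset.mem_erase.mp hx).2).1
  by_cases hx3 : x < k
  · rw [hA _ _ hx3, zero_mul]
  · have hx4 : k' < x := by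
      have h5 : k.val ≠ x.val := fun e => hx2 (Fin.ext e.symm)
      have h6 : x.val ≠ k'.val := fun e => hx1 (Fin.ext e)
      have h7 : ¬ x.val < k.val := hx3
      show k'.val < x.val
      omega
    rw [hB _ _ hx4, mul_zero]

/-- The diagonal entries of an invertible upper triangular matrix do not vanish. -/
lemma Bp_diag_ne {r : ℕ} {g : GLr ℂ r} (h : g ∈ Bp ℂ r) (i : Fin r) : g.1 i i ≠ 0 := by
  have := diag_mul_inv_Bp h i
  exact left_ne_zero_of_mul_eq_one this

section formulas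

variable (J : Inp ℂ n s g) (hm : 4 ≤ mm s g)

lemma TT_ne_one {i : ℕ} (hi : i ≠ 1) : TT J i = T2 J i := by
  simp [TT, hi]

lemma fan_hh {i : ℕ} (hi : i ≠ mm s g - 1) : (theFan J hm).hh i = (TT J i).h := by
  show (if i = mm s g - 1 then 1 else (TT J i).h) = _
  rw [if_neg hi]

lemma fan_hh_last : (theFan J hm).hh (mm s g - 1) = 1 := (theFan J hm).hhlast

lemma fan_bb {i : ℕ} (hi : i ≠ 0) : (theFan J hm).bb i = (TT J i).b := by
  show (if i = 0 then 1 else (TT J i).b) = _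
  rw [if_neg hi]

lemma chain_φ (i : ℕ) : (theChain J hm).φ i = (theFan J hm).phi i := rfl

lemma chain_β (i : ℕ) : (theChain J hm).β i = (theFan J hm).beta i := rfl

lemma chain_phi_mid {i : ℕ} (h0 : i ≠ 0) (hi : i + 1 < mm s g) :
    (theChain J hm).φ i = (theFan J hm).GG i * (TT J i).h * w0 := by
  rw [chain_φ, Fan.phi_mid _ h0 (by omega), fan_hh]
  omega

/-- The transition elements in the generic range. -/
lemma chain_beta_mid {i : ℕ} (h2 : 2 ≤ i) (hi : i + 2 ≤ mm s g) :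
    ((theChain J hm).β i).1 = (TT J (i - 1)).b * (w0 * (TT J i).h * w0) := by
  rw [chain_β, Fan.beta_mid _ (by omega), fan_bb _ _ (by omega), fan_hh _ _ (by omega)]

lemma chain_beta_one : ((theChain J hm).β 1).1 = w0 * (TT J 1).h * w0 := by
  rw [chain_β, Fan.beta_mid _ (by omega), fan_hh _ _ (by omega), (theFan J hm).bb0, one_mul]

lemma chain_beta_penult : ((theChain J hm).β (mm s g - 1)).1 = (TT J (mm s g - 2)).b := by
  rw [chain_β, Fan.beta_mid _ (by omega), fan_hh_last, fan_bb _ _ (by omega)]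
  have e : w0 * (1 : GLr ℂ (n + 2)) * w0 = 1 := by
    rw [mul_one]
    exact w0_mul_w0
  rw [e, mul_one]
  congr 2

lemma chain_beta_last : ((theChain J hm).β (mm s g)).1 = ((theFan J hm).GG (mm s g - 1))⁻¹ := by
  rw [chain_β, Fan.beta_m]

lemma GG_succ (i : ℕ) : (theFan J hm).GG (i + 2) = (theFan J hm).GG (i + 1) * (TT J (i + 1)).u := rfl

/-- The entries of the transition elements. -/
lemma beta_entry {i : ℕ} (h2 : 2 ≤ i) (hi : i + 2 ≤ mm s g) {k k' : Fin (n + 2)}
    (h : k.val + 1 = k'.val) :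
    ((theChain J hm).β i).1.1 k k' = (TT J (i - 1)).b.1 k k * (TT J i).h.1 (Fin.rev k) (Fin.rev k') +
      (TT J (i - 1)).b.1 k k' := by
  rw [chain_beta_mid J hm h2 hi]
  show ((TT J (i - 1)).b.1 * (w0 * (TT J i).h * w0).1) k k' = _
  rw [sup_mul (TT J (i - 1)).hb (w0_conj_Um (TT J i).hh).1 h, w0_conj_apply, w0_conj_apply,
    (TT J i).hh.2, mul_one]

lemma beta_one_entry {k k' : Fin (n + 2)} :
    ((theChain J hm).β 1).1.1 k k' = (TT J 1).h.1 (Fin.rev k) (Fin.rev k') := by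
  rw [chain_beta_one, w0_conj_apply]

/-- `GG` depends only on the first triangles. -/
lemma GG_congr {J J' : Inp ℂ n s g} (x : ℕ) (h : ∀ i, 1 ≤ i → i < x → (TT J' i).u = (TT J i).u) :
    (theFan J' hm).GG x = (theFan J hm).GG x := by
  induction x with
  | zero => simp only [Fan.GG]
  | succ x ih =>
    cases x with
    | zero => simp only [Fan.GG]
    | succ x =>
      rw [GG_succ, GG_succ, ih (fun i h1 h2 => h i h1 (by omega)), h (x + 1) (by omega) (by omega)]

end formulas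

/-! ### The dependence of the base word on the table of pivots -/

/-- The input enters the table only through the eigenvalues and the vectors of the handles. -/
lemma DD_congr_J {J J' : Inp ℂ n s g} (h1 : J.a = J'.a) (h2 : J.zf = J'.zf)
    (bh : ℕ → Fin (n + 2) → ℂˣ) : DD J bh = DD J' bh := by
  simp only [DD, dsp, dha, zS, zH, zH', h1, h2]

/-- The handle word, rearranged. -/
noncomputable def KH (I : Inp ℂ n s g) (i : ℕ) : Fin (n + 2) → ℂˣ :=
  zH' I i * (rv (zH I i))⁻¹ * (rv (zH' I i))⁻¹ * zH I i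

lemma dha_form (I : Inp ℂ n s g) (bh : ℕ → Fin (n + 2) → ℂˣ) (i : ℕ) :
    dha I bh i = (bh (eE s i + 1))⁻¹ * (bh (eE s i + 2))⁻¹ * (bh (eE s i + 3))⁻¹ *
      (bh (eE s i + 4))⁻¹ * KH I i := by
  simp only [dha, KH]
  ac_rfl

lemma swap_aux {G : Type*} [CommGroup G] (x x' R : G) : x⁻¹ * R = x⁻¹ * x' * (x'⁻¹ * R) := by
  group

/-- The table enters the product once at the index four. -/
lemma DD_index4 (I : Inp ℂ n s g) (hm : 6 ≤ mm s g) (bh bh' : ℕ → Fin (n + 2) → ℂˣ)
    (h : ∀ i, i ≠ 4 → 1 ≤ i → i ≤ mm s g → bh i = bh' i) :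
    DD I bh = (bh 4)⁻¹ * bh' 4 * DD I bh' := by
  simp only [DD]
  rcases s with _ | _ | s'
  · obtain ⟨g', rfl⟩ : ∃ g', g = g' + 1 := ⟨g - 1, by simp [mm] at hm; omega⟩
    simp only [Finset.range_zero, Finset.prod_empty, mul_one]
    rw [Finset.prod_range_succ', Finset.prod_range_succ']
    have h1 : ∀ i ∈ Finset.range g', dha I bh (i + 1) = dha I bh' (i + 1) := by
      intro i hi
      have hi' := Finset.mem_range.mp hi
      simp only [dha, eE]
      rw [h _ (by omega) (by omega) (by show _ ≤ 2 * _ + 4 * _; omega),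
        h _ (by omega) (by omega) (by show _ ≤ 2 * _ + 4 * _; omega),
        h _ (by omega) (by omega) (by show _ ≤ 2 * _ + 4 * _; omega),
        h _ (by omega) (by omega) (by show _ ≤ 2 * _ + 4 * _; omega)]
    rw [Finset.prod_congr rfl h1]
    have h3 : dha I bh 0 = (bh 4)⁻¹ * bh' 4 * dha I bh' 0 := by
      rw [dha_form, dha_form]
      show (bh 1)⁻¹ * (bh 2)⁻¹ * (bh 3)⁻¹ * (bh 4)⁻¹ * KH I 0 =
        (bh 4)⁻¹ * bh' 4 * ((bh' 1)⁻¹ * (bh' 2)⁻¹ * (bh' 3)⁻¹ * (bh' 4)⁻¹ * KH I 0)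
      rw [h 1 (by omega) (by omega) (by show _ ≤ 2 * _ + 4 * _; omega),
        h 2 (by omega) (by omega) (by show _ ≤ 2 * _ + 4 * _; omega),
        h 3 (by omega) (by omega) (by show _ ≤ 2 * _ + 4 * _; omega)]
      generalize bh' 1 = x1
      generalize bh' 2 = x2
      generalize bh' 3 = x3
      generalize bh 4 = x4
      generalize bh' 4 = x4'
      have e1 : x1⁻¹ * x2⁻¹ * x3⁻¹ * x4⁻¹ * KH I 0 = x4⁻¹ * (x1⁻¹ * x2⁻¹ * x3⁻¹ * KH I 0) := by ac_rfl
      have e2 : x1⁻¹ * x2⁻¹ * x3⁻¹ * x4'⁻¹ * KH I 0 = x4'⁻¹ * (x1⁻¹ * x2⁻¹ * x3⁻¹ * KH I 0) := by ac_rfl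
      rw [e1, e2]
      exact swap_aux _ _ _
    rw [h3]
    ac_rfl
  · obtain ⟨g', rfl⟩ : ∃ g', g = g' + 1 := ⟨g - 1, by simp [mm] at hm; omega⟩
    rw [Finset.prod_range_succ', Finset.prod_range_succ' (fun i => dha I bh' i)]
    simp only [zero_add, Finset.range_one, Finset.prod_singleton]
    have hd : dsp I bh 0 = dsp I bh' 0 := by
      simp only [dsp, zS, Nat.mul_zero, Nat.add_zero, Nat.zero_add]
      rw [h 1 (by omega) (by omega) (by show _ ≤ 2 * _ + 4 * _; omega),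
        h 2 (by omega) (by omega) (by show _ ≤ 2 * _ + 4 * _; omega)]
    rw [hd]
    have h1 : ∀ i ∈ Finset.range g', dha I bh (i + 1) = dha I bh' (i + 1) := by
      intro i hi
      have hi' := Finset.mem_range.mp hi
      simp only [dha, eE]
      rw [h _ (by omega) (by omega) (by show _ ≤ 2 * _ + 4 * _; omega),
        h _ (by omega) (by omega) (by show _ ≤ 2 * _ + 4 * _; omega),
        h _ (by omega) (by omega) (by show _ ≤ 2 * _ + 4 * _; omega),
        h _ (by omega) (by omega) (by show _ ≤ 2 * _ + 4 * _; omega)]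
    rw [Finset.prod_congr rfl h1]
    have h3 : dha I bh 0 = (bh 4)⁻¹ * bh' 4 * dha I bh' 0 := by
      rw [dha_form, dha_form]
      show (bh 3)⁻¹ * (bh 4)⁻¹ * (bh 5)⁻¹ * (bh 6)⁻¹ * KH I 0 =
        (bh 4)⁻¹ * bh' 4 * ((bh' 3)⁻¹ * (bh' 4)⁻¹ * (bh' 5)⁻¹ * (bh' 6)⁻¹ * KH I 0)
      rw [h 3 (by omega) (by omega) (by show _ ≤ 2 * _ + 4 * _; omega),
        h 5 (by omega) (by omega) (by show _ ≤ 2 * _ + 4 * _; omega),
        h 6 (by omega) (by omega) (by show _ ≤ 2 * _ + 4 * _; omega)]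
      generalize bh' 3 = x1
      generalize bh' 5 = x2
      generalize bh' 6 = x3
      generalize bh 4 = x4
      generalize bh' 4 = x4'
      have e1 : x1⁻¹ * x4⁻¹ * x2⁻¹ * x3⁻¹ * KH I 0 = x4⁻¹ * (x1⁻¹ * x2⁻¹ * x3⁻¹ * KH I 0) := by ac_rfl
      have e2 : x1⁻¹ * x4'⁻¹ * x2⁻¹ * x3⁻¹ * KH I 0 = x4'⁻¹ * (x1⁻¹ * x2⁻¹ * x3⁻¹ * KH I 0) := by ac_rfl
      rw [e1, e2]
      exact swap_aux _ _ _
    rw [h3]
    ac_rfl
  · have key : ∀ f : ℕ → Fin (n + 2) → ℂˣ, ∏ j ∈ Finset.range (s' + 1 + 1), f j =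
        (∏ j ∈ Finset.range s', f (j + 2)) * f 1 * f 0 := by
      intro f
      rw [Finset.prod_range_succ', Finset.prod_range_succ']
    rw [key, key]
    have h1 : ∀ j ∈ Finset.range s', dsp I bh (j + 2) = dsp I bh' (j + 2) := by
      intro j hj
      have hj' := Finset.mem_range.mp hj
      simp only [dsp, zS]
      rw [h _ (by omega) (by omega) (by show _ ≤ 2 * _ + 4 * _; omega),
        h _ (by omega) (by omega) (by show _ ≤ 2 * _ + 4 * _; omega)]
    rw [Finset.prod_congr rfl h1]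
    have h2 : ∀ i ∈ Finset.range g, dha I bh i = dha I bh' i := by
      intro i hi
      have hi' := Finset.mem_range.mp hi
      simp only [dha, eE]
      rw [h _ (by omega) (by omega) (by show _ ≤ 2 * _ + 4 * _; omega),
        h _ (by omega) (by omega) (by show _ ≤ 2 * _ + 4 * _; omega),
        h _ (by omega) (by omega) (by show _ ≤ 2 * _ + 4 * _; omega),
        h _ (by omega) (by omega) (by show _ ≤ 2 * _ + 4 * _; omega)]
    have h2' : ∏ i ∈ Finset.range g, dha I bh i = ∏ i ∈ Finset.range g, dha I bh' i :=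
      Finset.prod_congr rfl h2
    rw [h2']
    have h0 : dsp I bh 0 = dsp I bh' 0 := by
      simp only [dsp, zS, Nat.mul_zero, Nat.add_zero, Nat.zero_add]
      rw [h 1 (by omega) (by omega) (by show _ ≤ 2 * _ + 4 * _; omega),
        h 2 (by omega) (by omega) (by show _ ≤ 2 * _ + 4 * _; omega)]
    rw [h0]
    have h3 : dsp I bh 1 = (bh 4)⁻¹ * bh' 4 * dsp I bh' 1 := by
      show (bh 4)⁻¹ * zS I bh 1 = (bh 4)⁻¹ * bh' 4 * ((bh' 4)⁻¹ * zS I bh' 1)
      have : zS I bh 1 = zS I bh' 1 := by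
        simp only [zS]
        rw [h (2 * 1 + 1) (by omega) (by omega) (by show _ ≤ 2 * _ + 4 * _; omega)]
      rw [this]
      exact swap_aux _ _ _
    rw [h3]
    generalize (∏ i ∈ Finset.range g, dha I bh' i) = P
    generalize (∏ j ∈ Finset.range s', dsp I bh' (j + 2)) = Q
    generalize dsp I bh' 0 = x0
    generalize dsp I bh' 1 = x1
    generalize bh' 4 = y
    generalize (bh 4)⁻¹ = y'
    ac_rfl

end Vale.Agent.Lib.P002.Surf
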