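import Mathlib
import Vale.Agent.Lib.P002.Reg.Fam

set_option linter.unusedSectionVars false
set_option linter.unusedVariables false
set_option linter.unusedSimpArgs false
set_option linter.unnecessarySeqFocus false

namespace Vale.Agent.Lib.P002.Surf

open Matrix

variable {n s g : ℕ}

lemma UcG_congr {c c' : ℕ → ℕ → ℂ} {ρ : ℕ} (h : ∀ l j, j < l → l ≤ ρ → c l j = c' l j) :
    UcG c ρ = UcG c' ρ := by
  apply Units.ext
  rw [UcG_val, UcG_val]
  ext a b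
  simp only [UcM, Matrix.of_apply]
  exact Uc_congr' ρ h _ _

lemma T2_u_of (J : Inp ℂ n s g) (i : ℕ) (c : ℕ → ℕ → ℂˣ)
    (h : ∀ l j, j < l → l ≤ n + 1 → cOf J i l j = c l j) :
    (T2 J i).u = UcG (fun l j => ((c l j : ℂˣ) : ℂ)) (n + 1) := by
  rw [T2_u]
  apply UcG_congr
  intro l j h1 h2
  rw [h l j h1 h2]

/-- The effect on a triangle of scaling. -/
lemma T2_fam_scale (J : Inp ℂ n s g) (A : ℕ → Prop) [DecidablePred A] (ν : ℂˣ)
    (zm : ℕ → Fin (n + 1) → ℂˣ) {i : ℕ} (hA : A i) (h2 : i ≠ 2) :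
    (T2 (J.fam A (ν ^ 2)⁻¹ zm) i).u = EE (n + 2) ν * (T2 J i).u * (EE (n + 2) ν)⁻¹ ∧
    (T2 (J.fam A (ν ^ 2)⁻¹ zm) i).h = EE (n + 2) ν * (T2 J i).h * (EE (n + 2) ν)⁻¹ ∧
    (T2 (J.fam A (ν ^ 2)⁻¹ zm) i).b = EE (n + 2) ν * (T2 J i).b * EE (n + 2) ν := by
  apply tri_scale (T2 J i) (T2 (J.fam A (ν ^ 2)⁻¹ zm) i) _ _ ν (T2_u J i) (T2_u _ i)
  intro l j h3 h4
  rw [cOf_fam_scale J A _ zm hA h2 h3 h4]
  simp

lemma T2_fam_same (J : Inp ℂ n s g) (A : ℕ → Prop) [DecidablePred A] (κ : ℂˣ)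
    (zm : ℕ → Fin (n + 1) → ℂˣ) {i : ℕ} (hA : ¬ A i) : T2 (J.fam A κ zm) i = T2 J i :=
  T2_congr (cOf_fam_same J A κ zm hA)

section main

variable {a : Fin (s + 1) → Fin (n + 2) → ℂ} (hm : 4 ≤ mm s g)

/-- The generic triangles: the superdiagonal of the transition elements. -/
lemma beta_super_ne {J₀ : Inp ℂ n s g} (hJ₀ : Normal a J₀) {i : ℕ} (h3 : 3 ≤ i) (hi : i + 2 ≤ mm s g)
    {k k' : Fin (n + 2)} (hk : k.val + 1 = k'.val) :
    ∃ J, Normal a J ∧ ((theChain J hm).β i).1.1 k k' ≠ 0 := by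
  have hk1 := k.isLt
  have hk2 := k'.isLt
  obtain ⟨c, hc⟩ := exists_h_ne (n + 1) (n - k.val) (by omega)
  set J₁ := J₀.setT i c with hJ₁
  have hJ₁n : Normal a J₁ := hJ₀.setT i ⟨h3, by omega⟩ c
  have hh : (T2 J₁ i).h.1 (Fin.rev k) (Fin.rev k') ≠ 0 := by
    have h5 := hc (T2 J₁ i) (T2_u_of J₁ i c (fun l j h1 h2 => cOf_setT_self J₀ i c (by omega) h1 h2))
    have e1 : Fin.rev k = ⟨n - k.val + 1, by omega⟩ := by
      apply Fin.ext
      rw [Fin.val_rev]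
      show n + 2 - (k.val + 1) = n - k.val + 1
      omega
    have e2 : Fin.rev k' = ⟨n - k.val, by omega⟩ := by
      apply Fin.ext
      rw [Fin.val_rev, ← hk]
      show n + 2 - (k.val + 1 + 1) = n - k.val
      omega
    rw [e1, e2]
    exact h5
  have hA : ∀ i', i' = i → 3 ≤ i' ∧ i' ≤ mm s g - 2 := by
    rintro i' rfl
    exact ⟨h3, by omega⟩
  -- the family
  have hfam : ∀ ν : ℂˣ, ((theChain (J₁.fam (fun i' => i' = i) (ν ^ 2)⁻¹ (fun _ _ => 1)) hm).β i).1.1 k k' =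
      (T2 J₁ (i - 1)).b.1 k k * ((ν : ℂ) ^ 2 * (T2 J₁ i).h.1 (Fin.rev k) (Fin.rev k')) +
        (T2 J₁ (i - 1)).b.1 k k' := by
    intro ν
    rw [beta_entry _ hm (by omega) hi hk, TT_ne_one _ (by omega), TT_ne_one _ (by omega),
      T2_fam_same J₁ (fun i' => i' = i) _ _ (show ¬ (i - 1 = i) by omega),
      (T2_fam_scale J₁ (fun i' => i' = i) ν _ rfl (by omega)).2.1,
      EE_conj_sub ν _ _ _ (by
        rw [Fin.val_rev, Fin.val_rev, ← hk]
        omega)]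
  set α := (T2 J₁ (i - 1)).b.1 k k * (T2 J₁ i).h.1 (Fin.rev k) (Fin.rev k') with hα
  have hα0 : α ≠ 0 := mul_ne_zero (Bp_diag_ne (T2 J₁ (i - 1)).hb k) hh
  by_contra hcon
  simp only [not_exists, not_and, not_not] at hcon
  have e1 := hcon _ (hJ₁n.fam _ hA (1 ^ 2)⁻¹ (fun _ _ => 1))
  have e2 := hcon _ (hJ₁n.fam _ hA ((Units.mk0 (2 : ℂ) two_ne_zero) ^ 2)⁻¹ (fun _ _ => 1))
  rw [hfam] at e1 e2
  simp only [Units.val_one, Units.val_mk0] at e1 e2
  have : α = 0 := by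
    have h6 : (3 : ℂ) * α = 0 := by
      rw [hα]
      linear_combination e2 - e1
    simpa using h6
  exact hα0 this

/-- The entries of the conjugate form of a spike. -/
lemma sBd_entry (J : Inp ℂ n s g) (j : ℕ) (k k' : Fin (n + 2)) :
    (sBd J hm j).1.1 k k' =
      ((rv (Zs J hm j) k : ℂˣ) : ℂ) * ((theChain J hm).β (2 * j + 1)).1.1 k k' := by
  show (Matrix.diagonal (fun i => ((rv (Zs J hm j) i : ℂˣ) : ℂ)) *
    ((theChain J hm).β (2 * j + 1)).1.1) k k' = _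
  rw [Matrix.diagonal_mul]

/-- The triangle before the last one: the superdiagonal of the upper factor. -/
lemma beta_penult_ne {J₀ : Inp ℂ n s g} (hJ₀ : Normal a J₀) (h5 : 5 ≤ mm s g)
    {k k' : Fin (n + 2)} (hk : k.val + 1 = k'.val) :
    ∃ J, Normal a J ∧ ((theChain J hm).β (mm s g - 1)).1.1 k k' ≠ 0 := by
  have hk1 := k.isLt
  have hk2 := k'.isLt
  obtain ⟨c, hc⟩ := exists_b_ne (n + 1) k.val (by omega)
  refine ⟨J₀.setT (mm s g - 2) c, hJ₀.setT _ ⟨by omega, by omega⟩ c, ?_⟩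
  rw [chain_beta_penult, TT_ne_one _ (by omega)]
  have h6 := hc (T2 (J₀.setT (mm s g - 2) c) (mm s g - 2))
    (T2_u_of _ _ c (fun l j h1 h2 => cOf_setT_self J₀ _ c (by omega) h1 h2))
  have e1 : k' = ⟨k.val + 1, by omega⟩ := Fin.ext hk.symm
  rw [e1]
  exact h6

/-- The free triangles: the subdiagonal of the lower factor. -/
lemma h_sub_ne {J₀ : Inp ℂ n s g} (hJ₀ : Normal a J₀) {i : ℕ} (h3 : 3 ≤ i) (hi : i + 2 ≤ mm s g)
    {k k' : Fin (n + 2)} (hk : k'.val + 1 = k.val) :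
    ∃ J : Inp ℂ n s g, Normal a J ∧ (TT J i).h.1 k k' ≠ 0 := by
  have hk1 := k.isLt
  obtain ⟨c, hc⟩ := exists_h_ne (n + 1) k'.val (by omega)
  refine ⟨J₀.setT i c, hJ₀.setT _ ⟨h3, by omega⟩ c, ?_⟩
  rw [TT_ne_one _ (by omega)]
  have h6 := hc (T2 (J₀.setT i c) i)
    (T2_u_of _ _ c (fun l j h1 h2 => cOf_setT_self J₀ _ c (by omega) h1 h2))
  have e1 : k = ⟨k'.val + 1, by omega⟩ := Fin.ext hk.symm
  have e2 : k' = ⟨k'.val, by omega⟩ := Fin.ext rfl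
  rw [e1]
  exact h6

end main

/-! ### The first triangle -/

section first

variable (J : Inp ℂ n s g)

lemma T2_piv (i : ℕ) (hi : i ≠ 2) (k : ℕ) (hk : k ≤ n) :
    (T2 J i).b.1 ⟨k, by omega⟩ ⟨k, by omega⟩ =
      ((DmU (J.cl i) n (k + 1) / DmU (J.cl i) n k * J.tp i k : ℂˣ) : ℂ) := by
  have h1 := (exists_T2 J i).choose_spec.2 k (by omega)
  have h2 : (exists_T2 J i).choose = T2 J i := rfl
  rw [h2] at h1
  have e : cOf J i = withTop (J.cl i) (J.tp i) n := by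
    simp only [cOf]
    rw [if_neg hi]
  simp only [e] at h1
  rw [Dm_withTop _ _ n k (by omega), Dm_withTop _ _ n (k + 1) (by omega),
    ← DmU_val _ _ _ (by omega), ← DmU_val _ _ _ (by omega), Finset.prod_range_succ] at h1
  have h3 : (DmU (J.cl i) n k : ℂ) ≠ 0 := Units.ne_zero _
  have h4 : ((∏ j ∈ Finset.range k, J.tp i j : ℂˣ) : ℂ) ≠ 0 := Units.ne_zero _
  simp only [Units.val_mul, Units.val_div_eq_div_val] at h1 ⊢
  field_simp at h1 ⊢
  linear_combination h1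

lemma topLayer_apply (cl : ℕ → ℕ → ℂˣ) (τ : ℕ → ℂˣ) (m j : ℕ) :
    topLayer cl τ m j = τ j * DmU cl m j / DmU cl m (j + 1) := by
  simp only [topLayer, Finset.prod_range_succ]
  generalize (∏ i ∈ Finset.range j, τ i) = P
  generalize DmU cl m j = x
  generalize DmU cl m (j + 1) = y
  generalize τ j = t
  simp only [div_eq_mul_inv, mul_inv, inv_inv]
  calc P * t * y⁻¹ * (P⁻¹ * x) = (P * P⁻¹) * (t * x * y⁻¹) := by ac_rfl
    _ = _ := by simp

end first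

section firstmain

variable {a : Fin (s + 1) → Fin (n + 2) → ℂ} (hm : 6 ≤ mm s g) (hm4 : 4 ≤ mm s g)

include hm in
/-- The parameters of the first triangle can be prescribed. -/
theorem exists_T1_params {J₀ : Inp ℂ n s g} (hJ₀ : Normal a J₀) (c : ℕ → ℕ → ℂˣ) :
    ∃ J : Inp ℂ n s g, Normal a J ∧ (T1 J).u = UcG (fun l j => ((c l j : ℂˣ) : ℂ)) (n + 1) := by
  set J₂ := J₀.setLow 1 c with hJ₂
  have hJ₂n : Normal a J₂ := hJ₀.setLow 1 ⟨le_rfl, by omega⟩ c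
  -- the target
  let τs : ℕ → ℂˣ := fun j => c (n + 1) (n - j) * DmU (J₂.cl 1) n (j + 1) / DmU (J₂.cl 1) n j
  let E : ℕ → ℂˣ := fun j => DmU (J₂.cl 3) n (j + 1) / DmU (J₂.cl 3) n j
  let y : ℕ → ℂˣ := fun j => if hj : j ≤ n then
      (E j)⁻¹ * (bhat' J₂ 4 ⟨j, by omega⟩) * (tauV J₂ ⟨j, by omega⟩) * (τs j)⁻¹ else 1
  set J₃ := J₂.setTop 3 y with hJ₃
  have hJ₃n : Normal a J₃ := hJ₂n.setTop 3 ⟨le_rfl, by omega⟩ y
  refine ⟨J₃, hJ₃n, ?_⟩
  -- the tables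
  have hT : ∀ i, i ≠ 3 → T2 J₃ i = T2 J₂ i := fun i hi => T2_congr (cOf_setTop_same J₂ 3 y hi)
  have hbh : ∀ i, i ≠ 4 → 1 ≤ i → i ≤ mm s g → bhat' J₃ i = bhat' J₂ i := by
    intro i h4 _ _
    simp only [bhat']
    split_ifs with h
    · rw [hT _ (by omega)]
    · rfl
  have hDD : DD J₃ (bhat' J₃) = (bhat' J₃ 4)⁻¹ * bhat' J₂ 4 * DD J₂ (bhat' J₂) := by
    rw [DD_congr_J (J' := J₂) rfl rfl]
    exact DD_index4 J₂ hm _ _ hbh
  have htau : ∀ j, j ≤ n → tauN J₃ j = τs j := by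
    intro j hj
    simp only [tauN]
    rw [dif_pos (by omega)]
    have e1 : tauV J₃ = (bhat' J₃ 4)⁻¹ * bhat' J₂ 4 * tauV J₂ := by
      simp only [tauV]
      rw [hDD]
      have : J₃.a s = J₂.a s := rfl
      rw [this, mul_assoc]
    rw [e1]
    simp only [Pi.mul_apply, Pi.inv_apply]
    have e2 : bhat' J₃ 4 ⟨j, by omega⟩ = E j * y j := by
      apply Units.ext
      simp only [bhat']
      rw [if_pos ⟨by omega, by omega⟩]
      show (T2 J₃ 3).b.1 ⟨j, by omega⟩ ⟨j, by omega⟩ = _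
      rw [T2_piv J₃ 3 (by omega) j hj]
      have e3 : J₃.tp 3 j = y j := by
        show (if 3 = 3 ∧ j ≤ n then y j else J₂.tp 3 j) = y j
        rw [if_pos ⟨rfl, hj⟩]
      rw [e3]
      rfl
    rw [e2]
    simp only [y]
    rw [dif_pos hj]
    generalize (tauV J₂ ⟨j, by omega⟩) = v
    generalize (bhat' J₂ 4 ⟨j, by omega⟩) = b
    generalize τs j = w
    generalize E j = x
    group
  rw [T1_u]
  apply UcG_congr
  intro l j h1 h2
  simp only [withTop]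
  by_cases hl : l = n + 1
  · subst hl
    rw [if_pos rfl, topLayer_apply]
    have hj : n - j ≤ n := by omega
    rw [htau _ hj]
    have e1 : J₃.cl 1 = J₂.cl 1 := rfl
    rw [e1]
    simp only [τs]
    have e2 : n - (n - j) = j := by omega
    rw [e2]
    have e3 : (c (n + 1) j * DmU (J₂.cl 1) n (n - j + 1) / DmU (J₂.cl 1) n (n - j) *
        DmU (J₂.cl 1) n (n - j) / DmU (J₂.cl 1) n (n - j + 1)) = c (n + 1) j := by
      generalize DmU (J₂.cl 1) n (n - j + 1) = x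
      generalize DmU (J₂.cl 1) n (n - j) = x'
      rw [div_mul_cancel, mul_div_cancel_right]
    rw [e3]
  · rw [if_neg hl]
    show (((if 1 = 1 ∧ l ≤ n ∧ j < l then c l j else J₀.cl 1 l j) : ℂˣ) : ℂ) = _
    rw [if_pos ⟨rfl, by omega, h1⟩]

include hm in
/-- The entries for the first spike. -/
lemma beta_one_ne {J₀ : Inp ℂ n s g} (hJ₀ : Normal a J₀) {k k' : Fin (n + 2)}
    (hk : k.val + 1 = k'.val) :
    ∃ J, Normal a J ∧ ((theChain J hm4).β 1).1.1 k k' ≠ 0 := by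
  have hk1 := k.isLt
  have hk2 := k'.isLt
  obtain ⟨c, hc⟩ := exists_h_ne (n + 1) (n - k.val) (by omega)
  obtain ⟨J, hJ, hu⟩ := exists_T1_params hm hJ₀ c
  refine ⟨J, hJ, ?_⟩
  rw [beta_one_entry]
  have h5 := hc (TT J 1) (by
    simp only [TT, if_true]
    exact hu)
  have e1 : Fin.rev k = ⟨n - k.val + 1, by omega⟩ := by
    apply Fin.ext
    rw [Fin.val_rev]
    show n + 2 - (k.val + 1) = n - k.val + 1
    omega
  have e2 : Fin.rev k' = ⟨n - k.val, by omega⟩ := by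
    apply Fin.ext
    rw [Fin.val_rev, ← hk]
    show n + 2 - (k.val + 1 + 1) = n - k.val
    omega
  rw [e1, e2]
  exact h5

end firstmain

end Vale.Agent.Lib.P002.Surf
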