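import Mathlib
import Vale.Agent.Lib.P002.Reg.NV1

set_option linter.unusedSectionVars false
set_option linter.unusedVariables false
set_option linter.unusedSimpArgs false
set_option linter.unnecessarySeqFocus false

namespace Vale.Agent.Lib.P002.Surf

open Matrix

variable {n s g : ℕ}

lemma T1_congr {J J' : Inp ℂ n s g} (h1 : J'.cl 1 = J.cl 1) (h2 : tauV J' = tauV J) : T1 J' = T1 J := by
  apply Tri.ext_u
  rw [T1_u, T1_u]
  have h3 : tauN J' = tauN J := by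
    funext k
    simp only [tauN, h2]
  rw [h1, h3]

lemma bhat'_congr {J J' : Inp ℂ n s g} {i : ℕ} (h : cOf J' (i - 1) = cOf J (i - 1)) :
    bhat' J' i = bhat' J i := by
  simp only [bhat']
  rw [T2_congr h]

section congr

variable (hm : 4 ≤ mm s g) {J J' : Inp ℂ n s g}

lemma beta_congr {x₀ : ℕ} (hx₀ : x₀ + 2 ≤ mm s g)
    (h : ∀ i, 1 ≤ i → i ≤ x₀ → TT J' i = TT J i) {x : ℕ} (h1 : 1 ≤ x) (hx : x ≤ x₀) :
    (theChain J' hm).β x = (theChain J hm).β x := by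
  apply Subtype.ext
  by_cases hx1 : x = 1
  · subst hx1
    rw [chain_beta_one, chain_beta_one, h 1 le_rfl hx]
  · rw [chain_beta_mid _ hm (by omega) (by omega), chain_beta_mid _ hm (by omega) (by omega),
      h x h1 hx, h (x - 1) (by omega) (by omega)]

lemma phi_congr {x₀ : ℕ} (hx₀ : x₀ + 2 ≤ mm s g)
    (h : ∀ i, 1 ≤ i → i ≤ x₀ → TT J' i = TT J i) {x : ℕ} (hx : x ≤ x₀) :
    (theChain J' hm).φ x = (theChain J hm).φ x := by
  by_cases h0 : x = 0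
  · subst h0
    rw [(theChain J' hm).start, (theChain J hm).start]
  · have hG : (theFan J' hm).GG x = (theFan J hm).GG x :=
      GG_congr hm x (fun i h1 h2 => by rw [h i h1 (by omega)])
    rw [chain_phi_mid _ hm h0 (by omega), chain_phi_mid _ hm h0 (by omega), h x (by omega) hx, hG]

lemma Zs_congr {x₀ : ℕ} (hx₀ : x₀ + 2 ≤ mm s g) (ha : J'.a = J.a)
    (h : ∀ i, 1 ≤ i → i ≤ x₀ → TT J' i = TT J i) {j : ℕ} (hj : 2 * j + 1 ≤ x₀) :
    Zs J' hm j = Zs J hm j := by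
  simp only [Zs, zS, bhat, ha]
  rw [beta_congr hm hx₀ h (by omega) hj]

lemma sQd_congr {x₀ : ℕ} (hx₀ : x₀ + 2 ≤ mm s g) (ha : J'.a = J.a)
    (h : ∀ i, 1 ≤ i → i ≤ x₀ → TT J' i = TT J i) {j : ℕ} (hj : 2 * j + 2 ≤ x₀) :
    sQd J' hm j = sQd J hm j := by
  simp only [sQd, Chain.sQ]
  rw [Zs_congr hm hx₀ ha h (by omega), beta_congr hm hx₀ h (by omega) hj]

lemma sWd_congr {x₀ : ℕ} (hx₀ : x₀ + 2 ≤ mm s g) (ha : J'.a = J.a)
    (h : ∀ i, 1 ≤ i → i ≤ x₀ → TT J' i = TT J i) {j : ℕ} (hj : 2 * j + 1 ≤ x₀) :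
    sWd J' hm j = sWd J hm j := by
  simp only [sWd, Chain.sW]
  rw [Zs_congr hm hx₀ ha h hj, phi_congr hm hx₀ h hj, phi_congr hm hx₀ h (x := 2 * j) (by omega)]

lemma sBd_congr {x₀ : ℕ} (hx₀ : x₀ + 2 ≤ mm s g) (ha : J'.a = J.a)
    (h : ∀ i, 1 ≤ i → i ≤ x₀ → TT J' i = TT J i) {j : ℕ} (hj : 2 * j + 1 ≤ x₀) :
    sBd J' hm j = sBd J hm j := by
  simp only [sBd, Chain.sB]
  rw [Zs_congr hm hx₀ ha h hj, beta_congr hm hx₀ h (by omega) hj]

lemma hQd_congr {x₀ : ℕ} (hx₀ : x₀ + 2 ≤ mm s g)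
    (h : ∀ i, 1 ≤ i → i ≤ x₀ → TT J' i = TT J i) {i : ℕ} (hi : eE s i + 4 ≤ x₀)
    (hz : zH J' i = zH J i) (hz' : zH' J' i = zH' J i) :
    hQd J' hm i = hQd J hm i := by
  simp only [hQd, Chain.hQ, Chain.hQ1, Chain.hQ2, Chain.hQ3, Chain.hQ4, hz, hz']
  rw [beta_congr hm hx₀ h (x := eE s i + 1) (by omega) (by omega),
    beta_congr hm hx₀ h (x := eE s i + 2) (by omega) (by omega),
    beta_congr hm hx₀ h (x := eE s i + 3) (by omega) (by omega),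
    beta_congr hm hx₀ h (x := eE s i + 4) (by omega) (by omega)]

end congr

lemma prodDown_congr {G : Type*} [Monoid G] {W W' : ℕ → G} {k : ℕ} (h : ∀ j, j < k → W' j = W j) :
    prodDown W' k = prodDown W k := by
  induction k with
  | zero => rfl
  | succ k ih =>
    simp only [prodDown]
    rw [h k (by omega), ih (fun j hj => h j (by omega))]

/-! ### Vectors -/

section vectors

variable (e z z' : Fin (n + 2) → ℂˣ)

lemma rv_mul_inv_eP (ν : ℂˣ) : (rv (z * eP (n + 2) ν))⁻¹ = (rv z)⁻¹ * eP (n + 2) ν := by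
  rw [rv_mul, rv_eP]
  simp only [mul_inv, inv_inv]

end vectors

/-! ### The table of pivots under scaling -/

lemma dg_scale {r : ℕ} (ν : ℂˣ) (T T' : GLr ℂ r) (hT : T ∈ Bp ℂ r) (hT' : T' ∈ Bp ℂ r)
    (h : T' = EE r ν * T * EE r ν) :
    dg ⟨T', hT'⟩ = eP r ν * dg ⟨T, hT⟩ * eP r ν := by
  funext i
  apply Units.ext
  simp only [dg_val, Pi.mul_apply, Units.val_mul]
  show T'.1 i i = _
  subst h
  show (Matrix.diagonal (fun i => ((eP r ν i : ℂˣ) : ℂ)) * T.1 *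
    Matrix.diagonal (fun i => ((eP r ν i : ℂˣ) : ℂ))) i i = _
  rw [Matrix.mul_diagonal, Matrix.diagonal_mul]

lemma bhat'_fam_scale (J : Inp ℂ n s g) (A : ℕ → Prop) [DecidablePred A] (ν : ℂˣ)
    (zm : ℕ → Fin (n + 1) → ℂˣ) {i : ℕ} (hA : A (i - 1)) (h2 : i - 1 ≠ 2) (h3 : 3 ≤ i)
    (hi : i + 1 ≤ mm s g) :
    bhat' (J.fam A (ν ^ 2)⁻¹ zm) i = eP (n + 2) ν * bhat' J i * eP (n + 2) ν := by
  simp only [bhat']
  rw [if_pos ⟨h3, hi⟩, if_pos ⟨h3, hi⟩]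
  exact dg_scale ν _ _ (T2 J (i - 1)).hb _ (T2_fam_scale J A ν zm hA h2).2.2

lemma bhat'_fam_same (J : Inp ℂ n s g) (A : ℕ → Prop) [DecidablePred A] (κ : ℂˣ)
    (zm : ℕ → Fin (n + 1) → ℂˣ) {i : ℕ} (hA : ¬ A (i - 1)) :
    bhat' (J.fam A κ zm) i = bhat' J i :=
  bhat'_congr (cOf_fam_same J A κ zm hA)

end Vale.Agent.Lib.P002.Surf
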