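import Mathlib
import Vale.Agent.Lib.P002.Reg.Abstract
import Vale.Agent.Lib.P002.Reg.Scale

set_option linter.unusedSectionVars false
set_option linter.unusedVariables false
set_option linter.unusedSimpArgs false
set_option linter.unnecessarySeqFocus false

namespace Vale.Agent.Lib.P002.Surf

open Matrix

variable {r : ℕ}

/-! ### Vectors -/

/-- The basis vectors. -/
noncomputable def eV (i : Fin r) : Fin r → ℂ := Pi.single i 1

lemma mulVec_eV (M : Matrix (Fin r) (Fin r) ℂ) (i x : Fin r) : (M *ᵥ eV i) x = M x i := by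
  rw [eV, Matrix.mulVec_single_one]
  rfl

lemma w0_mulVec (y : Fin r → ℂ) (i : Fin r) : ((w0 : GLr ℂ r).1 *ᵥ y) i = y (Fin.rev i) := by
  show (w0M *ᵥ y) i = _
  simp only [Matrix.mulVec, dotProduct, w0M, Matrix.of_apply]
  rw [Finset.sum_eq_single (Fin.rev i)]
  · simp
  · intro b _ hb
    simp [hb]
  · simp

lemma tor_mulVec (d : Fin r → ℂˣ) (y : Fin r → ℂ) (i : Fin r) :
    ((tor d).1 *ᵥ y) i = ((d i : ℂˣ) : ℂ) * y i := by
  show (Matrix.diagonal (fun i => ((d i : ℂˣ) : ℂ)) *ᵥ y) i = _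
  rw [Matrix.mulVec_diagonal]

lemma w0_mulVec_eV (i : Fin r) : (w0 : GLr ℂ r).1 *ᵥ eV i = eV (Fin.rev i) := by
  funext x
  rw [w0_mulVec]
  simp only [eV, Pi.single_apply, Fin.rev_inj]
  by_cases h : x = Fin.rev i
  · subst h
    simp
  · have h2 : Fin.rev x ≠ i := fun e => h (by rw [← e, Fin.rev_rev])
    simp [h, h2]

lemma tor_mulVec_eV (d : Fin r → ℂˣ) (i : Fin r) :
    (tor d).1 *ᵥ eV i = ((d i : ℂˣ) : ℂ) • eV i := by
  funext x
  rw [tor_mulVec]
  simp only [eV, Pi.single_apply, Pi.smul_apply, smul_eq_mul]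
  by_cases h : x = i
  · subst h
    simp
  · simp [h]

/-- A subspace containing all basis vectors is everything. -/
lemma eq_top_of_eV (W : Submodule ℂ (Fin r → ℂ)) (h : ∀ i, eV i ∈ W) : W = ⊤ := by
  rw [eq_top_iff]
  intro x _
  have h1 : x = ∑ i, x i • eV i := by
    funext y
    simp [eV, Finset.sum_apply, Pi.single_apply]
  rw [h1]
  exact Submodule.sum_mem _ fun i _ => W.smul_mem _ (h i)

/-- A subspace stable under a regular diagonal matrix is a coordinate subspace. -/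
lemma coord_of_tor (W : Submodule ℂ (Fin r → ℂ)) (w : Fin r → ℂˣ) (hw : Function.Injective w)
    (hW : ∀ v ∈ W, (tor w).1 *ᵥ v ∈ W) (v : Fin r → ℂ) (hv : v ∈ W) (i : Fin r) (hi : v i ≠ 0) :
    eV i ∈ W := by
  classical
  have key : ∀ T : Finset (Fin r), ∃ u ∈ W, ∀ x, u x = (∏ j ∈ T, (((w x : ℂˣ) : ℂ) - (w j : ℂˣ))) * v x := by
    intro T
    induction T using Finset.induction_on with
    | empty => exact ⟨v, hv, fun x => by simp⟩
    | insert a T ha ih =>
      obtain ⟨u, hu, hux⟩ := ih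
      refine ⟨(tor w).1 *ᵥ u - ((w a : ℂˣ) : ℂ) • u, W.sub_mem (hW u hu) (W.smul_mem _ hu), fun x => ?_⟩
      rw [Finset.prod_insert ha, Pi.sub_apply, tor_mulVec, Pi.smul_apply, hux x, smul_eq_mul]
      ring
  obtain ⟨u, hu, hux⟩ := key (Finset.univ.erase i)
  have hc : (∏ j ∈ Finset.univ.erase i, (((w i : ℂˣ) : ℂ) - (w j : ℂˣ))) * v i ≠ 0 := by
    apply mul_ne_zero _ hi
    apply Finset.prod_ne_zero_iff.mpr
    intro j hj
    rw [sub_ne_zero]
    intro e
    exact (Finset.mem_erase.mp hj).1 (hw (Units.ext e)).symm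
  have h1 : eV i = ((∏ j ∈ Finset.univ.erase i, (((w i : ℂˣ) : ℂ) - (w j : ℂˣ))) * v i)⁻¹ • u := by
    funext x
    simp only [eV, Pi.single_apply, Pi.smul_apply, smul_eq_mul]
    by_cases h : x = i
    · subst h
      rw [if_pos rfl, hux, inv_mul_cancel₀ hc]
    · have h0 : ∏ j ∈ Finset.univ.erase i, (((w x : ℂˣ) : ℂ) - (w j : ℂˣ)) = 0 :=
        Finset.prod_eq_zero (Finset.mem_erase.mpr ⟨h, Finset.mem_univ x⟩) (sub_self _)
      rw [if_neg h, hux x, h0]
      simp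
  rw [h1]
  exact W.smul_mem _ hu

/-- A vector in a subspace, and the inverse of a matrix. -/
lemma mem_of_unit_mulVec (V : Submodule ℂ (Fin r → ℂ)) (A B : GLr ℂ r) (v : Fin r → ℂ) :
    (A * B).1 *ᵥ v = A.1 *ᵥ (B.1 *ᵥ v) := by
  rw [Units.val_mul, Matrix.mulVec_mulVec]

lemma inv_mulVec_mulVec (A : GLr ℂ r) (v : Fin r → ℂ) : (A⁻¹).1 *ᵥ (A.1 *ᵥ v) = v := by
  rw [Matrix.mulVec_mulVec, Units.inv_mul, Matrix.one_mulVec]

lemma mulVec_inv_mulVec (A : GLr ℂ r) (v : Fin r → ℂ) : A.1 *ᵥ ((A⁻¹).1 *ᵥ v) = v := by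
  rw [Matrix.mulVec_mulVec, Units.mul_inv, Matrix.one_mulVec]

/-! ### Twisting along a handle -/

/-- Two diagonal families at adjacent frames force a subspace to be trivial. -/
theorem irr_twist (V : Submodule ℂ (Fin r → ℂ)) (φ φ₁ φ₂ β₁ β₂ : GLr ℂ r) (hβ₁ : β₁ ∈ Bp ℂ r)
    (hβ₂ : β₂ ∈ Bp ℂ r) (h1 : φ₁ = φ * w0 * β₁) (h2 : φ₂ = φ₁ * w0 * β₂)
    (hs : ∀ k k' : Fin r, k.val + 1 = k'.val → β₁.1 k k' ≠ 0)
    (w w' : Fin r → ℂˣ) (hw : Function.Injective w) (hw' : Function.Injective w')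
    (hT : ∀ v ∈ V, (φ * tor w * φ⁻¹).1 *ᵥ v ∈ V) (hT' : ∀ v ∈ V, (φ₁ * tor w' * φ₁⁻¹).1 *ᵥ v ∈ V)
    (z : Fin r → ℂˣ) (hA : ∀ v ∈ V, (φ₂ * w0 * tor z * φ⁻¹).1 *ᵥ v ∈ V) : V = ⊥ ∨ V = ⊤ := by
  classical
  let W : Submodule ℂ (Fin r → ℂ) := V.comap (Matrix.mulVecLin φ.1)
  let W' : Submodule ℂ (Fin r → ℂ) := V.comap (Matrix.mulVecLin φ₁.1)
  have memW : ∀ x, x ∈ W ↔ φ.1 *ᵥ x ∈ V := fun x => Iff.rfl
  have memW' : ∀ x, x ∈ W' ↔ φ₁.1 *ᵥ x ∈ V := fun x => Iff.rfl
  have hcW : ∀ v ∈ W, ∀ i, v i ≠ 0 → eV i ∈ W := by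
    apply coord_of_tor W w hw
    intro v hv
    rw [memW] at hv ⊢
    have e : φ.1 *ᵥ ((tor w).1 *ᵥ v) = (φ * tor w * φ⁻¹).1 *ᵥ (φ.1 *ᵥ v) := by
      rw [Matrix.mulVec_mulVec, Matrix.mulVec_mulVec]
      congr 1
      show _ = ((φ * tor w * φ⁻¹) * φ).1
      rw [inv_mul_cancel_right]
      rfl
    rw [e]
    exact hT _ hv
  have hcW' : ∀ v ∈ W', ∀ i, v i ≠ 0 → eV i ∈ W' := by
    apply coord_of_tor W' w' hw'
    intro v hv
    rw [memW'] at hv ⊢
    have e : φ₁.1 *ᵥ ((tor w').1 *ᵥ v) = (φ₁ * tor w' * φ₁⁻¹).1 *ᵥ (φ₁.1 *ᵥ v) := by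
      rw [Matrix.mulVec_mulVec, Matrix.mulVec_mulVec]
      congr 1
      show _ = ((φ₁ * tor w' * φ₁⁻¹) * φ₁).1
      rw [inv_mul_cancel_right]
      rfl
    rw [e]
    exact hT' _ hv
  -- first step
  have s1 : ∀ j i, eV j ∈ W' → β₁.1 i j ≠ 0 → eV (Fin.rev i) ∈ W := by
    intro j i hj hij
    have hx : (w0 : GLr ℂ r).1 *ᵥ (β₁.1 *ᵥ eV j) ∈ W := by
      rw [memW]
      rw [memW'] at hj
      have e : φ.1 *ᵥ ((w0 : GLr ℂ r).1 *ᵥ (β₁.1 *ᵥ eV j)) = φ₁.1 *ᵥ eV j := by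
        rw [h1, Matrix.mulVec_mulVec, Matrix.mulVec_mulVec]
        rfl
      rw [e]
      exact hj
    apply hcW _ hx
    rw [w0_mulVec, Fin.rev_rev, mulVec_eV]
    exact hij
  -- second step
  have s2 : ∀ j, eV (Fin.rev j) ∈ W → eV j ∈ W' := by
    intro j hj
    have hy : (β₁⁻¹).1 *ᵥ eV j ∈ W' := by
      rw [memW']
      rw [memW] at hj
      have e : φ₁.1 *ᵥ ((β₁⁻¹).1 *ᵥ eV j) = φ.1 *ᵥ eV (Fin.rev j) := by
        have e1 : eV (Fin.rev j) = (w0 : GLr ℂ r).1 *ᵥ eV j := (w0_mulVec_eV j).symm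
        rw [e1, h1, Matrix.mulVec_mulVec, Matrix.mulVec_mulVec]
        congr 1
        show ((φ * w0 * β₁) * β₁⁻¹).1 = (φ * w0).1
        rw [mul_inv_cancel_right]
      rw [e]
      exact hj
    apply hcW' _ hy
    rw [mulVec_eV]
    have := diag_mul_inv_Bp hβ₁ j
    exact right_ne_zero_of_mul_eq_one this
  -- the diagonal of the first transition
  have hdiag₁ : ∀ j, β₁.1 j j ≠ 0 := fun j => by
    have := diag_mul_inv_Bp hβ₁ j
    exact left_ne_zero_of_mul_eq_one this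
  have hdiag₂ : ∀ j, β₂.1 j j ≠ 0 := fun j => by
    have := diag_mul_inv_Bp hβ₂ j
    exact left_ne_zero_of_mul_eq_one this
  -- descending
  have s3 : ∀ k k' : Fin r, k.val + 1 = k'.val → eV k' ∈ W' → eV k ∈ W' := fun k k' hk h =>
    s2 k (s1 k' k h (hs k k' hk))
  -- third step
  have s4 : ∀ x, eV x ∈ W → eV x ∈ W' := by
    intro x hx
    rw [memW] at hx
    have h3 := hA _ hx
    have e : (φ₂ * w0 * tor z * φ⁻¹).1 *ᵥ (φ.1 *ᵥ eV x) = φ₂.1 *ᵥ (((z x : ℂˣ) : ℂ) • eV (Fin.rev x)) := by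
      have e1 : ((z x : ℂˣ) : ℂ) • eV (Fin.rev x) = (w0 : GLr ℂ r).1 *ᵥ ((tor z).1 *ᵥ eV x) := by
        rw [tor_mulVec_eV, Matrix.mulVec_smul, w0_mulVec_eV]
      rw [e1, Matrix.mulVec_mulVec, Matrix.mulVec_mulVec, Matrix.mulVec_mulVec]
      congr 1
      show ((φ₂ * w0 * tor z * φ⁻¹) * φ).1 = (φ₂ * w0 * tor z).1
      rw [inv_mul_cancel_right]
    rw [e, Matrix.mulVec_smul] at h3
    have h4 : φ₂.1 *ᵥ eV (Fin.rev x) ∈ V := by
      have h5 := V.smul_mem ((z x)⁻¹ : ℂˣ).1 h3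
      rw [smul_smul] at h5
      simpa using h5
    have hy : (w0 : GLr ℂ r).1 *ᵥ (β₂.1 *ᵥ eV (Fin.rev x)) ∈ W' := by
      rw [memW']
      have e2 : φ₁.1 *ᵥ ((w0 : GLr ℂ r).1 *ᵥ (β₂.1 *ᵥ eV (Fin.rev x))) = φ₂.1 *ᵥ eV (Fin.rev x) := by
        rw [h2, Matrix.mulVec_mulVec, Matrix.mulVec_mulVec]
        rfl
      rw [e2]
      exact h4
    apply hcW' _ hy
    rw [w0_mulVec, mulVec_eV]
    exact hdiag₂ _
  -- reversal
  have s5 : ∀ j, eV j ∈ W' → eV (Fin.rev j) ∈ W' := fun j hj => s4 _ (s1 j j hj (hdiag₁ j))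
  -- the descending closure
  have s6 : ∀ (d : ℕ) (k : Fin r) (hd : d ≤ k.val), eV k ∈ W' → eV (⟨k.val - d, by have := k.isLt; omega⟩ : Fin r) ∈ W' := by
    intro d
    induction d with
    | zero =>
      intro k hd h
      simpa using h
    | succ d ih =>
      intro k hd h
      have h3 := ih k (by omega) h
      have hk := k.isLt
      exact s3 _ ⟨k.val - d, by omega⟩ (by show k.val - (d + 1) + 1 = k.val - d; omega) h3
  by_cases hbot : V = ⊥
  · exact Or.inl hbot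
  right
  obtain ⟨v, hv, hv0⟩ := Submodule.exists_mem_ne_zero_of_ne_bot hbot
  have hu : (φ₁⁻¹).1 *ᵥ v ∈ W' := by
    rw [memW', mulVec_inv_mulVec]
    exact hv
  have hu0 : (φ₁⁻¹).1 *ᵥ v ≠ 0 := by
    intro h0
    apply hv0
    have := mulVec_inv_mulVec φ₁ v
    rw [h0, Matrix.mulVec_zero] at this
    exact this.symm
  obtain ⟨i, hi⟩ : ∃ i, ((φ₁⁻¹).1 *ᵥ v) i ≠ 0 := by
    by_contra hc
    simp only [not_exists, not_not] at hc
    exact hu0 (funext hc)
  have h5 := hcW' _ hu i hi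
  have hpos : 0 < r := lt_of_le_of_lt (Nat.zero_le _) i.isLt
  have hzero : eV (⟨0, hpos⟩ : Fin r) ∈ W' := by
    have h6 := s6 i.val i le_rfl h5
    have e : (⟨i.val - i.val, by have := i.isLt; omega⟩ : Fin r) = ⟨0, hpos⟩ := Fin.ext (by simp)
    rwa [e] at h6
  have hlast := s5 _ hzero
  have hall : ∀ k, eV k ∈ W' := by
    intro k
    have hk := k.isLt
    have h6 := s6 (r - 1 - k.val) _ (by
      show r - 1 - k.val ≤ (Fin.rev (⟨0, hpos⟩ : Fin r)).val
      rw [Fin.val_rev]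
      show r - 1 - k.val ≤ r - (0 + 1)
      omega) hlast
    have e : (⟨(Fin.rev (⟨0, hpos⟩ : Fin r)).val - (r - 1 - k.val), by
        have := (Fin.rev (⟨0, hpos⟩ : Fin r)).isLt
        omega⟩ : Fin r) = k := by
      apply Fin.ext
      simp only [Fin.val_rev]
      omega
    rwa [e] at h6
  have htop := eq_top_of_eV W' hall
  rw [eq_top_iff]
  intro y _
  have h7 : (φ₁⁻¹).1 *ᵥ y ∈ W' := by
    rw [htop]
    trivial
  rw [memW', mulVec_inv_mulVec] at h7
  exact h7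

/-! ### Graded pieces -/

/-- The part of a matrix on one diagonal: the shift of the index is `r + p - q = D`. -/
def grM (D : ℕ) (X : Matrix (Fin r) (Fin r) ℂ) : Matrix (Fin r) (Fin r) ℂ :=
  Matrix.of fun p q => if r + p.val = D + q.val then X p q else 0

/-- If the conjugates by the principal torus take a vector into a subspace, so do the graded
pieces. -/
lemma graded_mem (X : GLr ℂ r) (W₁ : Submodule ℂ (Fin r → ℂ)) (x : Fin r → ℂ)
    (hx : ∀ ν : ℂˣ, (EE r ν * X * (EE r ν)⁻¹).1 *ᵥ x ∈ W₁) (D : ℕ) : grM D X.1 *ᵥ x ∈ W₁ := by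
  classical
  by_contra hc
  obtain ⟨ℓ, hℓ1, hℓ2⟩ := Submodule.exists_dual_map_eq_bot_of_notMem hc inferInstance
  have hker : ∀ y ∈ W₁, ℓ y = 0 := by
    intro y hy
    have : ℓ y ∈ Submodule.map ℓ W₁ := ⟨y, hy, rfl⟩
    rw [hℓ2] at this
    simpa using this
  -- the coefficients
  let lc : Fin r → ℂ := fun p => ℓ (fun j => if p = j then 1 else 0)
  have hform : ∀ y : Fin r → ℂ, ℓ y = ∑ p, y p * lc p := by
    intro y
    rw [LinearMap.pi_apply_eq_sum_univ ℓ y]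
    rfl
  let c : Fin r → Fin r → ℂ := fun p q => lc p * X.1 p q * x q
  let P : Polynomial ℂ := ∑ p, ∑ q, Polynomial.C (c p q) * Polynomial.X ^ (r + p.val - q.val)
  have hroot : ∀ ν : ℂˣ, P.eval ((ν : ℂ) ^ 2) = 0 := by
    intro ν
    have h1 := hker _ (hx ν)
    rw [hform] at h1
    have h2 : ∀ p, ((EE r ν * X * (EE r ν)⁻¹).1 *ᵥ x) p * lc p =
        ∑ q, c p q * (pP r ν p * (pP r ν q)⁻¹) := by
      intro p
      rw [Matrix.mulVec, dotProduct, Finset.sum_mul]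
      apply Finset.sum_congr rfl
      intro q _
      rw [EE_conj_apply]
      simp only [c]
      ring
    rw [Finset.sum_congr rfl fun p _ => h2 p] at h1
    have h3 : P.eval ((ν : ℂ) ^ 2) = ((ν : ℂ) ^ 2) ^ r * ∑ p, ∑ q, c p q * (pP r ν p * (pP r ν q)⁻¹) := by
      simp only [P, Polynomial.eval_finsetSum, Polynomial.eval_mul, Polynomial.eval_C,
        Polynomial.eval_pow, Polynomial.eval_X, Finset.mul_sum]
      apply Finset.sum_congr rfl
      intro p _
      apply Finset.sum_congr rfl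
      intro q _
      have hq := q.isLt
      have hν : (ν : ℂ) ≠ 0 := ν.ne_zero
      have e1 : ((ν : ℂ) ^ 2) ^ (r + p.val - q.val) * ((ν : ℂ) ^ 2) ^ q.val =
          ((ν : ℂ) ^ 2) ^ r * ((ν : ℂ) ^ 2) ^ p.val := by
        rw [← pow_add, ← pow_add]
        congr 1
        omega
      simp only [pP]
      rw [pow_mul, pow_mul] 
      have e2 : ((ν : ℂ) ^ 2) ^ q.val ≠ 0 := pow_ne_zero _ (pow_ne_zero _ hν)
      have e3 : (ν : ℂ) ^ (r - 1) ≠ 0 := pow_ne_zero _ hν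
      field_simp
      linear_combination (c p q) * e1
    rw [h3, h1, mul_zero]
  have hP : P = 0 := by
    apply Polynomial.eq_zero_of_infinite_isRoot
    let f : ℕ → ℂ := fun k => ((k : ℂ) + 1) ^ 2
    have hf : Function.Injective f := by
      intro a b hab
      have h1 : (((a : ℝ) + 1) ^ 2 : ℝ) = ((b : ℝ) + 1) ^ 2 := by
        have : ((((a : ℝ) + 1) ^ 2 : ℝ) : ℂ) = (((b : ℝ) + 1) ^ 2 : ℝ) := by
          push_cast
          exact hab
        exact_mod_cast this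
      have h2 : (a : ℝ) + 1 = (b : ℝ) + 1 := by
        have ha : (0 : ℝ) ≤ (a : ℝ) + 1 := by positivity
        have hb : (0 : ℝ) ≤ (b : ℝ) + 1 := by positivity
        exact (pow_left_inj₀ ha hb (by norm_num)).mp h1
      have h3 : (a : ℝ) = b := by linarith
      exact_mod_cast h3
    apply (Set.infinite_range_of_injective hf).mono
    rintro _ ⟨k, rfl⟩
    have hk : (k : ℂ) + 1 ≠ 0 := by
      exact_mod_cast Nat.succ_ne_zero k
    exact hroot (Units.mk0 ((k : ℂ) + 1) hk)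
  -- the coefficient
  apply hℓ1
  rw [hform]
  have h1 := congrArg (fun Q : Polynomial ℂ => Q.coeff D) hP
  simp only [P, Polynomial.coeff_zero, Polynomial.finsetSum_coeff, Polynomial.coeff_C_mul,
    Polynomial.coeff_X_pow] at h1
  rw [← h1]
  apply Finset.sum_congr rfl
  intro p _
  rw [Matrix.mulVec, dotProduct, Finset.sum_mul]
  apply Finset.sum_congr rfl
  intro q _
  have hq := q.isLt
  simp only [grM, Matrix.of_apply, c]
  by_cases h : r + p.val = D + q.val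
  · have e : D = r + p.val - q.val := by omega
    rw [if_pos h, if_pos e]
    ring
  · have e : ¬ (D = r + p.val - q.val) := by omega
    rw [if_neg h, if_neg e]
    ring

lemma grM_self (X : Matrix (Fin r) (Fin r) ℂ) (h : ∀ i, X i i = 1) : grM r X = 1 := by
  ext p q
  simp only [grM, Matrix.of_apply, Matrix.one_apply]
  by_cases e : p = q
  · subst e
    simp [h]
  · have : ¬ (r + p.val = r + q.val) := fun e' => e (Fin.ext (by omega))
    rw [if_neg this, if_neg e]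

/-- The conjugates by the principal torus of two matrices force a subspace to be trivial. -/
theorem irr_graded (V : Submodule ℂ (Fin r → ℂ)) (G Ψ h Y : GLr ℂ r) (hd1 : ∀ i, h.1 i i = 1)
    (hd2 : ∀ i, (h⁻¹).1 i i = 1) (hsub : ∀ k k' : Fin r, k'.val + 1 = k.val → h.1 k k' ≠ 0)
    (hsup : ∀ k k' : Fin r, k.val + 1 = k'.val → Y.1 k k' ≠ 0)
    (hC : ∀ ν : ℂˣ, ∀ v ∈ V, (G * (EE r ν * h * (EE r ν)⁻¹) * Ψ).1 *ᵥ v ∈ V)
    (hD : ∀ ν : ℂˣ, ∀ v ∈ V, (G * (EE r ν * Y * (EE r ν)⁻¹) * Ψ).1 *ᵥ v ∈ V) : V = ⊥ ∨ V = ⊤ := by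
  classical
  let W : Submodule ℂ (Fin r → ℂ) := V.comap (Matrix.mulVecLin (Ψ⁻¹).1)
  let W₁ : Submodule ℂ (Fin r → ℂ) := V.comap (Matrix.mulVecLin G.1)
  have memW : ∀ x, x ∈ W ↔ (Ψ⁻¹).1 *ᵥ x ∈ V := fun x => Iff.rfl
  have memW₁ : ∀ x, x ∈ W₁ ↔ G.1 *ᵥ x ∈ V := fun x => Iff.rfl
  have hWW₁ : ∀ X : GLr ℂ r, (∀ ν : ℂˣ, ∀ v ∈ V, (G * (EE r ν * X * (EE r ν)⁻¹) * Ψ).1 *ᵥ v ∈ V) →
      ∀ D, ∀ x ∈ W, grM D X.1 *ᵥ x ∈ W₁ := by
    intro X hX D x hx
    apply graded_mem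
    intro ν
    rw [memW₁]
    rw [memW] at hx
    have e : G.1 *ᵥ ((EE r ν * X * (EE r ν)⁻¹).1 *ᵥ x) =
        (G * (EE r ν * X * (EE r ν)⁻¹) * Ψ).1 *ᵥ ((Ψ⁻¹).1 *ᵥ x) := by
      rw [Matrix.mulVec_mulVec, Matrix.mulVec_mulVec]
      congr 1
      show _ = ((G * (EE r ν * X * (EE r ν)⁻¹) * Ψ) * Ψ⁻¹).1
      rw [mul_inv_cancel_right]
      rfl
    rw [e]
    exact hX ν _ hx
  have hle1 : ∀ x ∈ W, x ∈ W₁ := by
    intro x hx
    have h1 := hWW₁ h hC r x hx
    rwa [grM_self _ hd1, Matrix.one_mulVec] at h1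
  have hle2 : ∀ x ∈ W₁, x ∈ W := by
    intro x hx
    rw [memW₁] at hx
    have h1 : grM r (h⁻¹).1 *ᵥ x ∈ W := by
      have h0 : ∀ ν : ℂˣ, (EE r ν * h⁻¹ * (EE r ν)⁻¹).1 *ᵥ x ∈ W := by
        intro ν
        rw [memW]
        have hS := (mem_Stab V _ (hC ν)).2 _ hx
        have e : (Ψ⁻¹).1 *ᵥ ((EE r ν * h⁻¹ * (EE r ν)⁻¹).1 *ᵥ x) =
            ((G * (EE r ν * h * (EE r ν)⁻¹) * Ψ)⁻¹).1 *ᵥ (G.1 *ᵥ x) := by
          rw [Matrix.mulVec_mulVec, Matrix.mulVec_mulVec]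
          congr 1
          show (Ψ⁻¹ * (EE r ν * h⁻¹ * (EE r ν)⁻¹)).1 = ((G * (EE r ν * h * (EE r ν)⁻¹) * Ψ)⁻¹ * G).1
          congr 1
          group
        rw [e]
        exact hS
      exact graded_mem _ W x h0 r
    rwa [grM_self _ hd2, Matrix.one_mulVec] at h1
  -- the lowering and raising operators
  have hN : ∀ x ∈ W, grM (r + 1) h.1 *ᵥ x ∈ W := fun x hx => hle2 _ (hWW₁ h hC _ x hx)
  have hS : ∀ x ∈ W, grM (r - 1) Y.1 *ᵥ x ∈ W := fun x hx => hle2 _ (hWW₁ Y hD _ x hx)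
  by_cases hbot : V = ⊥
  · exact Or.inl hbot
  right
  obtain ⟨v, hv, hv0⟩ := Submodule.exists_mem_ne_zero_of_ne_bot hbot
  have hx : Ψ.1 *ᵥ v ∈ W := by
    rw [memW, inv_mulVec_mulVec]
    exact hv
  have hx0 : Ψ.1 *ᵥ v ≠ 0 := by
    intro h0
    apply hv0
    have := inv_mulVec_mulVec Ψ v
    rw [h0, Matrix.mulVec_zero] at this
    exact this.symm
  have hpos : 0 < r := by
    by_contra h0
    have hr : r = 0 := by omega
    subst hr
    exact hx0 (funext fun i => i.elim0)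
  let last : Fin r := ⟨r - 1, by omega⟩
  have key : ∀ d : ℕ, ∀ x ∈ W, x ≠ 0 → (∀ i : Fin r, i.val + d + 1 < r → x i = 0) → eV last ∈ W := by
    intro d
    induction d with
    | zero =>
      intro x hx hx0 hs
      have h1 : x = x last • eV last := by
        funext i
        simp only [eV, Pi.smul_apply, smul_eq_mul, Pi.single_apply]
        by_cases e : i = last
        · subst e
          simp
        · rw [if_neg e, mul_zero]
          apply hs
          have h2 : i.val ≠ r - 1 := fun e' => e (Fin.ext e')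
          have := i.isLt
          omega
      have h2 : x last ≠ 0 := by
        intro h3
        rw [h3, zero_smul] at h1
        exact hx0 h1
      have h3 : eV last = (x last)⁻¹ • x := by
        rw [eq_inv_smul_iff₀ h2]
        exact h1.symm
      rw [h3]
      exact W.smul_mem _ hx
    | succ d ih =>
      intro x hx hx0 hs
      by_cases hc : ∀ i : Fin r, i.val + d + 1 < r → x i = 0
      · exact ih x hx hx0 hc
      · simp only [not_forall] at hc
        obtain ⟨i, hi, hi0⟩ := hc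
        have hy := hN x hx
        have hi1 : i.val + 1 < r := by omega
        have hentry : (grM (r + 1) h.1 *ᵥ x) ⟨i.val + 1, hi1⟩ = h.1 ⟨i.val + 1, hi1⟩ i * x i := by
          rw [Matrix.mulVec, dotProduct, Finset.sum_eq_single i]
          · simp only [grM, Matrix.of_apply]
            rw [if_pos (by show r + (i.val + 1) = r + 1 + i.val; omega)]
          · intro q _ hq
            simp only [grM, Matrix.of_apply]
            rw [if_neg, zero_mul]
            intro e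
            apply hq
            apply Fin.ext
            have e' : r + (i.val + 1) = r + 1 + q.val := e
            omega
          · simp
        have hy0 : grM (r + 1) h.1 *ᵥ x ≠ 0 := by
          intro h0
          have h1 := congrFun h0 ⟨i.val + 1, hi1⟩
          rw [hentry] at h1
          exact mul_ne_zero (hsub _ _ rfl) hi0 h1
        apply ih _ hy hy0
        intro p hp
        rw [Matrix.mulVec, dotProduct]
        apply Finset.sum_eq_zero
        intro q _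
        simp only [grM, Matrix.of_apply]
        by_cases e : r + p.val = r + 1 + q.val
        · rw [hs q (by omega), mul_zero]
        · rw [if_neg e, zero_mul]
  have hlast : eV last ∈ W := key (r - 1) _ hx hx0 (fun i hi => by omega)
  have hdown : ∀ k k' : Fin r, k.val + 1 = k'.val → eV k' ∈ W → eV k ∈ W := by
    intro k k' hk h1
    have h2 := hS _ h1
    have h3 : grM (r - 1) Y.1 *ᵥ eV k' = Y.1 k k' • eV k := by
      funext p
      rw [mulVec_eV]
      simp only [grM, Matrix.of_apply, Pi.smul_apply, smul_eq_mul, eV, Pi.single_apply]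
      by_cases e : p = k
      · subst e
        rw [if_pos (by omega), if_pos rfl, mul_one]
      · rw [if_neg e, mul_zero, if_neg]
        intro e'
        apply e
        apply Fin.ext
        omega
    rw [h3] at h2
    have h4 := W.smul_mem (Y.1 k k')⁻¹ h2
    rw [smul_smul, inv_mul_cancel₀ (hsup k k' hk), one_smul] at h4
    exact h4
  have hall : ∀ d : ℕ, ∀ hd : d < r, eV (⟨r - 1 - d, by omega⟩ : Fin r) ∈ W := by
    intro d
    induction d with
    | zero => exact fun _ => hlast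
    | succ d ih =>
      intro hd
      exact hdown _ ⟨r - 1 - d, by omega⟩ (by show r - 1 - (d + 1) + 1 = r - 1 - d; omega) (ih (by omega))
  have htop : W = ⊤ := by
    apply eq_top_of_eV
    intro k
    have hk := k.isLt
    have := hall (r - 1 - k.val) (by omega)
    have e : (⟨r - 1 - (r - 1 - k.val), by omega⟩ : Fin r) = k := Fin.ext (by show r - 1 - (r - 1 - k.val) = k.val; omega)
    rwa [e] at this
  rw [eq_top_iff]
  intro y _
  have h7 : Ψ.1 *ᵥ y ∈ W := by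
    rw [htop]
    trivial
  rw [memW, inv_mulVec_mulVec] at h7
  exact h7

end Vale.Agent.Lib.P002.Surf
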