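import Mathlib
import Vale.Agent.Lib.P002.Surf.Final
import Vale.Agent.Lib.P002.Reg.Abstract

set_option linter.unusedSectionVars false
set_option linter.unusedVariables false
set_option linter.unusedSimpArgs false
set_option linter.unnecessarySeqFocus false

namespace Vale.Agent.Lib.P002.Surf

open Matrix

variable {r m : ℕ}

/-- An intertwiner of two triangular matrices with the same regular spectrum is triangular. -/
lemma UT_of_intertwine_reg {X B B' : Matrix (Fin r) (Fin r) ℂ} (hB : UT B) (hB' : UT B')
    (d : Fin r → ℂ) (hc : ∀ i j k : Fin r, i < j → j < k → d i = d k → d j = d i)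
    (hs : ∀ i k : Fin r, i.val + 1 = k.val → d i = d k → B i k ≠ 0)
    (h1 : ∀ i, B i i = d i) (h2 : ∀ i, B' i i = d i) (h : X * B = B' * X) : UT X := by
  have key : ∀ k : ℕ, ∀ i j : Fin r, j < i → r ≤ (i.val - j.val) + k → X i j = 0 := by
    intro k
    induction k with
    | zero =>
      intro i j _ hk
      have := i.isLt
      omega
    | succ k ih =>
      have inner : ∀ e : ℕ, ∀ i j : Fin r, j < i → r ≤ (i.val - j.val) + (k + 1) → r ≤ i.val + e →
          X i j = 0 := by
        intro e
        induction e with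
        | zero =>
          intro i j _ _ hi
          have := i.isLt
          omega
        | succ e ihe =>
          intro i j hij hk hi
          have hij' : j.val < i.val := hij
          have hi1 := i.isLt
          -- the entry at `(i, j)`
          have e1 := congrFun (congrFun h i) j
          rw [Matrix.mul_apply, Matrix.mul_apply, Finset.sum_eq_single j, Finset.sum_eq_single i]
            at e1
          · rw [h1, h2] at e1
            have e2 : X i j * (d j - d i) = 0 := by linear_combination e1
            by_cases hne : d j = d i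
            · -- the next column
              have hj1 : j.val + 1 < r := by omega
              let j' : Fin r := ⟨j.val + 1, hj1⟩
              have hjj' : d j' = d j := by
                by_cases hj2 : j'.val = i.val
                · have : j' = i := Fin.ext hj2
                  rw [this, hne]
                · have hlt : j' < i := by
                    show j.val + 1 < i.val
                    have : j.val + 1 ≠ i.val := hj2
                    omega
                  have hlt2 : j < j' := by
                    show j.val < j.val + 1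
                    omega
                  exact hc j j' i hlt2 hlt hne
              have e3 := congrFun (congrFun h i) j'
              rw [Matrix.mul_apply, Matrix.mul_apply,
                Finset.sum_eq_add j j' (fun hh => by
                  have : j.val = j.val + 1 := congrArg Fin.val hh
                  omega) (fun l _ hl => ?_) (by simp) (by simp),
                Finset.sum_eq_single i] at e3
              · rw [h1, h2, hjj', hne] at e3
                have e4 : X i j * B j j' = 0 := by linear_combination e3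
                exact (mul_eq_zero.mp e4).resolve_right (hs j j' rfl (by rw [hjj']))
              · intro l _ hl
                rcases lt_or_gt_of_ne hl with hl' | hl'
                · rw [hB' i l hl', zero_mul]
                · have hl'' : i.val < l.val := hl'
                  have hlj : j' < l := by
                    show j.val + 1 < l.val
                    omega
                  have hl3 := l.isLt
                  have e5 : l.val - j'.val ≥ i.val - j.val := by
                    show l.val - (j.val + 1) ≥ i.val - j.val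
                    omega
                  rw [ihe l j' hlj (by omega) (by omega), mul_zero]
              · simp
              · -- the other terms of the left side
                obtain ⟨hl1, hl2⟩ := hl
                by_cases hl3 : l < j
                · have hl4 : l.val < j.val := hl3
                  have hli : l < i := by
                    show l.val < i.val
                    omega
                  rw [ih i l hli (by omega), zero_mul]
                · have hl4 : j'.val < l.val := by
                    have h5 : ¬ l.val < j.val := hl3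
                    have h6 : l.val ≠ j.val := fun e => hl1 (Fin.ext e)
                    have h7 : l.val ≠ j.val + 1 := fun e => hl2 (Fin.ext e)
                    show j.val + 1 < l.val
                    omega
                  rw [hB l j' hl4, mul_zero]
            · have hne' : d j - d i ≠ 0 := sub_ne_zero.mpr hne
              exact (mul_eq_zero.mp e2).resolve_right hne'
          · intro l _ hl
            rcases lt_or_gt_of_ne hl with hl' | hl'
            · rw [hB' i l hl', zero_mul]
            · have hl'' : i.val < l.val := hl'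
              have hl3 := l.isLt
              rw [ih l j (lt_trans hij hl') (by omega), mul_zero]
          · simp
          · intro l _ hl
            rcases lt_or_gt_of_ne hl with hl' | hl'
            · have hl'' : l.val < j.val := hl'
              rw [ih i l (lt_trans hl' hij) (by omega), zero_mul]
            · rw [hB l j hl', mul_zero]
          · simp
      intro i j hij hk
      exact inner r i j hij hk (by omega)
  intro i j hij
  exact key r i j hij (by omega)

section walk

variable (C C' : Chain ℂ r m) (P : GLr ℂ r)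

/-- The comparison at a tip. -/
lemma Dfr_tip_reg {W W' : GLr ℂ r} {x : ℕ} {B B' : Bp ℂ r}
    (hW : W = C.φ x * B.1 * (C.φ x)⁻¹) (hW' : W' = C'.φ x * B'.1 * (C'.φ x)⁻¹)
    (hP : W' = P * W * P⁻¹) (hdg : dg B = dg B')
    (hc : ∀ i j k : Fin r, i < j → j < k → B.1.1 i i = B.1.1 k k → B.1.1 j j = B.1.1 i i)
    (hs : ∀ i k : Fin r, i.val + 1 = k.val → B.1.1 i k ≠ 0) : Dfr C C' P x ∈ Bp ℂ r := by
  have h : (Dfr C C' P x).1 * B.1.1 = B'.1.1 * (Dfr C C' P x).1 := by
    have h1 : Dfr C C' P x * B.1 = B'.1 * Dfr C C' P x := by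
      simp only [Dfr]
      have h2 : B'.1 = (C'.φ x)⁻¹ * W' * C'.φ x := by rw [hW']; group
      rw [h2, hP, hW]
      group
    exact congrArg (fun g : GLr ℂ r => g.1) h1
  refine UT_of_intertwine_reg B.2 B'.2 (fun i => B.1.1 i i) hc (fun i k hik _ => hs i k hik)
    (fun i => rfl) (fun i => ?_) h
  have := congrFun hdg i
  have h3 := congrArg (fun u : ℂˣ => (u : ℂ)) this
  exact h3.symm

variable {s g : ℕ} (hmm : m = 2 * s + 4 * g)
  (zS zS' zA zA' zB zB' : ℕ → Fin r → ℂˣ)
  (hS : ∀ j, j < s → C'.sW (2 * j) (zS' j) = P * C.sW (2 * j) (zS j) * P⁻¹)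
  (hO : ∀ j, j < s → Dfr C C' P (2 * j + 1) ∈ Bp ℂ r)
  (hA : ∀ i, i < g → C'.hA (eE s i) (zA' i) = P * C.hA (eE s i) (zA i) * P⁻¹)
  (hB : ∀ i, i < g → C'.hB (eE s i) (zB' i) = P * C.hB (eE s i) (zB i) * P⁻¹)
  (hP : P ∈ Bp ℂ r)

include hmm hS hO hA hB hP

lemma Dfr_even' (j : ℕ) (hj : j ≤ s) : Dfr C C' P (2 * j) ∈ Bp ℂ r := by
  induction j with
  | zero => simpa [Dfr_zero] using hP
  | succ j ih =>
    have h1 : 2 * j + 2 ≤ m := by omega
    exact Dfr_transport C C' P (C.sW_word h1 (zS j)) (C'.sW_word h1 (zS' j)) (hS j (by omega))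
      (ih (by omega))

lemma Dfr_handle' (i : ℕ) (hi : i ≤ g) : Dfr C C' P (eE s i) ∈ Bp ℂ r := by
  induction i with
  | zero =>
    have := Dfr_even' C C' P hmm zS zS' zA zA' zB zB' hS hO hA hB hP s le_rfl
    simpa [eE] using this
  | succ i ih =>
    have hi' : i < g := by omega
    have he : eE s i + 4 ≤ m := by simp only [eE]; omega
    have hD0 := ih (by omega)
    have hD3 := Dfr_transport C C' P (C.hA_word (by omega) (zA i)) (C'.hA_word (by omega) (zA' i))
      (hA i hi') hD0
    have hB' : (C'.hB (eE s i) (zB' i))⁻¹ = P * (C.hB (eE s i) (zB i))⁻¹ * P⁻¹ := by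
      rw [hB i hi']; group
    have hA' : (C'.hA (eE s i) (zA' i))⁻¹ = P * (C.hA (eE s i) (zA i))⁻¹ * P⁻¹ := by
      rw [hA i hi']; group
    have hD2 := Dfr_transport C C' P (C.hB_inv_word (by omega) (zB i))
      (C'.hB_inv_word (by omega) (zB' i)) hB' hD3
    have hD1 := Dfr_transport C C' P (C.hA_inv_word (by omega) (zA i))
      (C'.hA_inv_word (by omega) (zA' i)) hA' hD2
    have hD4 := Dfr_transport C C' P (C.hB_word (by omega) (zB i))
      (C'.hB_word (by omega) (zB' i)) (hB i hi') hD1
    have e : eE s (i + 1) = eE s i + 4 := by simp [eE]; ring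
    rw [e]
    exact hD4

lemma Dfr_handle_mid' (i : ℕ) (hi : i < g) :
    Dfr C C' P (eE s i + 1) ∈ Bp ℂ r ∧ Dfr C C' P (eE s i + 2) ∈ Bp ℂ r ∧
      Dfr C C' P (eE s i + 3) ∈ Bp ℂ r := by
  have he : eE s i + 4 ≤ m := by simp only [eE]; omega
  have hD0 := Dfr_handle' C C' P hmm zS zS' zA zA' zB zB' hS hO hA hB hP i hi.le
  have hD3 := Dfr_transport C C' P (C.hA_word (by omega) (zA i)) (C'.hA_word (by omega) (zA' i))
    (hA i hi) hD0
  have hB' : (C'.hB (eE s i) (zB' i))⁻¹ = P * (C.hB (eE s i) (zB i))⁻¹ * P⁻¹ := by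
    rw [hB i hi]; group
  have hA' : (C'.hA (eE s i) (zA' i))⁻¹ = P * (C.hA (eE s i) (zA i))⁻¹ * P⁻¹ := by
    rw [hA i hi]; group
  have hD2 := Dfr_transport C C' P (C.hB_inv_word (by omega) (zB i))
    (C'.hB_inv_word (by omega) (zB' i)) hB' hD3
  have hD1 := Dfr_transport C C' P (C.hA_inv_word (by omega) (zA i))
    (C'.hA_inv_word (by omega) (zA' i)) hA' hD2
  exact ⟨hD1, hD2, hD3⟩

/-- All comparisons are upper triangular. -/
theorem Dfr_all' (x : ℕ) (hx : x ≤ m) : Dfr C C' P x ∈ Bp ℂ r := by
  by_cases h : x < 2 * s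
  · rcases Nat.even_or_odd' x with ⟨j, rfl | rfl⟩
    · exact Dfr_even' C C' P hmm zS zS' zA zA' zB zB' hS hO hA hB hP j (by omega)
    · exact hO j (by omega)
  · obtain ⟨y, rfl⟩ : ∃ y, x = 2 * s + y := ⟨x - 2 * s, by omega⟩
    have hy : y = 4 * (y / 4) + y % 4 := (Nat.div_add_mod y 4).symm
    have hy4 : y % 4 < 4 := Nat.mod_lt _ (by norm_num)
    generalize y / 4 = i at hy
    generalize y % 4 = k at hy hy4
    subst hy
    have hi : i ≤ g := by omega
    interval_cases k
    · exact Dfr_handle' C C' P hmm zS zS' zA zA' zB zB' hS hO hA hB hP i hi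
    · exact (Dfr_handle_mid' C C' P hmm zS zS' zA zA' zB zB' hS hO hA hB hP i (by omega)).1
    · exact (Dfr_handle_mid' C C' P hmm zS zS' zA zA' zB zB' hS hO hA hB hP i (by omega)).2.1
    · exact (Dfr_handle_mid' C C' P hmm zS zS' zA zA' zB zB' hS hO hA hB hP i (by omega)).2.2

end walk

/-! ### The chart -/

section rigid

variable {R : Type*} [CommRing R] {n s g : ℕ}
  (I : Inp R n s g) (hm : 4 ≤ mm s g) (f f' : R →+* ℂ)
  (ha : ∀ k, k ≤ s → ∀ i, f (I.a k i) = f' (I.a k i))
  (hcont : ∀ k, k ≤ s → ∀ i j l : Fin (n + 2), i < j → j < l → f (I.a k i) = f (I.a k l) →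
    f (I.a k j) = f (I.a k i))
  (hregS : ∀ j, j < s → ∀ k k' : Fin (n + 2), k.val + 1 = k'.val →
    f ((sBd I hm j).1.1 k k') ≠ 0)
  (hregH : ∀ k k' : Fin (n + 2), k.val + 1 = k'.val → f (((HH I hm)⁻¹).1.1 k k') ≠ 0)
  (P : GLr ℂ (n + 2))
  (hgen : ∀ x : Gens g (s + 1), GLmap f' (gensGL I hm x) = P * GLmap f (gensGL I hm x) * P⁻¹)

include hgen

lemma hgen_sW' (j : ℕ) (hj : j < s) :
    GLmap f' (sWd I hm j) = P * GLmap f (sWd I hm j) * P⁻¹ := by
  have h1 := hgen (Sum.inr (Sum.inr ⟨s - 1 - j, by omega⟩))
  have h2 : (⟨s - 1 - j, by omega⟩ : Fin (s + 1)).val < s := by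
    show s - 1 - j < s
    omega
  have e : s - 1 - (s - 1 - j) = j := by omega
  simp only [gensGL, if_pos h2] at h1
  simpa only [e] using h1

lemma hgen_x' (i : ℕ) (hi : i < g) :
    GLmap f' (xW I hm i) = P * GLmap f (xW I hm i) * P⁻¹ := by
  have h1 := hgen (Sum.inl ⟨g - 1 - i, by omega⟩)
  have e : g - 1 - (g - 1 - i) = i := by omega
  simp only [gensGL] at h1
  simpa only [e] using h1

lemma hgen_y' (i : ℕ) (hi : i < g) :
    GLmap f' (yW I hm i) = P * GLmap f (yW I hm i) * P⁻¹ := by
  have h1 := hgen (Sum.inr (Sum.inl ⟨g - 1 - i, by omega⟩))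
  have e : g - 1 - (g - 1 - i) = i := by omega
  simp only [gensGL] at h1
  simpa only [e] using h1

lemma hgen_H' :
    GLmap f' ((HH I hm)⁻¹).1 = P * GLmap f ((HH I hm)⁻¹).1 * P⁻¹ := by
  have h1 := hgen (Sum.inr (Sum.inr ⟨s, by omega⟩))
  simp only [gensGL] at h1
  simpa using h1

include ha hcont hregH in
/-- The conjugating matrix is upper triangular. -/
lemma P_mem_Bp' : P ∈ Bp ℂ (n + 2) := by
  have h1 := hgen_H' I hm f f' P hgen
  have hdg : ∀ (φ : R →+* ℂ) (i : Fin (n + 2)),
      (GLmap φ ((HH I hm)⁻¹).1).1 i i = φ (I.a s i) := by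
    intro φ i
    show φ (((HH I hm)⁻¹).1.1 i i) = _
    have h2 : dg ((HH I hm)⁻¹) = I.a s := by
      rw [dg_inv, dg_HH, DD_eq]
      simp
    have h3 := congrFun h2 i
    rw [← h3]
    rfl
  apply UT_of_intertwine_reg (GLmap_Bp f ((HH I hm)⁻¹).2) (GLmap_Bp f' ((HH I hm)⁻¹).2)
    (fun i => f (I.a s i)) (hcont s le_rfl)
    (fun i k hik _ => hregH i k hik) (fun i => hdg f i)
    (fun i => by rw [hdg f', ha s le_rfl])
  have h4 : GLmap f' ((HH I hm)⁻¹).1 * P = P * GLmap f ((HH I hm)⁻¹).1 := by
    rw [h1]
    group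
  exact (congrArg (fun g : GLr ℂ (n + 2) => g.1) h4).symm

include ha hcont hregS hregH in
/-- All the comparison matrices are upper triangular. -/
lemma Dfr_chart' (x : ℕ) (hx : x ≤ mm s g) :
    Dfr (((theFan I hm).map f).chain (by omega)) (((theFan I hm).map f').chain (by omega))
      (P) x ∈ Bp ℂ (n + 2) := by
  rw [Fan.map_chain, Fan.map_chain]
  apply Dfr_all' (m := mm s g) (s := s) (g := g) _ _ _ rfl
    (fun j => mapZ f (Zs I hm j)) (fun j => mapZ f' (Zs I hm j))
    (fun i => mapZ f (zH I i)) (fun i => mapZ f' (zH I i))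
    (fun i => mapZ f (zH' I i)) (fun i => mapZ f' (zH' I i))
  · intro j hj
    have h1 := hgen_sW' I hm f f' P hgen j hj
    simp only [sWd] at h1
    rw [Chain.map_sW, Chain.map_sW] at h1
    exact h1
  · intro j hj
    have hmj : 2 * j + 1 ≤ mm s g := by
      simp only [mm]
      omega
    have h1 := hgen_sW' I hm f f' P hgen j hj
    simp only [sWd] at h1
    rw [Chain.map_sW, Chain.map_sW] at h1
    refine Dfr_tip_reg _ _ P (B := (theChain I hm |>.map f).sB (2 * j) (mapZ f (Zs I hm j)))
      (B' := (theChain I hm |>.map f').sB (2 * j) (mapZ f' (Zs I hm j)))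
      (Chain.sW_conj _ hmj _) (Chain.sW_conj _ hmj _) h1 ?_ ?_ ?_
    · rw [Chain.map_sB, Chain.map_sB, dg_mapB, dg_mapB]
      show mapZ f (dg (sBd I hm j)) = mapZ f' (dg (sBd I hm j))
      rw [dg_sBd]
      funext i
      apply Units.ext
      exact ha _ (by omega) i
    · intro i i' i'' h2 h3 h4
      rw [Chain.map_sB] at h4 ⊢
      have e : ∀ q, (mapB f ((theChain I hm).sB (2 * j) (Zs I hm j))).1.1 q q = f (I.a (s - 1 - j) q) := by
        intro q
        have h5 : dg (sBd I hm j) = I.a (s - 1 - j) := dg_sBd I hm j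
        have h6 := congrFun h5 q
        rw [← h6]
        rfl
      rw [e, e] at h4
      rw [e, e]
      exact hcont _ (by omega) _ _ _ h2 h3 h4
    · intro i k hik
      rw [Chain.map_sB]
      exact hregS j hj i k hik
  · intro i hi
    have h1 := hgen_y' I hm f f' P hgen i hi
    simp only [yW, map_inv] at h1
    rw [Chain.map_hA, Chain.map_hA] at h1
    have h2 := congrArg (fun g => g⁻¹) h1
    simp only [inv_inv] at h2
    refine h2.trans ?_
    group
    rfl
  · intro i hi
    have h1 := hgen_x' I hm f f' P hgen i hi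
    simp only [xW] at h1
    rw [Chain.map_hB, Chain.map_hB] at h1
    exact h1
  · exact P_mem_Bp' I hm f f' ha hcont hregH P hgen
  · exact hx

include ha hcont hregS hregH

lemma P_mem_Bm' : P ∈ Bm ℂ (n + 2) := by
  have hm2 : 2 ≤ mm s g := by omega
  have := Dfr_mem_Bm (((theFan I hm).map f).chain hm2) (((theFan I hm).map f').chain hm2) (P)
    (Dfr_chart' I hm f f' ha hcont hregS hregH P hgen) (x := 0) (by omega)
  simpa [Dfr_zero] using this

/-- The parameters of the triangles of the two representations are related by the diagonal. -/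
lemma layers_rel' (p : Fin (n + 2) → ℂˣ) (hp : P = tor p) {i : ℕ} (h1 : 1 ≤ i)
    (hi : i + 2 ≤ mm s g) {l j : ℕ} (hl : 1 ≤ l) (hl' : l ≤ n + 1) (hj : j < l) :
    f' ((cc I i l j : Rˣ) : R) = f ((cc I i l j : Rˣ) : R) * pN p j * (pN p (j + 1))⁻¹ := by
  have hm2 : 2 ≤ mm s g := by omega
  have hU := uu_conj ((theFan I hm).map f) ((theFan I hm).map f') hm2 (P)
    (Dfr_chart' I hm f f' ha hcont hregS hregH P hgen) h1 hi
  refine Uc_inj (c := fun l j => f' ((cc I i l j : Rˣ) : R))
    (c' := fun l j => f ((cc I i l j : Rˣ) : R) * pN p j * (pN p (j + 1))⁻¹) (n + 1)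
    (fun l j => ?_) (fun a b ha' hb' => ?_) l j hl hl' hj
  · exact ((cc I i l j).isUnit.map f').ne_zero
  · rw [Uc_scale _ (pN p) (pN_ne p)]
    have h2 := fan_uu_apply I hm f' i ⟨a, by omega⟩ ⟨b, by omega⟩
    have h3 := fan_uu_apply I hm f i ⟨a, by omega⟩ ⟨b, by omega⟩
    rw [← h2, ← h3, hU, hp, tor_conj_apply, ← pN_val p ⟨a, by omega⟩, ← pN_val p ⟨b, by omega⟩]

/-- The conjugating matrix is scalar. -/
lemma scalar_conj' (p : Fin (n + 2) → ℂˣ) (hp : P = tor p) (j : ℕ) (hj : j ≤ n) :
    pN p (j + 1) = pN p j := by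
  have h1 := layers_rel' I hm f f' ha hcont hregS hregH P hgen p hp (i := 2) (by omega)
    (by simp only [mm] at hm ⊢; omega) (l := n + 1) (j := j) (by omega) le_rfl (by omega)
  rw [cc_two_top] at h1
  simp only [Units.val_one, map_one, one_mul] at h1
  have h2 := pN_ne p (j + 1)
  field_simp at h1
  exact h1

lemma pN_const' (p : Fin (n + 2) → ℂˣ) (hp : P = tor p) (k : ℕ) (hk : k ≤ n + 1) :
    pN p k = pN p 0 := by
  induction k with
  | zero => rfl
  | succ k ih =>
    rw [scalar_conj' I hm f f' ha hcont hregS hregH P hgen p hp k (by omega), ih (by omega)]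

theorem chart_rigid' :
    (∀ i l j, 1 ≤ i → i + 2 ≤ mm s g → 1 ≤ l → l ≤ n + 1 → j < l →
      f' ((cc I i l j : Rˣ) : R) = f ((cc I i l j : Rˣ) : R)) ∧
    (∀ k q, k < 2 * g → f' ((I.zf k q : Rˣ) : R) = f ((I.zf k q : Rˣ) : R)) ∧
    ∃ c : ℂˣ, P = tor (fun _ => c) := by
  have hm2 : 2 ≤ mm s g := by omega
  have hP0 := P_mem_Bp' I hm f f' ha hcont hregH P hgen
  have hP1 := P_mem_Bm' I hm f f' ha hcont hregS hregH P hgen
  let p : Fin (n + 2) → ℂˣ := dg ⟨P, hP0⟩
  have hp : P = tor p := eq_tor_of_mem hP0 hP1
  have hpc : ∀ a b : Fin (n + 2), p a = p b := by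
    intro a b
    apply Units.ext
    rw [← pN_val p a, ← pN_val p b, pN_const' I hm f f' ha hcont hregS hregH P hgen p hp a (by omega),
      pN_const' I hm f f' ha hcont hregS hregH P hgen p hp b (by omega)]
  have hpt : P = tor (fun _ => p 0) := by
    rw [hp]
    congr 1
    funext a
    exact hpc a 0
  have hc : ∀ X : GLr ℂ (n + 2), P * X = X * P := by
    intro X
    rw [hpt]
    exact tor_const_comm _ X
  have hD := Dfr_chart' I hm f f' ha hcont hregS hregH P hgen
  have hphi := phi_eq ((theFan I hm).map f) ((theFan I hm).map f') hm2 (P) hD hc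
  have hcj : ∀ X : GLr ℂ (n + 2), P * X * (P)⁻¹ = X := by
    intro X
    rw [hc]
    group
  have hφ : ∀ x, x ≤ mm s g → GLmap f' ((theChain I hm).φ x) = GLmap f ((theChain I hm).φ x) := by
    intro x hx
    have := hphi x hx
    rw [Fan.map_phi, Fan.map_phi] at this
    exact this
  refine ⟨fun i l j h1 h2 h3 h4 h5 => ?_, fun k q hk => ?_, p 0, hpt⟩
  · rw [layers_rel' I hm f f' ha hcont hregS hregH P hgen p hp h1 h2 h3 h4 h5,
      pN_const' I hm f f' ha hcont hregS hregH P hgen p hp j (by omega),
      pN_const' I hm f f' ha hcont hregS hregH P hgen p hp (j + 1) (by omega)]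
    have := pN_ne p 0
    field_simp
  · -- the twists
    have hz : ∀ i, i < g → mapZ f' (zH I i) = mapZ f (zH I i) ∧
        mapZ f' (zH' I i) = mapZ f (zH' I i) := by
      intro i hi
      have he : eE s i + 4 ≤ mm s g := by simp only [eE, mm]; omega
      constructor
      · have h1 := hgen_y' I hm f f' P hgen i hi
        rw [hcj] at h1
        simp only [yW, map_inv] at h1
        have h2 := inv_injective h1
        simp only [Chain.hA, map_mul, map_inv, GLmap_w0, GLmap_tor] at h2
        rw [hφ _ (by omega), hφ _ (by omega)] at h2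
        have h3 := mul_left_cancel (mul_right_cancel h2)
        exact tor_injective h3
      · have h1 := hgen_x' I hm f f' P hgen i hi
        rw [hcj] at h1
        simp only [xW] at h1
        simp only [Chain.hB, map_mul, map_inv, GLmap_w0, GLmap_tor] at h1
        rw [hφ _ (by omega), hφ _ (by omega)] at h1
        have h3 := mul_left_cancel (mul_right_cancel h1)
        exact tor_injective h3
    rcases Nat.even_or_odd' k with ⟨i, rfl | rfl⟩
    · have h1 := congrFun (hz i (by omega)).1 q.castSucc
      have h2 := congrArg (fun u : ℂˣ => (u : ℂ)) h1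
      simpa [mapZ, zH, snocZ] using h2
    · have h1 := congrFun (hz i (by omega)).2 q.castSucc
      have h2 := congrArg (fun u : ℂˣ => (u : ℂ)) h1
      simpa [mapZ, zH', snocZ] using h2

end rigid

section main

variable {n s g : ℕ} (a : Fin (s + 1) → Fin (n + 2) → ℂ)
  (hai : ∀ j i, IsIntegral ℤ (a j i)) (hp : ∀ j, ∏ i, a j i = 1) (hm : 4 ≤ mm s g)
  (hcont : ∀ j, ∀ i k l : Fin (n + 2), i < k → k < l → a j i = a j l → a j k = a j i)

include hcont in
/-- Conjugate points of the chart have the same parameters. -/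
theorem chiI_inj' (t t' : ParIdx n s g → ℂˣ)
    (hregS : ∀ j, j < s → ∀ k k' : Fin (n + 2), k.val + 1 = k'.val →
      ev t ((sBd (theInp a hai hp) hm j).1.1 k k') ≠ 0)
    (hregH : ∀ k k' : Fin (n + 2), k.val + 1 = k'.val →
      ev t (((HH (theInp a hai hp) hm)⁻¹).1.1 k k') ≠ 0)
    (hc : ConjEquivalent (chiI a hai hp hm t) (chiI a hai hp hm t')) : t = t' := by
  obtain ⟨h, hconj⟩ := hc
  have ha : ∀ (φ : ParIdx n s g → ℂˣ) (k : ℕ) (hk : k ≤ s) (i : Fin (n + 2)),
      ev φ (((theInp a hai hp).a k i : (LRing (ints (theField a)) (ParIdx n s g))ˣ) :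
        LRing (ints (theField a)) (ParIdx n s g)) = a ⟨k, by omega⟩ i :=
    fun φ k hk i => ev_theInp_a a hai hp φ ⟨k, by omega⟩ i
  have H := chart_rigid' (theInp a hai hp) hm (ev t) (ev t')
    (fun k hk i => by rw [ha t k hk, ha t' k hk])
    (fun k hk i j l h1 h2 h3 => by
      rw [ha t k hk] at h3 ⊢
      rw [ha t k hk] at h3 ⊢
      exact hcont _ _ _ _ h1 h2 h3)
    hregS hregH
    (slGL h) (fun x => by
      rw [← slGL_repOf _ hm (ev t') x]
      have h5 := hconj x
      show slGL (chiI a hai hp hm t' x) = _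
      rw [h5, map_mul, map_mul, map_inv]
      show slGL h * slGL (repOf _ hm (ev t) x) * _ = _
      rw [slGL_repOf])
  funext x
  apply Units.ext
  rcases x with ⟨i, l, j⟩ | ⟨i, q⟩ | ⟨k, q⟩
  · have hi := i.isLt
    have hj := j.isLt
    have hl := l.isLt
    have h1 := H.1 (i.val + 1) l.val j.val (by omega) (by omega) (by omega) (by omega) hj
    rw [cc_low _ _ _ _ (by omega)] at h1
    have h2 : (theInp a hai hp).cl (i.val + 1) l.val j.val = tU (Sum.inl (i, ⟨l, j⟩)) := by
      simp only [theInp, chartInp]
      rw [dif_pos ⟨by omega, by omega, by omega, hj⟩]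
      rfl
    rw [h2] at h1
    exact h1.symm
  · have hi := i.isLt
    have hq := q.isLt
    have h1 := H.1 (i.val + 3) (n + 1) (n - q.val) (by omega) (by omega) (by omega) le_rfl (by omega)
    rw [cc_top _ _ _ (by omega) (by omega)] at h1
    have h2 : (theInp a hai hp).tp (i.val + 3) q.val = tU (Sum.inr (Sum.inl (i, q))) := by
      simp only [theInp, chartInp]
      rw [dif_pos ⟨by omega, by omega, by omega⟩]
      rfl
    rw [h2] at h1
    exact h1.symm
  · have hk := k.isLt
    have h1 := H.2.1 k.val q hk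
    have h2 : (theInp a hai hp).zf k.val q = tU (Sum.inr (Sum.inr (k, q))) := by
      simp only [theInp, chartInp]
      rw [dif_pos hk]
    rw [h2] at h1
    exact h1.symm

end main

end Vale.Agent.Lib.P002.Surf
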