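import Mathlib
import Vale.Agent.Lib.P002.Reg.Rigid
import Vale.Agent.Lib.P002.Reg.IrrAbs
import Vale.Agent.Lib.P002.Reg.Fam

set_option linter.unusedSectionVars false
set_option linter.unusedVariables false
set_option linter.unusedSimpArgs false
set_option linter.unnecessarySeqFocus false

namespace Vale.Agent.Lib.P002.Surf

open Matrix Polynomial

/-! ### Generic points -/

/-- A finite family of non trivial Laurent functions has a common point of non vanishing. -/
lemma exists_generic {Ι L : Type} [Fintype Ι] [Fintype L] (h : L → (Ι → ℂˣ) → ℂ)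
    (hL : ∀ l, IsLaurentFn (h l)) (hex : ∀ l, ∃ t, h l t ≠ 0) : ∃ t, ∀ l, h l t ≠ 0 := by
  have h0 := famD_ne_zero h hL hex
  by_contra hc
  simp only [not_exists, not_forall, not_not] at hc
  apply h0
  apply eq_zero_of_units_grid _ (fun _ => Set.univ) (fun _ => Set.infinite_univ_iff.mpr ?_)
  · intro t _
    by_contra h1
    obtain ⟨l, hl⟩ := hc t
    exact ne_of_famD h hL h1 l hl
  · apply Infinite.of_injective (fun k : ℕ => epsU ^ k) epsU_pow_injective

lemma IsLaurentFn.sum {Ι K : Type} [Fintype Ι] (T : Finset K) {g : K → (Ι → ℂˣ) → ℂ}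
    (hg : ∀ k ∈ T, IsLaurentFn (g k)) : IsLaurentFn (fun t => ∑ k ∈ T, g k t) := by
  classical
  induction T using Finset.induction_on with
  | empty => simpa using IsLaurentFn.const 0
  | insert a T ha ih =>
    simp only [Finset.sum_insert ha]
    exact (hg a (Finset.mem_insert_self _ _)).add (ih fun k hk => hg k (Finset.mem_insert_of_mem hk))

/-- Matrices with Laurent entries. -/
def LM {Ι : Type} [Fintype Ι] {r : ℕ} (M : (Ι → ℂˣ) → Matrix (Fin r) (Fin r) ℂ) : Prop :=
  ∀ x y, IsLaurentFn (fun t => M t x y)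

section lm

variable {Ι : Type} [Fintype Ι] {r : ℕ} {M N : (Ι → ℂˣ) → Matrix (Fin r) (Fin r) ℂ}

lemma LM.mul (hM : LM M) (hN : LM N) : LM (fun t => M t * N t) := by
  intro x y
  simp only [Matrix.mul_apply]
  exact IsLaurentFn.sum _ fun k _ => (hM x k).mul (hN k y)

lemma LM.add (hM : LM M) (hN : LM N) : LM (fun t => M t + N t) := by
  intro x y
  simp only [Matrix.add_apply]
  exact (hM x y).add (hN x y)

lemma LM.const (A : Matrix (Fin r) (Fin r) ℂ) : LM (fun _ : Ι → ℂˣ => A) :=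
  fun x y => IsLaurentFn.const _

lemma LM.aeval (hM : LM M) (p : ℂ[X]) : LM (fun t => aeval (M t) p) := by
  induction p using Polynomial.induction_on with
  | C c =>
    simp only [aeval_C]
    exact LM.const _
  | add p q hp hq =>
    simp only [map_add]
    exact hp.add hq
  | monomial k c ih =>
    have e : ∀ t, Polynomial.aeval (M t) (C c * X ^ (k + 1) : ℂ[X]) =
        Polynomial.aeval (M t) (C c * X ^ k : ℂ[X]) * M t := by
      intro t
      have e1 : (C c * X ^ (k + 1) : ℂ[X]) = (C c * X ^ k) * X := by ring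
      rw [e1, map_mul, aeval_X]
    simp only [e]
    exact ih.mul hM

end lm

/-! ### Regular classes from triangular matrices -/

lemma inRegClass_of_conj {r : ℕ} (M : SLr r) (P : GLr ℂ r) (B : Matrix (Fin r) (Fin r) ℂ) (hB : UT B)
    (d : Fin r → ℂ) (hd : ∀ i, B i i = d i)
    (hc : ∀ i j k : Fin r, i < j → j < k → d i = d k → d j = d i)
    (hs : ∀ i k : Fin r, i.val + 1 = k.val → B i k ≠ 0)
    (h : (M : Matrix (Fin r) (Fin r) ℂ) = P.1 * B * (P⁻¹).1) : InRegClass d M := by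
  constructor
  · rw [h]
    have h1 : (P⁻¹).1 = (P.1)⁻¹ := Matrix.coe_units_inv P
    rw [h1, Matrix.charpoly_units_conj, Matrix.charpoly_of_isUpperTriangular _ hB]
    simp [hd]
  · rw [h]
    exact regular_conj (Units.mul_inv P) (Units.inv_mul P)
      (regular_of_UT hB d hd hc (fun i k hik _ => hs i k hik))

/-! ### The inverse of a triangular matrix on the superdiagonal -/

lemma inv_super_ne {r : ℕ} {A : GLr ℂ r} (hA : A ∈ Bp ℂ r) {k k' : Fin r} (h : k.val + 1 = k'.val)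
    (h0 : A.1 k k' ≠ 0) : (A⁻¹).1 k k' ≠ 0 := by
  have h1 : (A.1 * (A⁻¹).1) k k' = 0 := by
    rw [Units.mul_inv, Matrix.one_apply, if_neg]
    intro e
    rw [e] at h
    omega
  rw [sup_mul hA (inv_mem hA) h] at h1
  intro h2
  rw [h2, mul_zero, zero_add] at h1
  have h3 : (A⁻¹).1 k' k' ≠ 0 := right_ne_zero_of_mul_eq_one (diag_mul_inv_Bp hA k')
  exact (mul_ne_zero h0 h3) h1

/-! ### The chart -/

section chart

variable {n s g : ℕ} (a : Fin (s + 1) → Fin (n + 2) → ℂ)
  (hai : ∀ j i, IsIntegral ℤ (a j i)) (hp : ∀ j, ∏ i, a j i = 1) (hm : 4 ≤ mm s g)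

lemma chiI_val (t : ParIdx n s g → ℂˣ) (x : Gens g (s + 1)) :
    ((chiI a hai hp hm t x : SLr (n + 2)) : Matrix (Fin (n + 2)) (Fin (n + 2)) ℂ) =
      (gensGL (Jt a hai hp t) hm x).1 := by
  rw [Jt, gensGL_map]
  rfl

lemma chiI_val' (t : ParIdx n s g → ℂˣ) (x : Gens g (s + 1)) :
    ((chiI a hai hp hm t x : SLr (n + 2)) : Matrix (Fin (n + 2)) (Fin (n + 2)) ℂ) =
      (GLmap (ev t) (gensGL (theInp a hai hp) hm x)).1 := rfl

/-- The boundary generators coming from spikes at a regular point. -/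
theorem chiI_reg_spike (hcont : ∀ j, ∀ i k l : Fin (n + 2), i < k → k < l → a j i = a j l → a j k = a j i)
    (t : ParIdx n s g → ℂˣ) (j : Fin (s + 1)) (hj : j.val < s)
    (hS : ∀ k k' : Fin (n + 2), k.val + 1 = k'.val →
      ev t ((sBd (theInp a hai hp) hm (s - 1 - j.val)).1.1 k k') ≠ 0) :
    InRegClass (a j) (chiI a hai hp hm t (Sum.inr (Sum.inr j))) := by
  have hva : ∀ (k : ℕ) (hk : k < s + 1) (i : Fin (n + 2)), ev t (((theInp a hai hp).a k i :
      (LRing (ints (theField a)) (ParIdx n s g))ˣ) : LRing (ints (theField a)) (ParIdx n s g)) =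
        a ⟨k, hk⟩ i := fun k hk i => ev_theInp_a a hai hp t ⟨k, hk⟩ i
  have hj' : s - 1 - j.val < s := by omega
  have e0 : s - 1 - (s - 1 - j.val) = j.val := by omega
  refine inRegClass_of_conj _ (GLmap (ev t) ((theChain (theInp a hai hp) hm).φ (2 * (s - 1 - j.val) + 1)))
    (GLmap (ev t) (sBd (theInp a hai hp) hm (s - 1 - j.val)).1).1
    (GLmap_Bp (ev t) (sBd (theInp a hai hp) hm (s - 1 - j.val)).2) (a j) ?_ (hcont j) ?_ ?_
  · intro i
    show ev t ((sBd (theInp a hai hp) hm (s - 1 - j.val)).1.1 i i) = _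
    have h1 := congrFun (dg_sBd (theInp a hai hp) hm (s - 1 - j.val)) i
    have h2 : (sBd (theInp a hai hp) hm (s - 1 - j.val)).1.1 i i =
        (dg (sBd (theInp a hai hp) hm (s - 1 - j.val)) i : (LRing (ints (theField a)) (ParIdx n s g))ˣ) := rfl
    have e1 : (⟨s - 1 - (s - 1 - j.val), by omega⟩ : Fin (s + 1)) = j := Fin.ext e0
    rw [h2, h1, hva _ (by omega) i, e1]
  · intro i k hik
    exact hS i k hik
  · rw [chiI_val']
    simp only [gensGL]
    rw [if_pos hj, sWd_conj _ hm _ hj']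
    simp only [map_mul, map_inv]
    rfl

/-- Boundary generators at a regular point. -/
theorem chiI_mem_reg (hcont : ∀ j, ∀ i k l : Fin (n + 2), i < k → k < l → a j i = a j l → a j k = a j i)
    (t : ParIdx n s g → ℂˣ)
    (hS : ∀ j, j < s → ∀ k k' : Fin (n + 2), k.val + 1 = k'.val →
      ev t ((sBd (theInp a hai hp) hm j).1.1 k k') ≠ 0)
    (hH : ∀ k k' : Fin (n + 2), k.val + 1 = k'.val →
      ev t (((HH (theInp a hai hp) hm)⁻¹).1.1 k k') ≠ 0) :
    chiI a hai hp hm t ∈ RelReg a := by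
  refine ⟨repOf_relation _ hm _, fun j => ?_⟩
  have hva : ∀ (k : ℕ) (hk : k < s + 1) (i : Fin (n + 2)), ev t (((theInp a hai hp).a k i :
      (LRing (ints (theField a)) (ParIdx n s g))ˣ) : LRing (ints (theField a)) (ParIdx n s g)) =
        a ⟨k, hk⟩ i := fun k hk i => ev_theInp_a a hai hp t ⟨k, hk⟩ i
  by_cases hj : j.val < s
  · exact chiI_reg_spike a hai hp hm hcont t j hj (hS _ (by omega))
  · have hjs : j.val = s := by
      have := j.isLt
      omega
    refine inRegClass_of_conj _ 1 (GLmap (ev t) ((HH (theInp a hai hp) hm)⁻¹).1).1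
      (GLmap_Bp (ev t) ((HH (theInp a hai hp) hm)⁻¹).2) (a j) ?_ (hcont j) ?_ ?_
    · intro i
      show ev t (((HH (theInp a hai hp) hm)⁻¹).1.1 i i) = _
      have h2 : dg ((HH (theInp a hai hp) hm)⁻¹) = (theInp a hai hp).a s := by
        rw [dg_inv, dg_HH, DD_eq]
        simp
      have h3 := congrFun h2 i
      have h4 : ((HH (theInp a hai hp) hm)⁻¹).1.1 i i =
          (dg ((HH (theInp a hai hp) hm)⁻¹) i : (LRing (ints (theField a)) (ParIdx n s g))ˣ) := rfl
      have e1 : (⟨s, by omega⟩ : Fin (s + 1)) = j := Fin.ext hjs.symm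
      rw [h4, h3, hva s (by omega) i, e1]
    · intro i k hik
      exact hH i k hik
    · rw [chiI_val']
      simp only [gensGL]
      rw [if_neg hj]
      simp

/-- The matrix of a generator at a point of the torus. -/
noncomputable def GGt (x : Gens g (s + 1)) (t : ParIdx n s g → ℂˣ) :
    Matrix (Fin (n + 2)) (Fin (n + 2)) ℂ := ((chiI a hai hp hm t x : SLr (n + 2)) :
      Matrix (Fin (n + 2)) (Fin (n + 2)) ℂ)

lemma GGt_laurent (x : Gens g (s + 1)) : LM (GGt a hai hp hm x) :=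
  fun u v => chiI_laurent a hai hp hm (x, u, v)

/-- The entries of `p(L) g q(L)`. -/
noncomputable def FF (j₀ : Fin (s + 1)) (I : Finset (Fin (n + 2))) (x : Gens g (s + 1))
    (u v : Fin (n + 2)) (t : ParIdx n s g → ℂˣ) : ℂ :=
  (aeval (GGt a hai hp hm (Sum.inr (Sum.inr j₀)) t) (pPoly (a j₀) I) * GGt a hai hp hm x t *
    aeval (GGt a hai hp hm (Sum.inr (Sum.inr j₀)) t) (qPoly (a j₀) I)) u v

lemma FF_laurent (j₀ : Fin (s + 1)) (I : Finset (Fin (n + 2))) (x : Gens g (s + 1))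
    (u v : Fin (n + 2)) : IsLaurentFn (FF a hai hp hm j₀ I x u v) :=
  ((((GGt_laurent a hai hp hm _).aeval _).mul (GGt_laurent a hai hp hm x)).mul
    ((GGt_laurent a hai hp hm _).aeval _)) u v

/-- Irreducibility from the non vanishing of the functions. -/
theorem chiI_irr (j₀ : Fin (s + 1)) (t : ParIdx n s g → ℂˣ)
    (hreg : InRegClass (a j₀) (chiI a hai hp hm t (Sum.inr (Sum.inr j₀))))
    (hF : ∀ I : Finset (Fin (n + 2)), 0 < I.card → I.card < n + 2 →
      ∃ x u v, FF a hai hp hm j₀ I x u v t ≠ 0) :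
    IsIrreducibleRep (chiI a hai hp hm t) := by
  intro V hV
  obtain ⟨I, hI⟩ := invariant_eq_range hreg.2 hreg.1 V (hV (Sum.inr (Sum.inr j₀)))
  by_cases h0 : I.card = 0
  · right
    have e : I = ∅ := Finset.card_eq_zero.mp h0
    rw [hI, e]
    simp only [qPoly, Finset.prod_empty, map_one]
    rw [eq_top_iff]
    intro v _
    exact ⟨v, by simp⟩
  by_cases h1 : I.card = n + 2
  · left
    have e : I = Finset.univ := by
      apply Finset.eq_univ_of_card
      rw [h1]
      simp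
    have h2 := aeval_p_mul_q hreg.1 (∅ : Finset (Fin (n + 2)))
    have h3 : aeval ((chiI a hai hp hm t (Sum.inr (Sum.inr j₀)) : SLr (n + 2)) :
        Matrix (Fin (n + 2)) (Fin (n + 2)) ℂ) (qPoly (a j₀) I) = 0 := by
      have h4 : qPoly (a j₀) I = ((chiI a hai hp hm t (Sum.inr (Sum.inr j₀)) : SLr (n + 2)) :
        Matrix (Fin (n + 2)) (Fin (n + 2)) ℂ).charpoly := by
        rw [hreg.1, e, qPoly]
      rw [h4, Matrix.aeval_self_charpoly]
    rw [hI, h3]
    rw [eq_bot_iff]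
    rintro _ ⟨w, rfl⟩
    simp
  · exfalso
    have hle : I.card ≤ n + 2 := by
      have := Finset.card_le_univ I
      simpa using this
    obtain ⟨x, u, v, hne⟩ := hF I (by omega) (by omega)
    apply hne
    have h2 := p_mul_g_mul_q_eq_zero hreg.1 (GGt a hai hp hm x t) I (by
      rw [← hI]
      exact hV x)
    have h3 := congrFun (congrFun h2 u) v
    exact h3

/-- Existence of the functions: reduction to the invariant subspaces. -/
theorem exists_FF (j₀ : Fin (s + 1)) (t₀ : ParIdx n s g → ℂˣ)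
    (hreg : InRegClass (a j₀) (chiI a hai hp hm t₀ (Sum.inr (Sum.inr j₀))))
    (T : Set (ParIdx n s g → ℂˣ))
    (hT : ∀ t ∈ T, GGt a hai hp hm (Sum.inr (Sum.inr j₀)) t = GGt a hai hp hm (Sum.inr (Sum.inr j₀)) t₀)
    (hV : ∀ V : Submodule ℂ (Fin (n + 2) → ℂ),
      (∀ t ∈ T, ∀ x, ∀ v ∈ V, GGt a hai hp hm x t *ᵥ v ∈ V) → V = ⊥ ∨ V = ⊤)
    (I : Finset (Fin (n + 2))) (h1 : 0 < I.card) (h2 : I.card < n + 2) :
    ∃ x u v t, FF a hai hp hm j₀ I x u v t ≠ 0 := by
  by_contra hc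
  simp only [not_exists, not_not] at hc
  have hne1 := range_q_ne_bot hreg.2 hreg.1 (a := a j₀) (I := I) (by simpa using h2)
  have hne2 := range_q_ne_top hreg.1 (I := I) h1
  have := hV (LinearMap.range (aeval (GGt a hai hp hm (Sum.inr (Sum.inr j₀)) t₀) (qPoly (a j₀) I)).mulVecLin) (by
    intro t ht x v hv
    apply invariant_of_p_mul_g_mul_q hreg.2 hreg.1 _ I _ v hv
    ext u w
    have h3 := hc x u w t
    simp only [FF] at h3
    rw [hT t ht] at h3
    exact h3)
  rcases this with h3 | h3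
  · exact hne1 h3
  · exact hne2 h3

/-- The chart, assuming the non vanishing of the relevant functions. -/
theorem reg_chart (j₀ : Fin (s + 1))
    (hcont : ∀ j, ∀ i k l : Fin (n + 2), i < k → k < l → a j i = a j l → a j k = a j i)
    (hSx : ∀ (j : Fin s) (q : Fin (n + 1)), ∃ t : ParIdx n s g → ℂˣ,
      ev t ((sBd (theInp a hai hp) hm j).1.1 q.castSucc q.succ) ≠ 0)
    (hHx : ∀ q : Fin (n + 1), ∃ t : ParIdx n s g → ℂˣ,
      ev t (((HH (theInp a hai hp) hm)⁻¹).1.1 q.castSucc q.succ) ≠ 0)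
    (hIrr : ∀ I : Finset (Fin (n + 2)), 0 < I.card → I.card < n + 2 →
      ∃ x u v t, FF a hai hp hm j₀ I x u v t ≠ 0) :
    ∃ D : MvPolynomial (ParIdx n s g) ℂ, D ≠ 0 ∧
      (∀ t, evt t D ≠ 0 → chiI a hai hp hm t ∈ RelReg a ∧ IsIrreducibleRep (chiI a hai hp hm t)) ∧
      (∀ t t', evt t D ≠ 0 → ConjEquivalent (chiI a hai hp hm t) (chiI a hai hp hm t') → t = t') := by
  classical
  -- the choice of the functions
  have hIrr' : ∀ I : Finset (Fin (n + 2)), ∃ (y : Gens g (s + 1) × Fin (n + 2) × Fin (n + 2)),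
      0 < I.card → I.card < n + 2 → ∃ t, FF a hai hp hm j₀ I y.1 y.2.1 y.2.2 t ≠ 0 := by
    intro I
    by_cases h : 0 < I.card ∧ I.card < n + 2
    · obtain ⟨x, u, v, t, ht⟩ := hIrr I h.1 h.2
      exact ⟨(x, u, v), fun _ _ => ⟨t, ht⟩⟩
    · exact ⟨(Sum.inr (Sum.inr j₀), 0, 0), fun h1 h2 => absurd ⟨h1, h2⟩ h⟩
  choose y hy using hIrr'
  let L := ((Fin s × Fin (n + 1)) ⊕ Fin (n + 1)) ⊕ Finset (Fin (n + 2))
  let h : L → (ParIdx n s g → ℂˣ) → ℂ := fun l t => match l with
    | Sum.inl (Sum.inl (j, q)) => ev t ((sBd (theInp a hai hp) hm j).1.1 q.castSucc q.succ)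
    | Sum.inl (Sum.inr q) => ev t (((HH (theInp a hai hp) hm)⁻¹).1.1 q.castSucc q.succ)
    | Sum.inr I => if 0 < I.card ∧ I.card < n + 2 then FF a hai hp hm j₀ I (y I).1 (y I).2.1 (y I).2.2 t else 1
  have hL : ∀ l, IsLaurentFn (h l) := by
    rintro ((⟨j, q⟩ | q) | I)
    · exact isLaurentFn_ev _
    · exact isLaurentFn_ev _
    · show IsLaurentFn (fun t => if 0 < I.card ∧ I.card < n + 2 then
        FF a hai hp hm j₀ I (y I).1 (y I).2.1 (y I).2.2 t else 1)
      by_cases hI : 0 < I.card ∧ I.card < n + 2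
      · simp only [if_pos hI]
        exact FF_laurent a hai hp hm j₀ I _ _ _
      · simp only [if_neg hI]
        exact IsLaurentFn.const 1
  have hex : ∀ l, ∃ t, h l t ≠ 0 := by
    rintro ((⟨j, q⟩ | q) | I)
    · exact hSx j q
    · exact hHx q
    · by_cases hI : 0 < I.card ∧ I.card < n + 2
      · obtain ⟨t, ht⟩ := hy I hI.1 hI.2
        refine ⟨t, ?_⟩
        show (if 0 < I.card ∧ I.card < n + 2 then
          FF a hai hp hm j₀ I (y I).1 (y I).2.1 (y I).2.2 t else 1) ≠ 0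
        rw [if_pos hI]
        exact ht
      · refine ⟨fun _ => 1, ?_⟩
        show (if 0 < I.card ∧ I.card < n + 2 then
          FF a hai hp hm j₀ I (y I).1 (y I).2.1 (y I).2.2 _ else 1) ≠ 0
        rw [if_neg hI]
        exact one_ne_zero
  have hq : ∀ k k' : Fin (n + 2), k.val + 1 = k'.val → ∃ q : Fin (n + 1), q.castSucc = k ∧ q.succ = k' := by
    intro k k' hk
    have := k'.isLt
    exact ⟨⟨k.val, by omega⟩, Fin.ext rfl, Fin.ext hk⟩
  have hRS : ∀ t, evt t (famD h hL) ≠ 0 → ∀ j, j < s → ∀ k k' : Fin (n + 2), k.val + 1 = k'.val →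
      ev t ((sBd (theInp a hai hp) hm j).1.1 k k') ≠ 0 := by
    intro t ht j hj k k' hk
    obtain ⟨q, rfl, rfl⟩ := hq k k' hk
    exact ne_of_famD h hL ht (Sum.inl (Sum.inl (⟨j, hj⟩, q)))
  have hRH : ∀ t, evt t (famD h hL) ≠ 0 → ∀ k k' : Fin (n + 2), k.val + 1 = k'.val →
      ev t (((HH (theInp a hai hp) hm)⁻¹).1.1 k k') ≠ 0 := by
    intro t ht k k' hk
    obtain ⟨q, rfl, rfl⟩ := hq k k' hk
    exact ne_of_famD h hL ht (Sum.inl (Sum.inr q))
  refine ⟨famD h hL, famD_ne_zero h hL hex, fun t ht => ?_, fun t t' ht hc => ?_⟩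
  · have hmem := chiI_mem_reg a hai hp hm hcont t (hRS t ht) (hRH t ht)
    refine ⟨hmem, chiI_irr a hai hp hm j₀ t (hmem.2 j₀) fun I h1 h2 => ?_⟩
    refine ⟨(y I).1, (y I).2.1, (y I).2.2, ?_⟩
    have h3 := ne_of_famD h hL ht (Sum.inr I)
    have h4 : h (Sum.inr I) t = if 0 < I.card ∧ I.card < n + 2 then
        FF a hai hp hm j₀ I (y I).1 (y I).2.1 (y I).2.2 t else 1 := rfl
    rw [h4, if_pos ⟨h1, h2⟩] at h3
    exact h3
  · exact chiI_inj' a hai hp hm hcont t t' (hRS t ht) (hRH t ht) hc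

/-- The density statement. -/
theorem reg_density (D : MvPolynomial (ParIdx n s g) ℂ)
    (hD : ∀ t, evt t D ≠ 0 → chiI a hai hp hm t ∈ RelReg a ∧ IsIrreducibleRep (chiI a hai hp hm t))
    (f : MvPolynomial (Var (n + 2) g (s + 1)) ℂ)
    (hf : ∀ ρ ∈ RelReg (g := g) a, IsIrreducibleRep ρ → IsOLPoint (theField a) ρ →
      MvPolynomial.aeval (point ρ) f = 0) (t : ParIdx n s g → ℂˣ) (ht : evt t D ≠ 0) :
    MvPolynomial.aeval (point (chiI a hai hp hm t)) f = 0 := by
  have hL := IsLaurentFn.aeval (G := fun p (t : ParIdx n s g → ℂˣ) => point (chiI a hai hp hm t) p)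
    (chiI_laurent a hai hp hm) f
  have hL2 : IsLaurentFn (fun t : ParIdx n s g → ℂˣ => evt t D) := ⟨D, 0, fun t => by simp [evt]⟩
  have h0 := (hL.mul hL2).eq_zero (Set.range fun k : ℕ => epsU ^ k)
    (Set.infinite_range_of_injective epsU_pow_injective) (fun t ht' => ?_) t
  · exact (mul_eq_zero.mp h0).resolve_right ht
  · by_cases h1 : evt t D = 0
    · rw [h1, mul_zero]
    · obtain ⟨h2, h3⟩ := hD t h1
      rw [hf _ h2 h3 (chiI_integral a hai hp hm t fun i => by
        obtain ⟨k, hk⟩ := ht' i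
        rw [← hk]
        exact epsU_pow_mem k), zero_mul]

end chart

end Vale.Agent.Lib.P002.Surf
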