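import Mathlib
import Vale.Agent.Lib.P002.Reg.Congr

set_option linter.unusedSectionVars false
set_option linter.unusedVariables false
set_option linter.unusedSimpArgs false
set_option linter.unnecessarySeqFocus false

namespace Vale.Agent.Lib.P002.Surf

open Matrix

variable {n s g' : ℕ}

lemma Uc_const_super (x : ℂ) (k d : ℕ) : Uc (fun _ _ => x) (k + d) k (k + 1) = x * d := by
  induction d with
  | zero =>
    simp only [Nat.add_zero, Nat.cast_zero, mul_zero]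
    exact Uc_beyond _ k k (k + 1) (by omega) (by omega)
  | succ d ih =>
    rw [show k + (d + 1) = (k + d) + 1 by omega, Uc_succ_succ _ (k + d) k k (by omega), ih, Uc_self]
    push_cast
    ring

/-- Six upper triangular factors. -/
lemma sup_six {r : ℕ} {Q1 Q2 Q3 Q4 Q5 Q6 : Matrix (Fin r) (Fin r) ℂ} (h1 : UT Q1) (h2 : UT Q2)
    (h3 : UT Q3) (h4 : UT Q4) (h5 : UT Q5) (h6 : UT Q6) {k k' : Fin r} (h : k.val + 1 = k'.val) :
    (Q1 * Q2 * Q3 * Q4 * Q5 * Q6) k k' =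
      Q1 k k' * (Q2 k' k' * Q3 k' k' * Q4 k' k' * Q5 k' k' * Q6 k' k') +
      Q1 k k * (Q2 k k' * (Q3 k' k' * Q4 k' k' * Q5 k' k' * Q6 k' k') +
      Q2 k k * (Q3 k k' * (Q4 k' k' * Q5 k' k' * Q6 k' k') +
      Q3 k k * (Q4 k k' * (Q5 k' k' * Q6 k' k') +
      Q4 k k * (Q5 k k' * Q6 k' k' + Q5 k k * Q6 k k')))) := by
  have h12 := h1.mul h2
  have h123 := h12.mul h3
  have h1234 := h123.mul h4
  have h12345 := h1234.mul h5
  rw [sup_mul h12345 h6 h, sup_mul h1234 h5 h, sup_mul h123 h4 h, sup_mul h12 h3 h, sup_mul h1 h2 h,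
    h1234.mul_diag h5, h123.mul_diag h4, h12.mul_diag h3, h1.mul_diag h2]
  ring

section grp

variable {G : Type*} [Group G]

lemma grp_hQ (g u z' B1 rz h0 b2 rz' b z w : G) :
    (g * u)⁻¹⁻¹ * z' * (B1⁻¹ * rz⁻¹) * ((b2 * (w * h0 * w))⁻¹ * rz'⁻¹) * (b⁻¹ * z) =
      g * u * (z' * B1⁻¹ * rz⁻¹ * (w * h0 * w)⁻¹) * (b2⁻¹ * rz'⁻¹) * (b⁻¹ * z) := by
  group

lemma grp_conj_w (w E h : G) (hw : w * w = 1) (hE : w * E * w = E⁻¹) :
    w * (E * h * E⁻¹) * w = E⁻¹ * (w * h * w) * E := by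
  have hw' : w⁻¹ = w := inv_eq_of_mul_eq_one_left hw
  have hE' : w * E⁻¹ * w = E := by
    have h1 := congrArg (fun x => x⁻¹) hE
    simp only [_root_.mul_inv_rev, inv_inv, hw'] at h1
    rw [mul_assoc]
    exact h1
  calc w * (E * h * E⁻¹) * w = (w * E * 1) * h * (1 * E⁻¹ * w) := by group
    _ = (w * E * (w * w)) * h * ((w * w) * E⁻¹ * w) := by rw [hw]
    _ = (w * E * w) * (w * h * w) * (w * E⁻¹ * w) := by group
    _ = _ := by rw [hE, hE']

lemma grp_X1 (a b c E W : G) : a * b * (c * E) * (E⁻¹ * W * E)⁻¹ = a * b * c * W⁻¹ * E := by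
  group

lemma grp_X3 (E b z : G) (h : z * E = E * z) :
    (E * b * E)⁻¹ * (z * E) = E⁻¹ * (b⁻¹ * z) := by
  rw [h]
  group

lemma grp_HH (g E u X1 X2 X3 S : G) :
    g * (E * u * E⁻¹) * (X1 * E) * X2 * (E⁻¹ * X3) * S =
      g * (E * u * E⁻¹) * X1 * (E * X2 * E⁻¹) * X3 * S := by
  group

end grp

section family

variable (J : Inp ℂ n s (g' + 1))

/-- The family of the top handle. -/
noncomputable def Jtop (ν : ℂˣ) : Inp ℂ n s (g' + 1) :=
  J.fam (fun i => i = eE s g' + 2) (ν ^ 2)⁻¹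
    (fun k q => if k = 2 * g' then eP (n + 2) ν q.castSucc else 1)

lemma zH_Jtop (ν : ℂˣ) : zH (Jtop J ν) g' = zH J g' * eP (n + 2) ν :=
  zH_fam J _ _ _ (by omega) _ (prod_eP ν) (fun q => by simp)

lemma zH'_Jtop (ν : ℂˣ) : zH' (Jtop J ν) g' = zH' J g' := by
  apply zH'_fam_same
  funext q
  have : ¬ (2 * g' + 1 = 2 * g') := by omega
  simp [this]

lemma zH_Jtop_low (ν : ℂˣ) {i : ℕ} (hi : i < g') : zH (Jtop J ν) i = zH J i := by
  apply zH_fam_same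
  funext q
  have : ¬ (2 * i = 2 * g') := by omega
  simp [this]

lemma zH'_Jtop_low (ν : ℂˣ) {i : ℕ} (hi : i < g') : zH' (Jtop J ν) i = zH' J i := by
  apply zH'_fam_same
  funext q
  have : ¬ (2 * i + 1 = 2 * g') := by omega
  simp [this]

lemma mm_succ : mm s (g' + 1) = eE s g' + 4 := by
  simp only [mm, eE]
  ring

variable (hm : 6 ≤ mm s (g' + 1))

lemma bhat'_Jtop_same (ν : ℂˣ) {i : ℕ} (hi : i ≠ eE s g' + 3) (h1 : 1 ≤ i) :
    bhat' (Jtop J ν) i = bhat' J i :=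
  bhat'_fam_same J (fun i => i = eE s g' + 2) _ _ (by omega)

lemma aux_cancel {G : Type*} [CommGroup G] (x y w K e b : G) :
    x * y * (e * b * e)⁻¹ * w * (K * e * e) = x * y * b⁻¹ * w * K := by
  simp only [mul_inv]
  calc x * y * (e⁻¹ * b⁻¹ * e⁻¹) * w * (K * e * e)
      = (e⁻¹ * e) * (e⁻¹ * e) * (x * y * b⁻¹ * w * K) := by ac_rfl
    _ = _ := by simp

lemma KH_Jtop (ν : ℂˣ) : KH (Jtop J ν) g' = KH J g' * eP (n + 2) ν * eP (n + 2) ν := by
  simp only [KH]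
  rw [zH_Jtop, zH'_Jtop, rv_mul_inv_eP]
  ac_rfl

include hm in
lemma DD_Jtop (ν : ℂˣ) : DD (Jtop J ν) (bhat' (Jtop J ν)) = DD J (bhat' J) := by
  have he : mm s (g' + 1) = eE s g' + 4 := mm_succ
  have ha : (Jtop J ν).a = J.a := rfl
  have h1 : ∀ i ∈ Finset.range g', dha (Jtop J ν) (bhat' (Jtop J ν)) i = dha J (bhat' J) i := by
    intro i hi
    have hi' := Finset.mem_range.mp hi
    have hei : eE s i + 4 ≤ eE s g' := by simp only [eE]; omega
    simp only [dha]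
    rw [bhat'_Jtop_same J ν (by omega) (by omega), bhat'_Jtop_same J ν (by omega) (by omega),
      bhat'_Jtop_same J ν (by omega) (by omega), bhat'_Jtop_same J ν (by omega) (by omega),
      zH_Jtop_low J ν hi', zH'_Jtop_low J ν hi']
  have h2 : dha (Jtop J ν) (bhat' (Jtop J ν)) g' = dha J (bhat' J) g' := by
    have h3 : bhat' (Jtop J ν) (eE s g' + 3) = eP (n + 2) ν * bhat' J (eE s g' + 3) * eP (n + 2) ν :=
      bhat'_fam_scale J (fun i => i = eE s g' + 2) ν _ (by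
        show eE s g' + 3 - 1 = eE s g' + 2
        omega) (by
        have : 2 ≤ eE s g' := by omega
        omega) (by omega) (by omega)
    rw [dha_form, dha_form, KH_Jtop, bhat'_Jtop_same J ν (i := eE s g' + 1) (by omega) (by omega),
      bhat'_Jtop_same J ν (i := eE s g' + 2) (by omega) (by omega),
      bhat'_Jtop_same J ν (i := eE s g' + 4) (by omega) (by omega), h3]
    exact aux_cancel _ _ _ _ _ _
  have h4 : ∀ j ∈ Finset.range s, dsp (Jtop J ν) (bhat' (Jtop J ν)) j = dsp J (bhat' J) j := by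
    intro j hj
    have hj' := Finset.mem_range.mp hj
    have h2 : 2 * j + 2 ≤ eE s g' := by
      simp only [eE]
      omega
    simp only [dsp, zS, ha]
    rw [bhat'_Jtop_same J ν (i := 2 * j + 1) (by omega) (by omega),
      bhat'_Jtop_same J ν (i := 2 * j + 2) (by omega) (by omega)]
  simp only [DD]
  rw [Finset.prod_range_succ, Finset.prod_range_succ, Finset.prod_congr rfl h1, h2,
    Finset.prod_congr rfl h4]

include hm in
lemma TT_Jtop (ν : ℂˣ) {i : ℕ} (h1 : 1 ≤ i) (hi : i ≠ eE s g' + 2) : TT (Jtop J ν) i = TT J i := by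
  have he : mm s (g' + 1) = eE s g' + 4 := mm_succ
  by_cases h : i = 1
  · subst h
    simp only [TT, if_true]
    apply T1_congr
    · funext l j
      simp only [Jtop, Inp.fam]
      rw [if_neg]
      rintro ⟨h, -⟩
      omega
    · simp only [tauV]
      rw [DD_Jtop J hm]
      rfl
  · rw [TT_ne_one _ h, TT_ne_one _ h]
    exact T2_fam_same J (fun i => i = eE s g' + 2) _ _ hi

lemma TT_Jtop_top (ν : ℂˣ) (he2 : 2 ≤ eE s g') :
    (TT (Jtop J ν) (eE s g' + 2)).u = EE (n + 2) ν * (TT J (eE s g' + 2)).u * (EE (n + 2) ν)⁻¹ ∧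
    (TT (Jtop J ν) (eE s g' + 2)).h = EE (n + 2) ν * (TT J (eE s g' + 2)).h * (EE (n + 2) ν)⁻¹ ∧
    (TT (Jtop J ν) (eE s g' + 2)).b = EE (n + 2) ν * (TT J (eE s g' + 2)).b * EE (n + 2) ν := by
  rw [TT_ne_one _ (by omega), TT_ne_one _ (by omega)]
  exact T2_fam_scale J (fun i => i = eE s g' + 2) ν _ rfl (by omega)

end family

section word

variable (J : Inp ℂ n s (g' + 1)) (hm : 4 ≤ mm s (g' + 1))

/-- The lower part of the base word. -/
noncomputable def SJ : Bp ℂ (n + 2) := prodDown (hQd J hm) g' * prodDown (sQd J hm) s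

lemma HH_eq : HH J hm = hQd J hm g' * SJ J hm := by
  simp only [HH, SJ, prodDown]
  group

/-- The first factor of the top handle. -/
noncomputable def X1 : GLr ℂ (n + 2) :=
  tor (zH' J g') * (((theChain J hm).β (eE s g' + 1)).1)⁻¹ * (tor (rv (zH J g')))⁻¹ *
    (w0 * (TT J (eE s g' + 2)).h * w0)⁻¹

/-- The second factor of the top handle. -/
noncomputable def X2 : GLr ℂ (n + 2) := ((TT J (eE s g' + 1)).b)⁻¹ * (tor (rv (zH' J g')))⁻¹

/-- The third factor of the top handle. -/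
noncomputable def X3 : GLr ℂ (n + 2) := ((TT J (eE s g' + 2)).b)⁻¹ * tor (zH J g')

lemma chain_beta_last' {x : ℕ} (hx : x = mm s (g' + 1)) :
    ((theChain J hm).β x).1 = ((theFan J hm).GG (x - 1))⁻¹ := by
  subst hx
  exact chain_beta_last J hm

lemma chain_beta_penult' {x : ℕ} (hx : x + 1 = mm s (g' + 1)) :
    ((theChain J hm).β x).1 = (TT J (x - 1)).b := by
  have h1 : x = mm s (g' + 1) - 1 := by omega
  have h2 : x - 1 = mm s (g' + 1) - 2 := by omega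
  rw [h2]
  subst h1
  exact chain_beta_penult J hm

lemma hQd_top : (hQd J hm g').1 = (theFan J hm).GG (eE s g' + 2) * (TT J (eE s g' + 2)).u *
    X1 J hm * X2 J * X3 J := by
  have he : mm s (g' + 1) = eE s g' + 4 := mm_succ
  have h4 : ((theChain J hm).β (eE s g' + 4)).1 =
      ((theFan J hm).GG (eE s g' + 2) * (TT J (eE s g' + 2)).u)⁻¹ := by
    rw [chain_beta_last' J hm he.symm]
    exact congrArg (fun x => x⁻¹) (GG_succ J hm (eE s g' + 1))
  have h3 : ((theChain J hm).β (eE s g' + 3)).1 = (TT J (eE s g' + 2)).b :=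
    chain_beta_penult' J hm (by omega)
  have h2 : ((theChain J hm).β (eE s g' + 2)).1 =
      (TT J (eE s g' + 1)).b * (w0 * (TT J (eE s g' + 2)).h * w0) :=
    chain_beta_mid J hm (by omega) (by omega)
  simp only [hQd, Chain.hQ, Chain.hQ1, Chain.hQ2, Chain.hQ3, Chain.hQ4, X1, X2, X3]
  show ((theChain J hm).β (eE s g' + 4)).1⁻¹ * tor (zH' J g') *
      (((theChain J hm).β (eE s g' + 1)).1⁻¹ * tor (rv (zH J g'))⁻¹) *
      (((theChain J hm).β (eE s g' + 2)).1⁻¹ * tor (rv (zH' J g'))⁻¹) *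
      (((theChain J hm).β (eE s g' + 3)).1⁻¹ * tor (zH J g')) = _
  rw [h4, h3, h2, tor_inv, tor_inv]
  exact grp_hQ _ _ _ _ _ _ _ _ _ _ _

end word

section famword

variable (J : Inp ℂ n s (g' + 1)) (hm6 : 6 ≤ mm s (g' + 1)) (hm : 4 ≤ mm s (g' + 1))

include hm6

lemma eE_ge : 2 ≤ eE s g' := by
  have he : mm s (g' + 1) = eE s g' + 4 := mm_succ
  omega

lemma SJ_Jtop (ν : ℂˣ) : SJ (Jtop J ν) hm = SJ J hm := by
  have he : mm s (g' + 1) = eE s g' + 4 := mm_succ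
  have hT : ∀ i, 1 ≤ i → i ≤ eE s g' → TT (Jtop J ν) i = TT J i :=
    fun i h1 h2 => TT_Jtop J hm6 ν h1 (by omega)
  have h1 : prodDown (sQd (Jtop J ν) hm) s = prodDown (sQd J hm) s := by
    apply prodDown_congr
    intro j hj
    have ha : (Jtop J ν).a = J.a := rfl
    have hj' : 2 * j + 2 ≤ eE s g' := by simp only [eE]; omega
    exact sQd_congr (J := J) (J' := Jtop J ν) hm (x₀ := eE s g') (by omega) ha hT hj'
  have h2 : prodDown (hQd (Jtop J ν) hm) g' = prodDown (hQd J hm) g' := by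
    apply prodDown_congr
    intro i hi
    have hi' : eE s i + 4 ≤ eE s g' := by simp only [eE]; omega
    exact hQd_congr (J := J) (J' := Jtop J ν) hm (x₀ := eE s g') (by omega) hT hi'
      (zH_Jtop_low J ν hi) (zH'_Jtop_low J ν hi)
  simp only [SJ]
  rw [h1, h2]

lemma GG_Jtop (ν : ℂˣ) : (theFan (Jtop J ν) hm).GG (eE s g' + 2) = (theFan J hm).GG (eE s g' + 2) :=
  GG_congr hm _ (fun i h1 h2 => by rw [TT_Jtop J hm6 ν h1 (by omega)])

lemma X1_Jtop (ν : ℂˣ) : X1 (Jtop J ν) hm = X1 J hm * EE (n + 2) ν := by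
  have he : mm s (g' + 1) = eE s g' + 4 := mm_succ
  have hT : ∀ i, 1 ≤ i → i ≤ eE s g' + 1 → TT (Jtop J ν) i = TT J i :=
    fun i h1 h2 => TT_Jtop J hm6 ν h1 (by omega)
  have h0 := beta_congr hm (x₀ := eE s g' + 1) (by omega) hT (x := eE s g' + 1) (by omega) le_rfl
  simp only [X1]
  rw [h0, zH_Jtop, zH'_Jtop, (TT_Jtop_top J ν (eE_ge (s := s) hm6)).2.1]
  have h1 : (tor (rv (zH J g' * eP (n + 2) ν)))⁻¹ = (tor (rv (zH J g')))⁻¹ * EE (n + 2) ν := by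
    rw [← tor_inv, rv_mul_inv_eP, tor_mul, tor_inv]
    rfl
  have h2 := grp_conj_w (w0 : GLr ℂ (n + 2)) (EE (n + 2) ν) (TT J (eE s g' + 2)).h w0_mul_w0 (w0_EE_w0 ν)
  rw [h1, h2]
  exact grp_X1 _ _ _ _ _

lemma X2_Jtop (ν : ℂˣ) : X2 (Jtop J ν) = X2 J := by
  have he : mm s (g' + 1) = eE s g' + 4 := mm_succ
  simp only [X2]
  rw [zH'_Jtop, TT_Jtop J hm6 ν (i := eE s g' + 1) (by omega) (by omega)]

lemma X3_Jtop (ν : ℂˣ) : X3 (Jtop J ν) = (EE (n + 2) ν)⁻¹ * X3 J := by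
  simp only [X3]
  rw [(TT_Jtop_top J ν (eE_ge (s := s) hm6)).2.2, zH_Jtop, tor_mul]
  exact grp_X3 _ _ _ (tor_comm _ _)

/-- The base word along the family. -/
lemma HH_Jtop (ν : ℂˣ) : (HH (Jtop J ν) hm).1 = (theFan J hm).GG (eE s g' + 2) *
    (EE (n + 2) ν * (TT J (eE s g' + 2)).u * (EE (n + 2) ν)⁻¹) * X1 J hm *
    (EE (n + 2) ν * X2 J * (EE (n + 2) ν)⁻¹) * X3 J * (SJ J hm).1 := by
  rw [HH_eq, Subgroup.coe_mul, hQd_top, SJ_Jtop J hm6 hm, GG_Jtop J hm6 hm, X1_Jtop J hm6 hm,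
    X2_Jtop J hm6, X3_Jtop J hm6, (TT_Jtop_top J ν (eE_ge (s := s) hm6)).1]
  exact grp_HH _ _ _ _ _ _ _

/-- The coefficient of the scaling in the base word. -/
noncomputable def GamJ (J : Inp ℂ n s (g' + 1)) (hm : 4 ≤ mm s (g' + 1)) (k k' : Fin (n + 2)) : ℂ :=
  (X3 J).1 k' k' * (SJ J hm).1.1 k' k' *
    ((TT J (eE s g' + 2)).u.1 k k' * ((X1 J hm).1 k' k' * (X2 J).1 k' k') +
      (X1 J hm).1 k k * (X2 J).1 k k')

omit hm6 in
lemma X1_mem : X1 J hm ∈ Bp ℂ (n + 2) :=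
  mul_mem (mul_mem (mul_mem (tor_mem _) (inv_mem ((theChain J hm).β _).2)) (inv_mem (tor_mem _)))
    (inv_mem (Up_le_Bp (w0_conj_Um (TT J _).hh)))

omit hm6 in
lemma X2_mem : X2 J ∈ Bp ℂ (n + 2) :=
  mul_mem (inv_mem (TT J _).hb) (inv_mem (tor_mem _))

omit hm6 in
lemma X3_mem : X3 J ∈ Bp ℂ (n + 2) :=
  mul_mem (inv_mem (TT J _).hb) (tor_mem _)

lemma HH_entry_Jtop {k k' : Fin (n + 2)} (h : k.val + 1 = k'.val) :
    ∃ A : ℂ, ∀ ν : ℂˣ, (HH (Jtop J ν) hm).1.1 k k' = A + ((ν : ℂ) ^ 2)⁻¹ * GamJ J hm k k' := by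
  have hG : (theFan J hm).GG (eE s g' + 2) ∈ Up ℂ (n + 2) := (theFan J hm).GG_mem _
  have hu : (TT J (eE s g' + 2)).u ∈ Up ℂ (n + 2) := (TT J _).hu
  have hEu : ∀ ν : ℂˣ, UT (EE (n + 2) ν * (TT J (eE s g' + 2)).u * (EE (n + 2) ν)⁻¹).1 := fun ν =>
    mul_mem (mul_mem (tor_mem _) (Up_le_Bp hu)) (inv_mem (tor_mem _))
  have hEX : ∀ ν : ℂˣ, UT (EE (n + 2) ν * X2 J * (EE (n + 2) ν)⁻¹).1 := fun ν =>
    mul_mem (mul_mem (tor_mem _) (X2_mem J)) (inv_mem (tor_mem _))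
  refine ⟨((theFan J hm).GG (eE s g' + 2)).1 k k' *
      ((TT J (eE s g' + 2)).u.1 k' k' * (X1 J hm).1 k' k' * (X2 J).1 k' k' * (X3 J).1 k' k' *
        (SJ J hm).1.1 k' k') +
      ((theFan J hm).GG (eE s g' + 2)).1 k k * ((TT J (eE s g' + 2)).u.1 k k *
        ((X1 J hm).1 k k' * ((X2 J).1 k' k' * (X3 J).1 k' k' * (SJ J hm).1.1 k' k') +
          (X1 J hm).1 k k * ((X2 J).1 k k * ((X3 J).1 k k' * (SJ J hm).1.1 k' k' +
            (X3 J).1 k k * (SJ J hm).1.1 k k')))), fun ν => ?_⟩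
  have e : (HH (Jtop J ν) hm).1.1 k k' = (((theFan J hm).GG (eE s g' + 2)).1 *
      (EE (n + 2) ν * (TT J (eE s g' + 2)).u * (EE (n + 2) ν)⁻¹).1 * (X1 J hm).1 *
      (EE (n + 2) ν * X2 J * (EE (n + 2) ν)⁻¹).1 * (X3 J).1 * (SJ J hm).1.1) k k' := by
    rw [HH_Jtop J hm6 hm]
    rfl
  rw [e, sup_six (Up_le_Bp hG) (hEu ν) (X1_mem J hm) (hEX ν) (X3_mem J) (SJ J hm).2 h,
    EE_conj_super _ _ _ _ h, EE_conj_super _ _ _ _ h, EE_conj_diag, EE_conj_diag, EE_conj_diag,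
    EE_conj_diag]
  simp only [GamJ, hG.2 k, hu.2 k, hu.2 k']
  ring

/-- A non-vanishing coefficient gives a non-vanishing entry of the base word. -/
lemma exists_HH_ne_of_Gam {k k' : Fin (n + 2)} (h : k.val + 1 = k'.val)
    (hG : GamJ J hm k k' ≠ 0) : ∃ ν : ℂˣ, (HH (Jtop J ν) hm).1.1 k k' ≠ 0 := by
  obtain ⟨A, hA⟩ := HH_entry_Jtop J hm6 hm h
  by_contra hcon
  simp only [not_exists, not_not] at hcon
  have e1 := hcon 1
  have e2 := hcon (Units.mk0 (2 : ℂ) two_ne_zero)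
  rw [hA] at e1 e2
  simp only [Units.val_one, Units.val_mk0] at e1 e2
  apply hG
  norm_num at e1 e2
  linear_combination (4 / 3 : ℂ) * e1 - (4 / 3 : ℂ) * e2

/-- The first factor of `X1`. -/
noncomputable def Y1 (J : Inp ℂ n s (g' + 1)) (hm : 4 ≤ mm s (g' + 1)) : GLr ℂ (n + 2) :=
  tor (zH' J g') * (((theChain J hm).β (eE s g' + 1)).1)⁻¹ * (tor (rv (zH J g')))⁻¹

omit hm6 in
lemma Y1_mem : Y1 J hm ∈ Bp ℂ (n + 2) :=
  mul_mem (mul_mem (tor_mem _) (inv_mem ((theChain J hm).β _).2)) (inv_mem (tor_mem _))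

omit hm6 in
lemma X1_diag (x : Fin (n + 2)) : (X1 J hm).1 x x = (Y1 J hm).1 x x := by
  have h1 : (w0 * (TT J (eE s g' + 2)).h * w0 : GLr ℂ (n + 2)) ∈ Up ℂ (n + 2) :=
    w0_conj_Um (TT J _).hh
  have h2 := inv_mem h1
  show ((Y1 J hm).1 * ((w0 * (TT J (eE s g' + 2)).h * w0)⁻¹).1) x x = _
  rw [UT.mul_diag (Y1_mem J hm) (Up_le_Bp h2), h2.2, mul_one]

end famword

section choice

variable {a : Fin (s + 1) → Fin (n + 2) → ℂ} (hm6 : 6 ≤ mm s (g' + 1)) (hm : 4 ≤ mm s (g' + 1))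

include hm6

/-- The base word is not zero on the superdiagonal for a suitable input. -/
theorem exists_HH_super_ne_top {J₀ : Inp ℂ n s (g' + 1)} (hJ₀ : Normal a J₀) {k k' : Fin (n + 2)}
    (h : k.val + 1 = k'.val) : ∃ J, Normal a J ∧ (HH J hm).1.1 k k' ≠ 0 := by
  have he : mm s (g' + 1) = eE s g' + 4 := mm_succ
  have he2 : 2 ≤ eE s g' := eE_ge hm6
  have hk := k.isLt
  have hk' := k'.isLt
  -- the inputs with constant parameters on the last triangle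
  let Jc : ℂˣ → Inp ℂ n s (g' + 1) := fun κ => J₀.setT (eE s g' + 2) (fun _ _ => κ)
  have hJc : ∀ κ, Normal a (Jc κ) := fun κ => hJ₀.setT _ ⟨by omega, by omega⟩ _
  have hsame : ∀ κ i, i ≠ eE s g' + 2 → T2 (Jc κ) i = T2 J₀ i := fun κ i hi =>
    T2_congr (cOf_setT_same J₀ _ _ hi)
  have hzH : ∀ κ, zH (Jc κ) g' = zH J₀ g' := fun κ => rfl
  have hzH' : ∀ κ, zH' (Jc κ) g' = zH' J₀ g' := fun κ => rfl
  -- the pieces do not depend on the constant
  have hY : ∀ κ, Y1 (Jc κ) hm = Y1 J₀ hm := by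
    intro κ
    simp only [Y1]
    have h1 : ((theChain (Jc κ) hm).β (eE s g' + 1)).1 = ((theChain J₀ hm).β (eE s g' + 1)).1 := by
      rw [chain_beta_mid _ hm (by omega) (by omega), chain_beta_mid _ hm (by omega) (by omega),
        TT_ne_one _ (by omega), TT_ne_one _ (by omega), TT_ne_one _ (by omega),
        TT_ne_one _ (by omega), hsame κ _ (by omega), hsame κ _ (by omega)]
    rw [h1, hzH, hzH']
  have hX2 : ∀ κ, X2 (Jc κ) = X2 J₀ := by
    intro κ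
    simp only [X2]
    rw [TT_ne_one _ (by omega), TT_ne_one _ (by omega), hsame κ _ (by omega), hzH']
  have hu : ∀ κ : ℂˣ, (TT (Jc κ) (eE s g' + 2)).u.1 k k' = (κ : ℂ) * ((n + 1 - k.val : ℕ) : ℂ) := by
    intro κ
    rw [TT_ne_one _ (by omega), T2_u_of (Jc κ) _ (fun _ _ => κ)
      (fun l j h1 h2 => cOf_setT_self J₀ _ _ (by omega) h1 h2), UcG_val]
    have e1 : k'.val = k.val + 1 := h.symm
    simp only [UcM, Matrix.of_apply, e1]
    have e2 := Uc_const_super (κ : ℂ) k.val (n + 1 - k.val)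
    have e3 : k.val + (n + 1 - k.val) = n + 1 := by omega
    rw [e3] at e2
    exact e2
  -- the bracket
  have hP : (Y1 J₀ hm).1 k' k' * (X2 J₀).1 k' k' * ((n + 1 - k.val : ℕ) : ℂ) ≠ 0 := by
    apply mul_ne_zero (mul_ne_zero (Bp_diag_ne (Y1_mem J₀ hm) k') (Bp_diag_ne (X2_mem J₀) k'))
    exact_mod_cast (by omega : n + 1 - k.val ≠ 0)
  have hbr : ∃ κ : ℂˣ, GamJ (Jc κ) hm k k' ≠ 0 := by
    by_contra hcon
    simp only [not_exists, not_not] at hcon
    have hform : ∀ κ : ℂˣ, (κ : ℂ) * ((Y1 J₀ hm).1 k' k' * (X2 J₀).1 k' k' * ((n + 1 - k.val : ℕ) : ℂ)) +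
        (Y1 J₀ hm).1 k k * (X2 J₀).1 k k' = 0 := by
      intro κ
      have h1 := hcon κ
      simp only [GamJ] at h1
      rw [hu, X1_diag, X1_diag, hY, hX2] at h1
      have h2 : (X3 (Jc κ)).1 k' k' * (SJ (Jc κ) hm).1.1 k' k' ≠ 0 :=
        mul_ne_zero (Bp_diag_ne (X3_mem _) k') (Bp_diag_ne (SJ _ hm).2 k')
      have h3 := (mul_eq_zero.mp h1).resolve_left h2
      rw [← h3]
      ring
    have e1 := hform 1
    have e2 := hform (Units.mk0 (2 : ℂ) two_ne_zero)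
    simp only [Units.val_one, Units.val_mk0] at e1 e2
    apply hP
    linear_combination e2 - e1
  obtain ⟨κ, hκ⟩ := hbr
  obtain ⟨ν, hν⟩ := exists_HH_ne_of_Gam (Jc κ) hm6 hm h hκ
  refine ⟨Jtop (Jc κ) ν, ?_, hν⟩
  exact (hJc κ).fam _ (fun i hi => ⟨by omega, by omega⟩) _ _

end choice

end Vale.Agent.Lib.P002.Surf
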