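import Mathlib
import Vale.Agent.Lib.P002.Reg.Good
import Vale.Agent.Lib.P002.Reg.NV2

set_option linter.unusedSectionVars false
set_option linter.unusedVariables false
set_option linter.unusedSimpArgs false
set_option linter.unnecessarySeqFocus false

namespace Vale.Agent.Lib.P002.Surf

open Matrix

variable {n s g g' : ℕ}

/-! ### The spikes -/

/-- The superdiagonal of the conjugate form of a spike does not vanish for a suitable input. -/
theorem exists_sBd_ne {a : Fin (s + 1) → Fin (n + 2) → ℂ} {J₀ : Inp ℂ n s g} (hJ₀ : Normal a J₀)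
    (hm6 : 6 ≤ mm s g) (hm : 4 ≤ mm s g) {j : ℕ} (hj : j < s) {k k' : Fin (n + 2)}
    (hk : k.val + 1 = k'.val) : ∃ J, Normal a J ∧ (sBd J hm j).1.1 k k' ≠ 0 := by
  have hm' : 2 * j + 2 ≤ mm s g := by
    simp only [mm]
    omega
  have key : ∃ J, Normal a J ∧ ((theChain J hm).β (2 * j + 1)).1.1 k k' ≠ 0 := by
    by_cases h0 : j = 0
    · subst h0
      exact beta_one_ne hm6 hm hJ₀ hk
    by_cases h1 : 2 * j + 1 + 2 ≤ mm s g
    · exact beta_super_ne hm hJ₀ (by omega) h1 hk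
    · have e : 2 * j + 1 = mm s g - 1 := by omega
      rw [e]
      exact beta_penult_ne hm hJ₀ (by omega) hk
  obtain ⟨J, hJ, hne⟩ := key
  refine ⟨J, hJ, ?_⟩
  rw [sBd_entry]
  exact mul_ne_zero (Units.ne_zero _) hne

/-! ### The twist of the last handle -/

section twist

variable (J : Inp ℂ n s (g' + 1)) (w : Fin (n + 2) → ℂˣ)

/-- The twist of the last handle. -/
noncomputable def Jtw : Inp ℂ n s (g' + 1) :=
  J.fam (fun _ => False) 1 (fun k q => if k = 2 * g' then w q.castSucc else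
    if k = 2 * g' + 1 then (w q.castSucc)⁻¹ else 1)

variable {w} (hw : ∏ q, w q = 1)

include hw

lemma zH_tw : zH (Jtw J w) g' = zH J g' * w :=
  zH_fam J _ _ _ (by omega) _ hw (fun q => by simp)

lemma zH'_tw : zH' (Jtw J w) g' = zH' J g' * w⁻¹ := by
  apply zH'_fam J _ _ _ (by omega) _ (by
    simp only [Pi.inv_apply]
    rw [Finset.prod_inv_distrib, hw, inv_one]) (fun q => ?_)
  have h1 : ¬ (2 * g' + 1 = 2 * g') := by omega
  simp [h1]

omit hw

lemma zH_tw_low {i : ℕ} (hi : i < g') : zH (Jtw J w) i = zH J i := by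
  apply zH_fam_same
  funext q
  have h1 : ¬ (2 * i = 2 * g') := by omega
  have h2 : ¬ (2 * i = 2 * g' + 1) := by omega
  simp [h1, h2]

lemma zH'_tw_low {i : ℕ} (hi : i < g') : zH' (Jtw J w) i = zH' J i := by
  apply zH'_fam_same
  funext q
  have h1 : ¬ (2 * i + 1 = 2 * g') := by omega
  have h2 : ¬ (i = g') := by omega
  simp [h1, h2]

lemma bhat'_tw (i : ℕ) : bhat' (Jtw J w) i = bhat' J i :=
  bhat'_fam_same J (fun _ => False) _ _ not_false

include hw

lemma KH_tw : KH (Jtw J w) g' = KH J g' := by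
  simp only [KH]
  rw [zH_tw J hw, zH'_tw J hw, rv_mul, rv_mul, rv_inv]
  generalize zH J g' = z
  generalize zH' J g' = z'
  generalize rv z = rz
  generalize rv z' = rz'
  generalize rv w = rw
  calc z' * w⁻¹ * (rz * rw)⁻¹ * (rz' * rw⁻¹)⁻¹ * (z * w)
      = z' * rz⁻¹ * rz'⁻¹ * z * (w⁻¹ * w) * (rw⁻¹ * rw) := by
        simp only [mul_inv, inv_inv]
        ac_rfl
    _ = _ := by simp

lemma DD_tw : DD (Jtw J w) (bhat' (Jtw J w)) = DD J (bhat' J) := by
  have h1 : bhat' (Jtw J w) = bhat' J := funext fun i => bhat'_tw J i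
  rw [h1]
  have h2 : ∀ i ∈ Finset.range g', dha (Jtw J w) (bhat' J) i = dha J (bhat' J) i := by
    intro i hi
    have hi' := Finset.mem_range.mp hi
    simp only [dha]
    rw [zH_tw_low J hi', zH'_tw_low J hi']
  have h3 : dha (Jtw J w) (bhat' J) g' = dha J (bhat' J) g' := by
    rw [dha_form, dha_form, KH_tw J hw]
  have h4 : ∀ j ∈ Finset.range s, dsp (Jtw J w) (bhat' J) j = dsp J (bhat' J) j := fun _ _ => rfl
  simp only [DD]
  rw [Finset.prod_range_succ, Finset.prod_range_succ, Finset.prod_congr rfl h2, h3,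
    Finset.prod_congr rfl h4]

lemma TT_tw (i : ℕ) : TT (Jtw J w) i = TT J i := by
  by_cases h : i = 1
  · subst h
    simp only [TT, if_true]
    apply T1_congr
    · rfl
    · simp only [tauV]
      rw [DD_tw J hw]
      rfl
  · rw [TT_ne_one _ h, TT_ne_one _ h]
    exact T2_fam_same J (fun _ => False) _ _ not_false

variable (hm : 4 ≤ mm s (g' + 1))

lemma theFan_tw : theFan (Jtw J w) hm = theFan J hm := by
  apply Fan.ext_data
  · funext i
    show (TT (Jtw J w) i).u = (TT J i).u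
    rw [TT_tw J hw]
  · funext i
    show (if i = mm s (g' + 1) - 1 then 1 else (TT (Jtw J w) i).h) =
      (if i = mm s (g' + 1) - 1 then 1 else (TT J i).h)
    rw [TT_tw J hw]
  · funext i
    show (if i = 0 then 1 else (TT (Jtw J w) i).b) = (if i = 0 then 1 else (TT J i).b)
    rw [TT_tw J hw]

lemma theChain_tw : theChain (Jtw J w) hm = theChain J hm := by
  simp only [theChain]
  rw [theFan_tw J hw hm]

lemma Zs_tw (j : ℕ) : Zs (Jtw J w) hm j = Zs J hm j := by
  simp only [Zs, zS, bhat]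
  rw [theChain_tw J hw hm]
  rfl

lemma sWd_tw (j : ℕ) : sWd (Jtw J w) hm j = sWd J hm j := by
  simp only [sWd]
  rw [theChain_tw J hw hm, Zs_tw J hw hm]

/-- Invariant subspaces along the twist. -/
theorem irr_J_twist (hwi : Function.Injective w)
    (hs : ∀ k k' : Fin (n + 2), k.val + 1 = k'.val →
      ((theChain J hm).β (eE s g' + 1)).1.1 k k' ≠ 0)
    (V : Submodule ℂ (Fin (n + 2) → ℂ))
    (hV1 : ∀ x, ∀ v ∈ V, (gensGL J hm x).1 *ᵥ v ∈ V)
    (hV2 : ∀ x, ∀ v ∈ V, (gensGL (Jtw J w) hm x).1 *ᵥ v ∈ V) : V = ⊥ ∨ V = ⊤ := by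
  have he : mm s (g' + 1) = eE s g' + 4 := mm_succ
  let C := theChain J hm
  have hx1 : xW J hm g' ∈ Stab V := mem_Stab V _ (by
    have := hV1 (Sum.inl ⟨0, by omega⟩)
    simpa [gensGL] using this)
  have hy1 : yW J hm g' ∈ Stab V := mem_Stab V _ (by
    have := hV1 (Sum.inr (Sum.inl ⟨0, by omega⟩))
    simpa [gensGL] using this)
  have hx2 : xW (Jtw J w) hm g' ∈ Stab V := mem_Stab V _ (by
    have := hV2 (Sum.inl ⟨0, by omega⟩)
    simpa [gensGL] using this)
  have hy2 : yW (Jtw J w) hm g' ∈ Stab V := mem_Stab V _ (by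
    have := hV2 (Sum.inr (Sum.inl ⟨0, by omega⟩))
    simpa [gensGL] using this)
  have eX : xW (Jtw J w) hm g' = C.hB (eE s g') (zH' J g' * w⁻¹) := by
    simp only [xW]
    rw [theChain_tw J hw hm, zH'_tw J hw]
  have eY : yW (Jtw J w) hm g' = (C.hA (eE s g') (zH J g' * w))⁻¹ := by
    simp only [yW]
    rw [theChain_tw J hw hm, zH_tw J hw]
  have hA0 : C.hA (eE s g') (zH J g') ∈ Stab V := by
    have : (yW J hm g')⁻¹ ∈ Stab V := inv_mem hy1
    simpa [yW] using this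
  have hA1 : C.hA (eE s g') (zH J g' * w) ∈ Stab V := by
    have : (yW (Jtw J w) hm g')⁻¹ ∈ Stab V := inv_mem hy2
    rw [eY] at this
    simpa using this
  have hB0 : C.hB (eE s g') (zH' J g') ∈ Stab V := hx1
  have hB1 : C.hB (eE s g') (zH' J g' * w⁻¹) ∈ Stab V := by
    rw [← eX]
    exact hx2
  have hT : C.φ (eE s g') * tor w * (C.φ (eE s g'))⁻¹ ∈ Stab V := by
    have h1 := mul_mem (inv_mem hA0) hA1
    have e : (C.hA (eE s g') (zH J g'))⁻¹ * C.hA (eE s g') (zH J g' * w) =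
        C.φ (eE s g') * tor w * (C.φ (eE s g'))⁻¹ := by
      simp only [Chain.hA]
      rw [tor_mul]
      group
    rwa [e] at h1
  have hT' : C.φ (eE s g' + 1) * tor w⁻¹ * (C.φ (eE s g' + 1))⁻¹ ∈ Stab V := by
    have h1 := mul_mem (inv_mem hB0) hB1
    have e : (C.hB (eE s g') (zH' J g'))⁻¹ * C.hB (eE s g') (zH' J g' * w⁻¹) =
        C.φ (eE s g' + 1) * tor w⁻¹ * (C.φ (eE s g' + 1))⁻¹ := by
      simp only [Chain.hB]
      rw [tor_mul]
      group
    rwa [e] at h1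
  exact irr_twist V (C.φ (eE s g')) (C.φ (eE s g' + 1)) (C.φ (eE s g' + 2))
    (C.β (eE s g' + 1)).1 (C.β (eE s g' + 2)).1 (C.β _).2 (C.β _).2
    (C.step _ (by omega)) (C.step _ (by omega)) hs w w⁻¹ hwi
    (fun a b hab => hwi (by simpa using hab)) hT.1 hT'.1 (zH J g') hA0.1

end twist

/-! ### The distinguished diagonal element -/

/-- A vector of units with distinct entries and product one. -/
noncomputable def wTw (n : ℕ) : Fin (n + 2) → ℂˣ := eP (n + 2) (Units.mk0 (2 : ℂ) two_ne_zero)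

lemma wTw_prod : ∏ q, wTw n q = 1 := prod_eP _

lemma wTw_inj : Function.Injective (wTw n) := by
  intro i j h
  have h1 := congrArg (fun u : ℂˣ => (u : ℂ)) h
  simp only [wTw, eP, Units.val_div_eq_div_val, Units.val_pow_eq_pow_val, Units.val_mk0] at h1
  have h2 : (2 : ℂ) ^ (n + 2 - 1) ≠ 0 := pow_ne_zero _ two_ne_zero
  have h3 := (div_left_inj' h2).mp h1
  have h4 : ((2 : ℕ) : ℂ) ^ (2 * i.val) = ((2 : ℕ) : ℂ) ^ (2 * j.val) := by simpa using h3
  rw [← Nat.cast_pow, ← Nat.cast_pow] at h4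
  have h5 := Nat.pow_right_injective (le_refl 2) (Nat.cast_injective h4)
  apply Fin.ext
  omega

/-! ### The main input for positive genus -/

section main

variable (a : Fin (s + 2) → Fin (n + 2) → ℂ)
  (hai : ∀ j i, IsIntegral ℤ (a j i)) (hp : ∀ j, ∏ i, a j i = 1) (hm : 4 ≤ mm (s + 1) (g' + 1))

lemma sBd_Jt (t : ParIdx n (s + 1) (g' + 1) → ℂˣ) (j : ℕ) (k k' : Fin (n + 2)) :
    (sBd (Jt a hai hp t) hm j).1.1 k k' = ev t ((sBd (theInp a hai hp) hm j).1.1 k k') := by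
  rw [Jt, rsBd_map]
  rfl

lemma beta_Jt (t : ParIdx n (s + 1) (g' + 1) → ℂˣ) (i : ℕ) (k k' : Fin (n + 2)) :
    ((theChain (Jt a hai hp t) hm).β i).1.1 k k' =
      ev t (((theChain (theInp a hai hp) hm).β i).1.1 k k') := by
  rw [Jt, theChain_map]
  rfl

lemma HH_inv_Jt (t : ParIdx n (s + 1) (g' + 1) → ℂˣ) (k k' : Fin (n + 2)) :
    ((HH (Jt a hai hp t) hm)⁻¹).1.1 k k' = ev t (((HH (theInp a hai hp) hm)⁻¹).1.1 k k') := by
  rw [Jt, HH_map, ← mapB_inv]
  rfl

include hai hp in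
/-- The base normal input. -/
lemma exists_normal : ∃ J : Inp ℂ n (s + 1) (g' + 1), Normal a J :=
  ⟨Jt a hai hp (fun _ => 1), Jt_normal a hai hp _⟩

theorem hSx_pos (j : Fin (s + 1)) (q : Fin (n + 1)) :
    ∃ t : ParIdx n (s + 1) (g' + 1) → ℂˣ,
      ev t ((sBd (theInp a hai hp) hm j).1.1 q.castSucc q.succ) ≠ 0 := by
  obtain ⟨J₀, hJ₀⟩ := exists_normal a hai hp (s := s) (g' := g')
  have hm6 : 6 ≤ mm (s + 1) (g' + 1) := by
    simp only [mm]
    omega
  obtain ⟨J, hJ, hne⟩ := exists_sBd_ne hJ₀ hm6 hm j.isLt (k := q.castSucc) (k' := q.succ) rfl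
  obtain ⟨t, rfl⟩ := exists_t_of_normal a hai hp hJ
  exact ⟨t, by rwa [sBd_Jt] at hne⟩

theorem hHx_pos (q : Fin (n + 1)) :
    ∃ t : ParIdx n (s + 1) (g' + 1) → ℂˣ,
      ev t (((HH (theInp a hai hp) hm)⁻¹).1.1 q.castSucc q.succ) ≠ 0 := by
  obtain ⟨J₀, hJ₀⟩ := exists_normal a hai hp (s := s) (g' := g')
  have hm6 : 6 ≤ mm (s + 1) (g' + 1) := by
    simp only [mm]
    omega
  obtain ⟨J, hJ, hne⟩ := exists_HH_super_ne_top hm6 hm hJ₀ (k := q.castSucc) (k' := q.succ) rfl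
  obtain ⟨t, rfl⟩ := exists_t_of_normal a hai hp hJ
  refine ⟨t, ?_⟩
  rw [← HH_inv_Jt]
  exact inv_super_ne (HH _ hm).2 rfl hne

/-- The non vanishing of the functions of the invariant subspaces. -/
theorem hIrr_pos (hcont : ∀ j, ∀ i k l : Fin (n + 2), i < k → k < l → a j i = a j l → a j k = a j i)
    (I : Finset (Fin (n + 2))) (h1 : 0 < I.card) (h2 : I.card < n + 2) :
    ∃ x u v t, FF a hai hp hm ⟨s, by omega⟩ I x u v t ≠ 0 := by
  have hm6 : 6 ≤ mm (s + 1) (g' + 1) := by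
    simp only [mm]
    omega
  have he : mm (s + 1) (g' + 1) = eE (s + 1) g' + 4 := mm_succ
  have he2 : 2 ≤ eE (s + 1) g' := by
    simp only [eE]
    omega
  -- the generic point
  let h : (Fin (n + 1) ⊕ Fin (n + 1)) → (ParIdx n (s + 1) (g' + 1) → ℂˣ) → ℂ := fun l t => match l with
    | Sum.inl q => ev t ((sBd (theInp a hai hp) hm 0).1.1 q.castSucc q.succ)
    | Sum.inr q => ev t (((theChain (theInp a hai hp) hm).β (eE (s + 1) g' + 1)).1.1 q.castSucc q.succ)
  have hL : ∀ l, IsLaurentFn (h l) := by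
    rintro (q | q)
    · exact isLaurentFn_ev _
    · exact isLaurentFn_ev _
  obtain ⟨t₀, ht₀⟩ := exists_generic h hL (by
    rintro (q | q)
    · exact hSx_pos a hai hp hm ⟨0, by omega⟩ q
    · obtain ⟨J₀, hJ₀⟩ := exists_normal a hai hp (s := s) (g' := g')
      obtain ⟨J, hJ, hne⟩ := beta_super_ne hm hJ₀ (i := eE (s + 1) g' + 1) (by omega) (by omega)
        (k := q.castSucc) (k' := q.succ) rfl
      obtain ⟨t, rfl⟩ := exists_t_of_normal a hai hp hJ
      exact ⟨t, by rwa [beta_Jt] at hne⟩)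
  have hq : ∀ k k' : Fin (n + 2), k.val + 1 = k'.val → ∃ q : Fin (n + 1), q.castSucc = k ∧ q.succ = k' := by
    intro k k' hk
    have := k'.isLt
    exact ⟨⟨k.val, by omega⟩, Fin.ext rfl, Fin.ext hk⟩
  have hreg : InRegClass (a ⟨s, by omega⟩)
      (chiI a hai hp hm t₀ (Sum.inr (Sum.inr ⟨s, by omega⟩))) := by
    apply chiI_reg_spike a hai hp hm hcont t₀ ⟨s, by omega⟩ (by show s < s + 1; omega)
    intro k k' hk
    obtain ⟨q, rfl, rfl⟩ := hq k k' hk
    have e : s + 1 - 1 - (⟨s, by omega⟩ : Fin (s + 2)).val = 0 := by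
      show s + 1 - 1 - s = 0
      omega
    rw [e]
    exact ht₀ (Sum.inl q)
  -- the twisted point
  let J₀ := Jt a hai hp t₀
  have hJ₀ : Normal a J₀ := Jt_normal a hai hp t₀
  have hJ₁ : Normal a (Jtw J₀ (wTw n)) := hJ₀.fam _ (fun _ h => h.elim) _ _
  obtain ⟨t₁, ht₁⟩ := exists_t_of_normal a hai hp hJ₁
  refine exists_FF a hai hp hm ⟨s, by omega⟩ t₀ hreg {t₀, t₁} ?_ ?_ I h1 h2
  · rintro t (rfl | ht)
    · rfl
    · rw [Set.mem_singleton_iff] at ht
      subst ht
      simp only [GGt]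
      rw [chiI_val, chiI_val, ht₁]
      simp only [gensGL]
      have e : (⟨s, by omega⟩ : Fin (s + 2)).val < s + 1 := by
        show s < s + 1
        omega
      rw [if_pos e, if_pos e, sWd_tw J₀ wTw_prod hm]
  · intro V hV
    apply irr_J_twist J₀ wTw_prod hm wTw_inj
    · intro k k' hk
      obtain ⟨q, rfl, rfl⟩ := hq k k' hk
      rw [beta_Jt]
      exact ht₀ (Sum.inr q)
    · intro x v hv
      have := hV t₀ (Set.mem_insert _ _) x v hv
      simp only [GGt] at this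
      rwa [chiI_val] at this
    · intro x v hv
      have := hV t₁ (Set.mem_insert_of_mem _ rfl) x v hv
      simp only [GGt] at this
      rwa [chiI_val, ht₁] at this

end main

end Vale.Agent.Lib.P002.Surf
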