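import Mathlib
import Vale.Agent.Lib.P002.Reg.Twist

set_option linter.unusedSectionVars false
set_option linter.unusedVariables false
set_option linter.unusedSimpArgs false
set_option linter.unnecessarySeqFocus false

namespace Vale.Agent.Lib.P002.Surf

open Matrix

variable {n s₀ : ℕ}

lemma mm_zero : mm (s₀ + 2) 0 = 2 * s₀ + 4 := by
  simp only [mm]
  ring

section grp

variable {G : Type*} [Group G]

lemma grp_sW (g h w z p : G) (hw : w * w = 1) : g * h * w * w * z * p⁻¹ = g * h * (z * p⁻¹) := by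
  calc g * h * w * w * z * p⁻¹ = g * h * (w * w) * z * p⁻¹ := by group
    _ = _ := by rw [hw]; group

lemma grp_HH0 (g u u' z β z' R : G) :
    1 * ((g * u * u')⁻¹⁻¹ * z * (β⁻¹ * z' * R)) = g * (u * u' * z * β⁻¹) * z' * R := by
  group

lemma grp_YY (E u u' z b W : G) (hc : z * E = E * z) :
    (E * u * E⁻¹) * (E * u' * E⁻¹) * (z * E * E) * ((E * b * E) * (E⁻¹ * W * E))⁻¹ =
      E * (u * u' * z * (b * W)⁻¹) * E⁻¹ := by
  have h1 : z = E * z * E⁻¹ := by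
    rw [← hc]
    group
  calc (E * u * E⁻¹) * (E * u' * E⁻¹) * (z * E * E) * ((E * b * E) * (E⁻¹ * W * E))⁻¹
      = E * u * u' * (E⁻¹ * (z * E)) * W⁻¹ * b⁻¹ * E⁻¹ := by group
    _ = E * u * u' * (E⁻¹ * (E * z)) * W⁻¹ * b⁻¹ * E⁻¹ := by rw [hc]
    _ = _ := by group

lemma grp_Y2 (E u z' W b : G) :
    (E * u * E⁻¹) * z' * ((E * b * E) * W)⁻¹ = E * (u * (E⁻¹ * (z' * W⁻¹) * E⁻¹) * b⁻¹) * E⁻¹ := by
  group

lemma grp_D (g Y z R φ : G) : g * Y * z * R * (φ * R)⁻¹ = g * Y * (z * φ⁻¹) := by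
  group

end grp

/-! ### Words of the last spikes -/

section words

variable {R : Type*} [CommRing R] (I : Inp R n (s₀ + 2) 0) (hm : 4 ≤ mm (s₀ + 2) 0)

/-- The element `Y` of the last two spikes. -/
noncomputable def YY : GLr R (n + 2) :=
  (TT I (2 * s₀ + 1)).u * (TT I (2 * s₀ + 2)).u * tor (Zs I hm (s₀ + 1)) *
    (((theChain I hm).β (2 * s₀ + 2)).1)⁻¹

lemma YY_mem : YY I hm ∈ Bp R (n + 2) :=
  mul_mem (mul_mem (mul_mem (Up_le_Bp (TT I _).hu) (Up_le_Bp (TT I _).hu)) (tor_mem _))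
    (inv_mem ((theChain I hm).β _).2)

lemma YY_map {S : Type*} [CommRing S] (f : R →+* S) : YY (I.map f) hm = GLmap f (YY I hm) := by
  simp only [YY]
  rw [TT_map, TT_map, Zs_map, theChain_map]
  simp only [map_mul, map_inv, GLmap_tor]
  rfl

end words

section family

variable (J : Inp ℂ n (s₀ + 2) 0)

/-- The family scaling the triangles of the last two spikes. -/
noncomputable def Jz (ν : ℂˣ) : Inp ℂ n (s₀ + 2) 0 :=
  J.fam (fun i => i = 2 * s₀ + 1 ∨ i = 2 * s₀ + 2) (ν ^ 2)⁻¹ (fun _ _ => 1)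

lemma bhat'_Jz_same (ν : ℂˣ) {i : ℕ} (hi : i ≠ 2 * s₀ + 2) (hi' : i ≠ 2 * s₀ + 3) :
    bhat' (Jz J ν) i = bhat' J i :=
  bhat'_fam_same J _ _ _ (by omega)

variable (hs₀ : 1 ≤ s₀)

include hs₀

lemma bhat'_Jz_scale1 (ν : ℂˣ) :
    bhat' (Jz J ν) (2 * s₀ + 2) = eP (n + 2) ν * bhat' J (2 * s₀ + 2) * eP (n + 2) ν :=
  bhat'_fam_scale J _ ν _ (by
    show 2 * s₀ + 2 - 1 = 2 * s₀ + 1 ∨ _
    omega) (by omega) (by omega) (by have := mm_zero (s₀ := s₀); omega)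

lemma bhat'_Jz_scale2 (ν : ℂˣ) :
    bhat' (Jz J ν) (2 * s₀ + 3) = eP (n + 2) ν * bhat' J (2 * s₀ + 3) * eP (n + 2) ν :=
  bhat'_fam_scale J _ ν _ (by
    show _ ∨ 2 * s₀ + 3 - 1 = 2 * s₀ + 2
    omega) (by omega) (by omega) (by have := mm_zero (s₀ := s₀); omega)

omit hs₀ in
lemma aux_DD {G : Type*} [CommGroup G] (P x y e w z : G) :
    P * ((e * x * e)⁻¹ * y) * (w * (z * e * e)) = P * (x⁻¹ * y) * (w * z) := by
  simp only [mul_inv]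
  calc P * (e⁻¹ * x⁻¹ * e⁻¹ * y) * (w * (z * e * e))
      = (e⁻¹ * e) * (e⁻¹ * e) * (P * (x⁻¹ * y) * (w * z)) := by ac_rfl
    _ = _ := by simp

lemma DD_Jz (ν : ℂˣ) : DD (Jz J ν) (bhat' (Jz J ν)) = DD J (bhat' J) := by
  have ha : (Jz J ν).a = J.a := rfl
  have h1 : ∀ j ∈ Finset.range s₀, dsp (Jz J ν) (bhat' (Jz J ν)) j = dsp J (bhat' J) j := by
    intro j hj
    have hj' := Finset.mem_range.mp hj
    simp only [dsp, zS, ha]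
    rw [bhat'_Jz_same J ν (i := 2 * j + 1) (by omega) (by omega),
      bhat'_Jz_same J ν (i := 2 * j + 2) (by omega) (by omega)]
  have h2 : dsp (Jz J ν) (bhat' (Jz J ν)) s₀ = (eP (n + 2) ν * bhat' J (2 * s₀ + 2) * eP (n + 2) ν)⁻¹ *
      zS J (bhat' J) s₀ := by
    simp only [dsp, zS, ha]
    rw [bhat'_Jz_same J ν (i := 2 * s₀ + 1) (by omega) (by omega), bhat'_Jz_scale1 J hs₀]
  have h3 : dsp (Jz J ν) (bhat' (Jz J ν)) (s₀ + 1) =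
      (bhat' J (2 * (s₀ + 1) + 2))⁻¹ * (zS J (bhat' J) (s₀ + 1) * eP (n + 2) ν * eP (n + 2) ν) := by
    simp only [dsp, zS, ha]
    have e1 : 2 * (s₀ + 1) + 1 = 2 * s₀ + 3 := by ring
    rw [bhat'_Jz_same J ν (i := 2 * (s₀ + 1) + 2) (by omega) (by omega), e1, bhat'_Jz_scale2 J hs₀]
    congr 1
    simp only [mul_inv, rv_mul, rv_inv, rv_eP, inv_inv]
    ac_rfl
  simp only [DD, Finset.range_zero, Finset.prod_empty, one_mul]
  rw [Finset.prod_range_succ, Finset.prod_range_succ, Finset.prod_congr rfl h1, h2, h3,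
    Finset.prod_range_succ, Finset.prod_range_succ]
  simp only [mul_assoc]
  have h4 := aux_DD (∏ x ∈ Finset.range s₀, dsp J (bhat' J) x) (bhat' J (2 * s₀ + 2))
    (zS J (bhat' J) s₀) (eP (n + 2) ν) (bhat' J (2 * (s₀ + 1) + 2))⁻¹ (zS J (bhat' J) (s₀ + 1))
  simp only [mul_assoc] at h4
  rw [h4]
  simp only [dsp, mul_assoc]

lemma TT_Jz (ν : ℂˣ) {i : ℕ} (hi : i ≠ 2 * s₀ + 1) (hi' : i ≠ 2 * s₀ + 2) :
    TT (Jz J ν) i = TT J i := by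
  by_cases h : i = 1
  · subst h
    simp only [TT, if_true]
    apply T1_congr
    · funext l j
      simp only [Jz, Inp.fam]
      rw [if_neg]
      rintro ⟨h, -⟩
      omega
    · simp only [tauV]
      rw [DD_Jz J hs₀]
      rfl
  · rw [TT_ne_one _ h, TT_ne_one _ h]
    exact T2_fam_same J _ _ _ (by omega)

lemma TT_Jz_scale (ν : ℂˣ) {i : ℕ} (hi : i = 2 * s₀ + 1 ∨ i = 2 * s₀ + 2) :
    (TT (Jz J ν) i).u = EE (n + 2) ν * (TT J i).u * (EE (n + 2) ν)⁻¹ ∧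
    (TT (Jz J ν) i).h = EE (n + 2) ν * (TT J i).h * (EE (n + 2) ν)⁻¹ ∧
    (TT (Jz J ν) i).b = EE (n + 2) ν * (TT J i).b * EE (n + 2) ν := by
  have h1 : i ≠ 1 := by omega
  have h2 : i ≠ 2 := by omega
  rw [TT_ne_one _ h1, TT_ne_one _ h1]
  exact T2_fam_scale J _ ν _ hi h2

variable (hm : 4 ≤ mm (s₀ + 2) 0)

omit hs₀ in
lemma Zs_eq (I : Inp ℂ n (s₀ + 2) 0) {j : ℕ} (hj : 2 * j + 1 ≤ 2 * s₀ + 4) :
    Zs I hm j = rv (I.a (s₀ + 2 - 1 - j) * (bhat' I (2 * j + 1))⁻¹) := by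
  simp only [Zs, zS]
  rw [bhat_eq_bhat' I hm _ (by omega) (by omega) (by rw [mm_zero]; exact hj)]

lemma Zs_Jz_low (ν : ℂˣ) : Zs (Jz J ν) hm s₀ = Zs J hm s₀ := by
  rw [Zs_eq hm (Jz J ν) (by omega), Zs_eq hm J (by omega), bhat'_Jz_same J ν (by omega) (by omega)]
  rfl

lemma Zs_Jz_top (ν : ℂˣ) :
    Zs (Jz J ν) hm (s₀ + 1) = Zs J hm (s₀ + 1) * eP (n + 2) ν * eP (n + 2) ν := by
  rw [Zs_eq hm (Jz J ν) (by omega), Zs_eq hm J (by omega)]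
  have e1 : 2 * (s₀ + 1) + 1 = 2 * s₀ + 3 := by ring
  rw [e1, bhat'_Jz_scale2 J hs₀]
  have ha : (Jz J ν).a = J.a := rfl
  rw [ha]
  simp only [mul_inv, rv_mul, rv_inv, rv_eP, inv_inv]
  ac_rfl

lemma TT_Jz_low (ν : ℂˣ) {i : ℕ} (hi : i ≤ 2 * s₀) : TT (Jz J ν) i = TT J i :=
  TT_Jz J hs₀ ν (by omega) (by omega)

lemma GG_Jz (ν : ℂˣ) : (theFan (Jz J ν) hm).GG (2 * s₀ + 1) = (theFan J hm).GG (2 * s₀ + 1) :=
  GG_congr hm _ (fun i h1 h2 => by rw [TT_Jz_low J hs₀ ν (by omega)])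

lemma phi_Jz (ν : ℂˣ) : (theChain (Jz J ν) hm).φ (2 * s₀) = (theChain J hm).φ (2 * s₀) := by
  apply phi_congr hm (x₀ := 2 * s₀) (by have := mm_zero (s₀ := s₀); omega)
    (fun i h1 h2 => TT_Jz_low J hs₀ ν h2) le_rfl

lemma sQd_Jz_low (ν : ℂˣ) : prodDown (sQd (Jz J ν) hm) s₀ = prodDown (sQd J hm) s₀ := by
  apply prodDown_congr
  intro j hj
  have ha : (Jz J ν).a = J.a := rfl
  exact sQd_congr (J := J) (J' := Jz J ν) hm (x₀ := 2 * s₀) (by have := mm_zero (s₀ := s₀); omega) ha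
    (fun i h1 h2 => TT_Jz_low J hs₀ ν h2) (by omega)

lemma sWd_Jz_zero (ν : ℂˣ) : sWd (Jz J ν) hm 0 = sWd J hm 0 := by
  have ha : (Jz J ν).a = J.a := rfl
  exact sWd_congr (J := J) (J' := Jz J ν) hm (x₀ := 2 * s₀) (by have := mm_zero (s₀ := s₀); omega) ha
    (fun i h1 h2 => TT_Jz_low J hs₀ ν h2) (by omega)

lemma sWd_Jz_lt (ν : ℂˣ) {j : ℕ} (hj : j < s₀) : sWd (Jz J ν) hm j = sWd J hm j := by
  have ha : (Jz J ν).a = J.a := rfl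
  exact sWd_congr (J := J) (J' := Jz J ν) hm (x₀ := 2 * s₀) (by have := mm_zero (s₀ := s₀); omega) ha
    (fun i h1 h2 => TT_Jz_low J hs₀ ν h2) (by omega)

/-- The transition in the family. -/
lemma beta_Jz (ν : ℂˣ) : ((theChain (Jz J ν) hm).β (2 * s₀ + 2)).1 =
    (EE (n + 2) ν * (TT J (2 * s₀ + 1)).b * EE (n + 2) ν) *
      ((EE (n + 2) ν)⁻¹ * (w0 * (TT J (2 * s₀ + 2)).h * w0) * EE (n + 2) ν) := by
  rw [chain_beta_mid _ hm (by omega) (by have := mm_zero (s₀ := s₀); omega)]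
  have e : 2 * s₀ + 2 - 1 = 2 * s₀ + 1 := by omega
  rw [e, (TT_Jz_scale J hs₀ ν (Or.inl rfl)).2.2, (TT_Jz_scale J hs₀ ν (Or.inr rfl)).2.1,
    grp_conj_w (w0 : GLr ℂ (n + 2)) (EE (n + 2) ν) (TT J (2 * s₀ + 2)).h w0_mul_w0 (w0_EE_w0 ν)]

/-- The element `Y` in the family. -/
lemma YY_Jz (ν : ℂˣ) : YY (Jz J ν) hm = EE (n + 2) ν * YY J hm * (EE (n + 2) ν)⁻¹ := by
  simp only [YY]
  rw [beta_Jz J hs₀ hm, (TT_Jz_scale J hs₀ ν (Or.inl rfl)).1, (TT_Jz_scale J hs₀ ν (Or.inr rfl)).1,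
    Zs_Jz_top J hs₀ hm, tor_mul, tor_mul, chain_beta_mid J hm (by omega) (by have := mm_zero (s₀ := s₀); omega)]
  have e : 2 * s₀ + 2 - 1 = 2 * s₀ + 1 := by omega
  rw [e]
  exact grp_YY _ _ _ _ _ _ (tor_comm _ _)

end family

section forms

variable (J : Inp ℂ n (s₀ + 2) 0) (hm : 4 ≤ mm (s₀ + 2) 0)

/-- The word of the next to last spike. -/
lemma sWd_form : sWd J hm s₀ = (theFan J hm).GG (2 * s₀ + 1) * (TT J (2 * s₀ + 1)).h *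
    (tor (Zs J hm s₀) * ((theChain J hm).φ (2 * s₀))⁻¹) := by
  simp only [sWd, Chain.sW]
  rw [chain_phi_mid _ hm (by omega) (by have := mm_zero (s₀ := s₀); omega)]
  exact grp_sW _ _ _ _ _ w0_mul_w0

/-- The base word. -/
lemma HH_form : (HH J hm).1 = (theFan J hm).GG (2 * s₀ + 1) * YY J hm * tor (Zs J hm s₀) *
    (prodDown (sQd J hm) s₀).1 := by
  have e1 : 2 * (s₀ + 1) + 2 = mm (s₀ + 2) 0 := by
    rw [mm_zero]
    ring
  have h1 : ((theChain J hm).β (2 * (s₀ + 1) + 2)).1 =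
      ((theFan J hm).GG (2 * s₀ + 1) * (TT J (2 * s₀ + 1)).u * (TT J (2 * s₀ + 2)).u)⁻¹ := by
    rw [e1, chain_beta_last]
    have e2 : mm (s₀ + 2) 0 - 1 = (2 * s₀ + 1) + 2 := by
      rw [mm_zero]
      omega
    rw [e2, GG_succ]
    have e3 : 2 * s₀ + 1 + 1 = 2 * s₀ + 2 := rfl
    rw [e3]
    have h2 : (theFan J hm).GG (2 * s₀ + 2) =
        (theFan J hm).GG (2 * s₀ + 1) * (TT J (2 * s₀ + 1)).u := GG_succ J hm (2 * s₀)
    rw [h2]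
  simp only [HH, prodDown, Subgroup.coe_mul, sQd, Chain.sQ]
  show 1 * ((((theChain J hm).β (2 * (s₀ + 1) + 2)).1)⁻¹ * tor (Zs J hm (s₀ + 1)) *
    (((theChain J hm).β (2 * s₀ + 2)).1⁻¹ * tor (Zs J hm s₀) * (prodDown (sQd J hm) s₀).1)) = _
  rw [h1]
  exact grp_HH0 _ _ _ _ _ _ _

/-- The product of the first spikes. -/
lemma prodDown_sWd_low : prodDown (sWd J hm) s₀ = (theChain J hm).φ (2 * s₀) * (prodDown (sQd J hm) s₀).1 := by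
  have h1 := prodDown_telescope (sWd J hm) (fun j => (sQd J hm j).1)
    (fun j => (theChain J hm).φ (2 * j)) s₀ (fun j hj => by
      rw [sWd_word J hm j (by omega)]
      rfl)
  have h2 : prodDown (fun j => ((sQd J hm j).1 : GLr ℂ (n + 2))) s₀ = (prodDown (sQd J hm) s₀).1 :=
    (prodDown_map (Bp ℂ (n + 2)).subtype (sQd J hm) s₀).symm
  rw [h1, h2]
  simp [(theChain J hm).start]

/-- The factor of the base word without the first spikes. -/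
lemma HH_mul_inv : (HH J hm).1 * (prodDown (sWd J hm) s₀)⁻¹ =
    (theFan J hm).GG (2 * s₀ + 1) * YY J hm * (tor (Zs J hm s₀) * ((theChain J hm).φ (2 * s₀))⁻¹) := by
  rw [HH_form, prodDown_sWd_low]
  exact grp_D _ _ _ _ _

end forms

section invariant

variable (J : Inp ℂ n (s₀ + 2) 0) (hs₀ : 1 ≤ s₀) (hm : 4 ≤ mm (s₀ + 2) 0)

include hs₀

/-- Invariant subspaces along the family. -/
theorem irr_J_zero
    (hsub : ∀ k k' : Fin (n + 2), k'.val + 1 = k.val → (TT J (2 * s₀ + 1)).h.1 k k' ≠ 0)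
    (hsup : ∀ k k' : Fin (n + 2), k.val + 1 = k'.val → (YY J hm).1 k k' ≠ 0)
    (V : Submodule ℂ (Fin (n + 2) → ℂ))
    (hV : ∀ ν : ℂˣ, ∀ x, ∀ v ∈ V, (gensGL (Jz J ν) hm x).1 *ᵥ v ∈ V) : V = ⊥ ∨ V = ⊤ := by
  -- the spikes and the base word in the stabiliser
  have hS : ∀ ν : ℂˣ, ∀ j, j < s₀ + 2 → sWd (Jz J ν) hm j ∈ Stab V := by
    intro ν j hj
    apply mem_Stab
    have := hV ν (Sum.inr (Sum.inr ⟨s₀ + 2 - 1 - j, by omega⟩))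
    simp only [gensGL] at this
    rw [if_pos (by show s₀ + 2 - 1 - j < s₀ + 2; omega)] at this
    have e : s₀ + 2 - 1 - (s₀ + 2 - 1 - j) = j := by omega
    rwa [show s₀ + 2 - 1 - (⟨s₀ + 2 - 1 - j, by omega⟩ : Fin (s₀ + 2 + 1)).val = j from e] at this
  have hH : ∀ ν : ℂˣ, (HH (Jz J ν) hm).1 ∈ Stab V := by
    intro ν
    have h1 : (((HH (Jz J ν) hm)⁻¹ : Bp ℂ (n + 2)).1) ∈ Stab V := by
      apply mem_Stab
      have := hV ν (Sum.inr (Sum.inr ⟨s₀ + 2, by omega⟩))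
      simp only [gensGL] at this
      rw [if_neg (by show ¬ (s₀ + 2 < s₀ + 2); omega)] at this
      exact this
    exact (by simpa using inv_mem h1)
  have hP : ∀ ν : ℂˣ, prodDown (sWd (Jz J ν) hm) s₀ ∈ Stab V := by
    intro ν
    have : ∀ k, k ≤ s₀ → prodDown (sWd (Jz J ν) hm) k ∈ Stab V := by
      intro k
      induction k with
      | zero => exact fun _ => one_mem _
      | succ k ih =>
        intro hk
        exact mul_mem (hS ν k (by omega)) (ih (by omega))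
    exact this s₀ le_rfl
  apply irr_graded V ((theFan J hm).GG (2 * s₀ + 1))
    (tor (Zs J hm s₀) * ((theChain J hm).φ (2 * s₀))⁻¹) (TT J (2 * s₀ + 1)).h (YY J hm)
    (TT J _).hh.2 (inv_mem (TT J _).hh).2 hsub hsup
  · intro ν v hv
    have h1 := (hS ν s₀ (by omega)).1 v hv
    rw [sWd_form, GG_Jz J hs₀ hm, (TT_Jz_scale J hs₀ ν (Or.inl rfl)).2.1, Zs_Jz_low J hs₀ hm,
      phi_Jz J hs₀ hm] at h1
    exact h1
  · intro ν v hv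
    have h1 := (mul_mem (hH ν) (inv_mem (hP ν))).1 v hv
    rw [HH_mul_inv, GG_Jz J hs₀ hm, YY_Jz J hs₀ hm, Zs_Jz_low J hs₀ hm, phi_Jz J hs₀ hm] at h1
    exact h1

end invariant

/-! ### The element `Y` does not vanish on the superdiagonal -/

lemma EE_sym_apply {r : ℕ} (ν : ℂˣ) (X : GLr ℂ r) (x y : Fin r) :
    ((EE r ν)⁻¹ * X * (EE r ν)⁻¹).1 x y = (pP r ν x)⁻¹ * X.1 x y * (pP r ν y)⁻¹ := by
  have h1 : (EE r ν)⁻¹ = tor (eP r ν)⁻¹ := by rw [EE, tor_inv]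
  rw [h1]
  show (Matrix.diagonal (fun i => (((eP r ν)⁻¹ i : ℂˣ) : ℂ)) * X.1 *
    Matrix.diagonal (fun i => (((eP r ν)⁻¹ i : ℂˣ) : ℂ))) x y = _
  rw [Matrix.mul_diagonal, Matrix.diagonal_mul, pP_eP, pP_eP]
  simp

lemma grp_Y3 {G : Type*} [Group G] (E u u' z W b : G) :
    (E * u * E⁻¹) * u' * z * ((E * b * E) * W)⁻¹ =
      E * (u * (E⁻¹ * (u' * z * W⁻¹) * E⁻¹) * b⁻¹) * E⁻¹ := by
  group

/-- Scaling one triangle. -/
noncomputable def Ja (J : Inp ℂ n (s₀ + 2) 0) (ν : ℂˣ) : Inp ℂ n (s₀ + 2) 0 :=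
  J.fam (fun i => i = 2 * s₀ + 1) (ν ^ 2)⁻¹ (fun _ _ => 1)

section nonvanishing

variable (hs₀ : 1 ≤ s₀) (hm : 4 ≤ mm (s₀ + 2) 0) (J : Inp ℂ n (s₀ + 2) 0)

include hs₀

/-- The top part of `Y`. -/
noncomputable def Y0 (J : Inp ℂ n (s₀ + 2) 0) (hm : 4 ≤ mm (s₀ + 2) 0) : GLr ℂ (n + 2) :=
  (TT J (2 * s₀ + 2)).u * tor (Zs J hm (s₀ + 1)) * (w0 * (TT J (2 * s₀ + 2)).h * w0)⁻¹

omit hs₀ in
lemma Y0_mem : Y0 J hm ∈ Bp ℂ (n + 2) :=
  mul_mem (mul_mem (Up_le_Bp (TT J _).hu) (tor_mem _)) (inv_mem (Up_le_Bp (w0_conj_Um (TT J _).hh)))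

lemma YY_Ja (ν : ℂˣ) : YY (Ja J ν) hm = EE (n + 2) ν *
    ((TT J (2 * s₀ + 1)).u * ((EE (n + 2) ν)⁻¹ * Y0 J hm * (EE (n + 2) ν)⁻¹) *
      ((TT J (2 * s₀ + 1)).b)⁻¹) * (EE (n + 2) ν)⁻¹ := by
  have h1 : TT (Ja J ν) (2 * s₀ + 2) = TT J (2 * s₀ + 2) := by
    rw [TT_ne_one _ (by omega), TT_ne_one _ (by omega)]
    exact T2_fam_same J _ _ _ (by omega)
  have h2 : (T2 (Ja J ν) (2 * s₀ + 1)).u = _ ∧ (T2 (Ja J ν) (2 * s₀ + 1)).h = _ ∧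
      (T2 (Ja J ν) (2 * s₀ + 1)).b = _ :=
    T2_fam_scale J (fun i => i = 2 * s₀ + 1) ν (fun _ _ => 1) (i := 2 * s₀ + 1) rfl (by omega)
  have h3 : TT (Ja J ν) (2 * s₀ + 1) = T2 (Ja J ν) (2 * s₀ + 1) := TT_ne_one _ (by omega)
  have h4 : TT J (2 * s₀ + 1) = T2 J (2 * s₀ + 1) := TT_ne_one _ (by omega)
  have hZ : Zs (Ja J ν) hm (s₀ + 1) = Zs J hm (s₀ + 1) := by
    rw [Zs_eq hm (Ja J ν) (by omega), Zs_eq hm J (by omega)]
    have e1 : 2 * (s₀ + 1) + 1 = 2 * s₀ + 3 := by ring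
    rw [e1]
    have h5 : bhat' (Ja J ν) (2 * s₀ + 3) = bhat' J (2 * s₀ + 3) :=
      bhat'_fam_same J _ _ _ (by omega)
    rw [h5]
    rfl
  simp only [YY, Y0]
  rw [chain_beta_mid _ hm (by omega) (by have := mm_zero (s₀ := s₀); omega)]
  have e : 2 * s₀ + 2 - 1 = 2 * s₀ + 1 := by omega
  rw [e, h1, hZ, h3, h4, h2.1, h2.2.2]
  exact grp_Y3 _ _ _ _ _ _

/-- The formula for the entries along the scaling. -/
lemma YY_Ja_entry {k k' : Fin (n + 2)} (h : k.val + 1 = k'.val) (ν : ℂˣ) :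
    (YY (Ja J ν) hm).1 k k' = ((ν : ℂ) ^ 2)⁻¹ * ((pP (n + 2) ν k)⁻¹ * (pP (n + 2) ν k)⁻¹) *
      ((Y0 J hm).1 k k * ((TT J (2 * s₀ + 1)).b⁻¹).1 k k' +
        ((ν : ℂ) ^ 2)⁻¹ * ((Y0 J hm).1 k k' * ((TT J (2 * s₀ + 1)).b⁻¹).1 k' k') +
        ((ν : ℂ) ^ 2)⁻¹ * ((ν : ℂ) ^ 2)⁻¹ * ((TT J (2 * s₀ + 1)).u.1 k k' * ((Y0 J hm).1 k' k' *
          ((TT J (2 * s₀ + 1)).b⁻¹).1 k' k'))) := by
  have hM : ((EE (n + 2) ν)⁻¹ * Y0 J hm * (EE (n + 2) ν)⁻¹) ∈ Bp ℂ (n + 2) :=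
    mul_mem (mul_mem (inv_mem (tor_mem _)) (Y0_mem hm J)) (inv_mem (tor_mem _))
  have hu : (TT J (2 * s₀ + 1)).u ∈ Up ℂ (n + 2) := (TT J _).hu
  have hb : ((TT J (2 * s₀ + 1)).b)⁻¹ ∈ Bp ℂ (n + 2) := inv_mem (TT J _).hb
  rw [YY_Ja hs₀ hm J, EE_conj_super _ _ _ _ h]
  show _ * (((TT J (2 * s₀ + 1)).u.1 * ((EE (n + 2) ν)⁻¹ * Y0 J hm * (EE (n + 2) ν)⁻¹).1) *
    (((TT J (2 * s₀ + 1)).b)⁻¹).1) k k' = _
  have hUT : UT ((TT J (2 * s₀ + 1)).u.1 * ((EE (n + 2) ν)⁻¹ * Y0 J hm * (EE (n + 2) ν)⁻¹).1) :=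
    UT.mul hu.1 hM
  rw [sup_mul hUT hb h, sup_mul hu.1 hM h, UT.mul_diag hu.1 hM, hu.2 k, EE_sym_apply, EE_sym_apply,
    EE_sym_apply]
  have h5 : (pP (n + 2) ν k'.val)⁻¹ = ((ν : ℂ) ^ 2)⁻¹ * (pP (n + 2) ν k.val)⁻¹ := by
    rw [← h, ← pP_ratio (r := n + 2) ν k.val]
    have h6 := pP_ne (r := n + 2) ν k.val
    field_simp
  rw [h5]
  ring

/-- From a non zero entry of the unitriangular factor to a non zero entry of `Y`. -/
lemma exists_YY_ne_of_u {k k' : Fin (n + 2)} (h : k.val + 1 = k'.val)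
    (hu : (TT J (2 * s₀ + 1)).u.1 k k' ≠ 0) : ∃ ν : ℂˣ, (YY (Ja J ν) hm).1 k k' ≠ 0 := by
  by_contra hcon
  simp only [not_exists, not_not] at hcon
  set x := (Y0 J hm).1 k k * ((TT J (2 * s₀ + 1)).b⁻¹).1 k k' with hx
  set y := (Y0 J hm).1 k k' * ((TT J (2 * s₀ + 1)).b⁻¹).1 k' k' with hy
  set z := (TT J (2 * s₀ + 1)).u.1 k k' * ((Y0 J hm).1 k' k' * ((TT J (2 * s₀ + 1)).b⁻¹).1 k' k') with hz
  have hz0 : z ≠ 0 := mul_ne_zero hu (mul_ne_zero (Bp_diag_ne (Y0_mem hm J) k')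
    (Bp_diag_ne (inv_mem (TT J _).hb) k'))
  have key : ∀ ν : ℂˣ, x + ((ν : ℂ) ^ 2)⁻¹ * y + ((ν : ℂ) ^ 2)⁻¹ * ((ν : ℂ) ^ 2)⁻¹ * z = 0 := by
    intro ν
    have h1 := hcon ν
    rw [YY_Ja_entry hs₀ hm J h ν] at h1
    have h2 : ((ν : ℂ) ^ 2)⁻¹ * ((pP (n + 2) ν k)⁻¹ * (pP (n + 2) ν k)⁻¹) ≠ 0 :=
      mul_ne_zero (inv_ne_zero (pow_ne_zero _ ν.ne_zero))
        (mul_ne_zero (inv_ne_zero (pP_ne ν _)) (inv_ne_zero (pP_ne ν _)))
    exact (mul_eq_zero.mp h1).resolve_left h2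
  have e1 := key 1
  have e2 := key (Units.mk0 (2 : ℂ) two_ne_zero)
  have e3 := key (Units.mk0 (3 : ℂ) (by norm_num))
  simp only [Units.val_one, Units.val_mk0] at e1 e2 e3
  apply hz0
  norm_num at e1 e2 e3
  linear_combination (3 / 2 : ℂ) * e1 - (48 / 5 : ℂ) * e2 + (81 / 10 : ℂ) * e3

/-- For a normal input with a non zero entry of the unitriangular factor. -/
theorem exists_YY_ne {a : Fin (s₀ + 2 + 1) → Fin (n + 2) → ℂ} {J₀ : Inp ℂ n (s₀ + 2) 0}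
    (hJ₀ : Normal a J₀) {k k' : Fin (n + 2)} (h : k.val + 1 = k'.val) :
    ∃ J, Normal a J ∧ (YY J hm).1 k k' ≠ 0 := by
  have hk := k.isLt
  have hk' := k'.isLt
  have hme := mm_zero (s₀ := s₀)
  let J' := J₀.setT (2 * s₀ + 1) (fun _ _ => 1)
  have hJ' : Normal a J' := hJ₀.setT _ ⟨by omega, by omega⟩ _
  have hu : (TT J' (2 * s₀ + 1)).u.1 k k' ≠ 0 := by
    have e0 : (TT J' (2 * s₀ + 1)).u.1 k k' = (1 : ℂˣ) * ((n + 1 - k.val : ℕ) : ℂ) := by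
      rw [TT_ne_one _ (by omega), T2_u_of J' _ (fun _ _ => 1)
        (fun l j h1 h2 => cOf_setT_self J₀ _ _ (by omega) h1 h2), UcG_val]
      have e1 : k'.val = k.val + 1 := h.symm
      simp only [UcM, Matrix.of_apply, e1]
      have e2 := Uc_const_super ((1 : ℂˣ) : ℂ) k.val (n + 1 - k.val)
      have e3 : k.val + (n + 1 - k.val) = n + 1 := by omega
      rw [e3] at e2
      exact e2
    rw [e0]
    apply mul_ne_zero (Units.ne_zero _)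
    exact_mod_cast (by omega : n + 1 - k.val ≠ 0)
  obtain ⟨ν, hν⟩ := exists_YY_ne_of_u hs₀ hm J' h hu
  exact ⟨Ja J' ν, hJ'.fam _ (fun i hi => ⟨by omega, by omega⟩) _ _, hν⟩

/-- The base word along the family. -/
lemma HH_Jz_entry {k k' : Fin (n + 2)} (h : k.val + 1 = k'.val) :
    ∃ A : ℂ, ∀ ν : ℂˣ, (HH (Jz J ν) hm).1.1 k k' = A +
      ((ν : ℂ) ^ 2)⁻¹ * ((YY J hm).1 k k' * (tor (Zs J hm s₀) * (prodDown (sQd J hm) s₀).1).1 k' k') := by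
  have hG : (theFan J hm).GG (2 * s₀ + 1) ∈ Up ℂ (n + 2) := (theFan J hm).GG_mem _
  have hQ : (tor (Zs J hm s₀) * (prodDown (sQd J hm) s₀).1) ∈ Bp ℂ (n + 2) :=
    mul_mem (tor_mem _) (prodDown (sQd J hm) s₀).2
  have hX : ∀ ν : ℂˣ, UT (EE (n + 2) ν * YY J hm * (EE (n + 2) ν)⁻¹).1 := fun ν =>
    mul_mem (mul_mem (tor_mem _) (YY_mem J hm)) (inv_mem (tor_mem _))
  refine ⟨(YY J hm).1 k k * (tor (Zs J hm s₀) * (prodDown (sQd J hm) s₀).1).1 k k' +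
    ((theFan J hm).GG (2 * s₀ + 1)).1 k k' * ((YY J hm).1 k' k' *
      (tor (Zs J hm s₀) * (prodDown (sQd J hm) s₀).1).1 k' k'), fun ν => ?_⟩
  have e : (HH (Jz J ν) hm).1.1 k k' = (((theFan J hm).GG (2 * s₀ + 1)).1 *
      (EE (n + 2) ν * YY J hm * (EE (n + 2) ν)⁻¹).1 *
      (tor (Zs J hm s₀) * (prodDown (sQd J hm) s₀).1).1) k k' := by
    rw [HH_form, GG_Jz J hs₀ hm, YY_Jz J hs₀ hm, Zs_Jz_low J hs₀ hm, sQd_Jz_low J hs₀ hm]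
    show ((((theFan J hm).GG (2 * s₀ + 1)).1 * (EE (n + 2) ν * YY J hm * (EE (n + 2) ν)⁻¹).1 *
      (tor (Zs J hm s₀)).1) * (prodDown (sQd J hm) s₀).1.1) k k' = _
    rw [Matrix.mul_assoc _ (tor (Zs J hm s₀)).1]
    rfl
  rw [e, sup_mul (UT.mul hG.1 (hX ν)) hQ h, sup_mul hG.1 (hX ν) h, UT.mul_diag hG.1 (hX ν),
    EE_conj_super _ _ _ _ h, EE_conj_diag, EE_conj_diag, hG.2 k]
  ring

/-- The base word is not zero on the superdiagonal for a suitable input. -/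
theorem exists_HH_super_ne_zero {a : Fin (s₀ + 2 + 1) → Fin (n + 2) → ℂ} {J₀ : Inp ℂ n (s₀ + 2) 0}
    (hJ₀ : Normal a J₀) {k k' : Fin (n + 2)} (h : k.val + 1 = k'.val) :
    ∃ J, Normal a J ∧ (HH J hm).1.1 k k' ≠ 0 := by
  have hme := mm_zero (s₀ := s₀)
  obtain ⟨J, hJ, hne⟩ := exists_YY_ne hs₀ hm hJ₀ h
  obtain ⟨A, hA⟩ := HH_Jz_entry hs₀ hm J h
  have hQ : (tor (Zs J hm s₀) * (prodDown (sQd J hm) s₀).1) ∈ Bp ℂ (n + 2) :=
    mul_mem (tor_mem _) (prodDown (sQd J hm) s₀).2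
  have hc : (YY J hm).1 k k' * (tor (Zs J hm s₀) * (prodDown (sQd J hm) s₀).1).1 k' k' ≠ 0 :=
    mul_ne_zero hne (Bp_diag_ne hQ k')
  have hN : ∀ ν : ℂˣ, Normal a (Jz J ν) := fun ν => hJ.fam _ (fun i hi => ⟨by omega, by omega⟩) _ _
  by_contra hcon
  simp only [not_exists, not_and, not_not] at hcon
  have e1 := hcon _ (hN 1)
  have e2 := hcon _ (hN (Units.mk0 (2 : ℂ) two_ne_zero))
  rw [hA] at e1 e2
  simp only [Units.val_one, Units.val_mk0] at e1 e2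
  apply hc
  norm_num at e1 e2
  linear_combination (4 / 3 : ℂ) * e1 - (4 / 3 : ℂ) * e2

end nonvanishing

/-! ### The main input for genus zero -/

section main

variable (a : Fin (s₀ + 2 + 1) → Fin (n + 2) → ℂ)
  (hai : ∀ j i, IsIntegral ℤ (a j i)) (hp : ∀ j, ∏ i, a j i = 1) (hm : 4 ≤ mm (s₀ + 2) 0)

lemma sBd_Jt0 (t : ParIdx n (s₀ + 2) 0 → ℂˣ) (j : ℕ) (k k' : Fin (n + 2)) :
    (sBd (Jt a hai hp t) hm j).1.1 k k' = ev t ((sBd (theInp a hai hp) hm j).1.1 k k') := by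
  rw [Jt, rsBd_map]
  rfl

lemma HH_inv_Jt0 (t : ParIdx n (s₀ + 2) 0 → ℂˣ) (k k' : Fin (n + 2)) :
    ((HH (Jt a hai hp t) hm)⁻¹).1.1 k k' = ev t (((HH (theInp a hai hp) hm)⁻¹).1.1 k k') := by
  rw [Jt, HH_map, ← mapB_inv]
  rfl

lemma h_Jt0 (t : ParIdx n (s₀ + 2) 0 → ℂˣ) (i : ℕ) (k k' : Fin (n + 2)) :
    (TT (Jt a hai hp t) i).h.1 k k' = ev t ((TT (theInp a hai hp) i).h.1 k k') := by
  rw [Jt, TT_map]
  rfl

lemma YY_Jt0 (t : ParIdx n (s₀ + 2) 0 → ℂˣ) (k k' : Fin (n + 2)) :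
    (YY (Jt a hai hp t) hm).1 k k' = ev t ((YY (theInp a hai hp) hm).1 k k') := by
  rw [Jt, YY_map]
  rfl

variable (hs₀ : 1 ≤ s₀)

include hs₀

theorem hSx_zero (j : Fin (s₀ + 2)) (q : Fin (n + 1)) :
    ∃ t : ParIdx n (s₀ + 2) 0 → ℂˣ,
      ev t ((sBd (theInp a hai hp) hm j).1.1 q.castSucc q.succ) ≠ 0 := by
  have hme := mm_zero (s₀ := s₀)
  obtain ⟨J, hJ, hne⟩ := exists_sBd_ne (Jt_normal a hai hp (fun _ => 1)) (by omega) hm j.isLt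
    (k := q.castSucc) (k' := q.succ) rfl
  obtain ⟨t, rfl⟩ := exists_t_of_normal a hai hp hJ
  exact ⟨t, by rwa [sBd_Jt0] at hne⟩

theorem hHx_zero (q : Fin (n + 1)) :
    ∃ t : ParIdx n (s₀ + 2) 0 → ℂˣ,
      ev t (((HH (theInp a hai hp) hm)⁻¹).1.1 q.castSucc q.succ) ≠ 0 := by
  obtain ⟨J, hJ, hne⟩ := exists_HH_super_ne_zero hs₀ hm (Jt_normal a hai hp (fun _ => 1))
    (k := q.castSucc) (k' := q.succ) rfl
  obtain ⟨t, rfl⟩ := exists_t_of_normal a hai hp hJ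
  refine ⟨t, ?_⟩
  rw [← HH_inv_Jt0]
  exact inv_super_ne (HH _ hm).2 rfl hne

/-- The non vanishing of the functions of the invariant subspaces. -/
theorem hIrr_zero (hcont : ∀ j, ∀ i k l : Fin (n + 2), i < k → k < l → a j i = a j l → a j k = a j i)
    (I : Finset (Fin (n + 2))) (h1 : 0 < I.card) (h2 : I.card < n + 2) :
    ∃ x u v t, FF a hai hp hm ⟨s₀ + 1, by omega⟩ I x u v t ≠ 0 := by
  have hme := mm_zero (s₀ := s₀)
  -- the generic point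
  let h : (Fin (n + 1) ⊕ Fin (n + 1) ⊕ Fin (n + 1)) → (ParIdx n (s₀ + 2) 0 → ℂˣ) → ℂ := fun l t => match l with
    | Sum.inl q => ev t ((sBd (theInp a hai hp) hm 0).1.1 q.castSucc q.succ)
    | Sum.inr (Sum.inl q) => ev t ((TT (theInp a hai hp) (2 * s₀ + 1)).h.1 q.succ q.castSucc)
    | Sum.inr (Sum.inr q) => ev t ((YY (theInp a hai hp) hm).1 q.castSucc q.succ)
  have hL : ∀ l, IsLaurentFn (h l) := by
    rintro (q | q | q)
    · exact isLaurentFn_ev _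
    · exact isLaurentFn_ev _
    · exact isLaurentFn_ev _
  obtain ⟨t₀, ht₀⟩ := exists_generic h hL (by
    rintro (q | q | q)
    · exact hSx_zero a hai hp hm hs₀ ⟨0, by omega⟩ q
    · obtain ⟨J, hJ, hne⟩ := h_sub_ne (Jt_normal (g := 0) a hai hp (fun _ => 1)) (i := 2 * s₀ + 1) (by omega)
        (by omega) (k := q.succ) (k' := q.castSucc) rfl
      obtain ⟨t, rfl⟩ := exists_t_of_normal a hai hp hJ
      exact ⟨t, by rwa [h_Jt0] at hne⟩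
    · obtain ⟨J, hJ, hne⟩ := exists_YY_ne hs₀ hm (Jt_normal a hai hp (fun _ => 1))
        (k := q.castSucc) (k' := q.succ) rfl
      obtain ⟨t, rfl⟩ := exists_t_of_normal a hai hp hJ
      exact ⟨t, by rwa [YY_Jt0] at hne⟩)
  have hq : ∀ k k' : Fin (n + 2), k.val + 1 = k'.val → ∃ q : Fin (n + 1), q.castSucc = k ∧ q.succ = k' := by
    intro k k' hk
    have := k'.isLt
    exact ⟨⟨k.val, by omega⟩, Fin.ext rfl, Fin.ext hk⟩
  have hreg : InRegClass (a ⟨s₀ + 1, by omega⟩)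
      (chiI a hai hp hm t₀ (Sum.inr (Sum.inr ⟨s₀ + 1, by omega⟩))) := by
    apply chiI_reg_spike a hai hp hm hcont t₀ ⟨s₀ + 1, by omega⟩ (by show s₀ + 1 < s₀ + 2; omega)
    intro k k' hk
    obtain ⟨q, rfl, rfl⟩ := hq k k' hk
    have e : s₀ + 2 - 1 - (⟨s₀ + 1, by omega⟩ : Fin (s₀ + 2 + 1)).val = 0 := by
      show s₀ + 2 - 1 - (s₀ + 1) = 0
      omega
    rw [e]
    exact ht₀ (Sum.inl q)
  -- the family
  let J₀ := Jt a hai hp t₀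
  have hJ₀ : Normal a J₀ := Jt_normal a hai hp t₀
  have hJν : ∀ ν : ℂˣ, Normal a (Jz J₀ ν) := fun ν => hJ₀.fam _ (fun i hi => ⟨by omega, by omega⟩) _ _
  have hex : ∀ ν : ℂˣ, ∃ t, Jt a hai hp t = Jz J₀ ν := fun ν => exists_t_of_normal a hai hp (hJν ν)
  refine exists_FF a hai hp hm ⟨s₀ + 1, by omega⟩ t₀ hreg {t | ∃ ν, Jt a hai hp t = Jz J₀ ν} ?_ ?_ I h1 h2
  · rintro t ⟨ν, hν⟩
    simp only [GGt]
    rw [chiI_val, chiI_val, hν]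
    simp only [gensGL]
    have e : (⟨s₀ + 1, by omega⟩ : Fin (s₀ + 2 + 1)).val < s₀ + 2 := by
      show s₀ + 1 < s₀ + 2
      omega
    rw [if_pos e, if_pos e]
    have e2 : s₀ + 2 - 1 - (⟨s₀ + 1, by omega⟩ : Fin (s₀ + 2 + 1)).val = 0 := by
      show s₀ + 2 - 1 - (s₀ + 1) = 0
      omega
    rw [e2, sWd_Jz_zero J₀ hs₀ hm]
  · intro V hV
    apply irr_J_zero J₀ hs₀ hm
    · intro k k' hk
      obtain ⟨q, rfl, rfl⟩ := hq k' k hk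
      rw [h_Jt0]
      exact ht₀ (Sum.inr (Sum.inl q))
    · intro k k' hk
      obtain ⟨q, rfl, rfl⟩ := hq k k' hk
      rw [YY_Jt0]
      exact ht₀ (Sum.inr (Sum.inr q))
    · intro ν x v hv
      obtain ⟨t, ht⟩ := hex ν
      have := hV t ⟨ν, ht⟩ x v hv
      simp only [GGt] at this
      rwa [chiI_val, ht] at this

end main

end Vale.Agent.Lib.P002.Surf
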