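import Mathlib
import Vale.Agent.Lib.P002.Reg.NV3

set_option linter.unusedSectionVars false
set_option linter.unusedVariables false
set_option linter.unusedSimpArgs false
set_option linter.unnecessarySeqFocus false

namespace Vale.Agent.Lib.P002.Surf

open Matrix Polynomial

/-- The statement of the theorem for given eigenvalues. -/
def RegStatement (r g s : ℕ) (a : Fin s → Fin r → ℂ) : Prop :=
  ∃ L : IntermediateField ℚ ℂ, FiniteDimensional ℚ L ∧
    ∃ (D : MvPolynomial (Fin ((r - 1) * ((2 * g + s - 2) * r + 2 * g - 2))) ℂ)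
      (χ : (Fin ((r - 1) * ((2 * g + s - 2) * r + 2 * g - 2)) → ℂˣ) → RepData r g s),
      D ≠ 0 ∧ IsLaurentMap χ ∧
      (∀ t, MvPolynomial.eval (fun i => ((t i : ℂˣ) : ℂ)) D ≠ 0 →
        χ t ∈ RelReg a ∧ IsIrreducibleRep (χ t)) ∧
      (∀ t t', MvPolynomial.eval (fun i => ((t i : ℂˣ) : ℂ)) D ≠ 0 →
        MvPolynomial.eval (fun i => ((t' i : ℂˣ) : ℂ)) D ≠ 0 →
        ConjEquivalent (χ t) (χ t') → t = t') ∧
      ∀ f : MvPolynomial (Var r g s) ℂ,
        (∀ ρ ∈ RelReg (g := g) a, IsIrreducibleRep ρ → IsOLPoint L ρ →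
          MvPolynomial.aeval (point ρ) f = 0) →
        ∀ t, MvPolynomial.eval (fun i => ((t i : ℂˣ) : ℂ)) D ≠ 0 →
          MvPolynomial.aeval (point (χ t)) f = 0

/-- From the chart to the statement. -/
theorem regStatement_of_chart {n s g : ℕ} (a : Fin (s + 1) → Fin (n + 2) → ℂ)
    (hai : ∀ j i, IsIntegral ℤ (a j i)) (hp : ∀ j, ∏ i, a j i = 1) (hm : 4 ≤ mm s g)
    (h : ∃ D : MvPolynomial (ParIdx n s g) ℂ, D ≠ 0 ∧
      (∀ t, evt t D ≠ 0 → chiI a hai hp hm t ∈ RelReg a ∧ IsIrreducibleRep (chiI a hai hp hm t)) ∧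
      (∀ t t', evt t D ≠ 0 → ConjEquivalent (chiI a hai hp hm t) (chiI a hai hp hm t') → t = t')) :
    RegStatement (n + 2) g (s + 1) a := by
  obtain ⟨D, hD0, hD1, hD2⟩ := h
  let e : ParIdx n s g ≃ Fin ((n + 2 - 1) * ((2 * g + (s + 1) - 2) * (n + 2) + 2 * g - 2)) :=
    Fintype.equivFinOfCardEq (card_ParIdx hm)
  have hev : ∀ t : Fin ((n + 2 - 1) * ((2 * g + (s + 1) - 2) * (n + 2) + 2 * g - 2)) → ℂˣ,
      MvPolynomial.eval (fun i => ((t i : ℂˣ) : ℂ)) (MvPolynomial.rename e D) = evt (t ∘ e) D := by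
    intro t
    rw [MvPolynomial.eval_rename]
    rfl
  refine ⟨theField a, finiteDimensional_theField hai, MvPolynomial.rename e D,
    fun t => chiI a hai hp hm (t ∘ e), ?_, ?_, ?_, ?_, ?_⟩
  · intro h0
    exact hD0 (MvPolynomial.rename_injective e e.injective (h0.trans (map_zero _).symm))
  · intro p
    obtain ⟨P, k, hP⟩ := chiI_laurent a hai hp hm p
    refine ⟨MvPolynomial.rename e P, k, fun t => ?_⟩
    have h1 := hP (t ∘ e)
    rw [MvPolynomial.eval_rename]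
    have h2 : ∏ i, ((t i : ℂˣ) : ℂ) = ∏ i, (((t ∘ e) i : ℂˣ) : ℂ) :=
      (Equiv.prod_comp e (fun i => ((t i : ℂˣ) : ℂ))).symm
    rw [h2]
    exact h1
  · intro t ht
    rw [hev] at ht
    exact hD1 _ ht
  · intro t t' ht _ hc
    rw [hev] at ht
    have h1 := hD2 _ _ ht hc
    funext i
    have h2 := congrFun h1 (e.symm i)
    simpa using h2
  · intro f hf t ht
    rw [hev] at ht
    exact reg_density a hai hp hm D hD1 f hf _ ht

/-- Contiguous equal values. -/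
lemma exists_sorted {r : ℕ} (d : Fin r → ℂ) : ∃ σ : Equiv.Perm (Fin r),
    ∀ i k l : Fin r, i < k → k < l → d (σ i) = d (σ l) → d (σ k) = d (σ i) := by
  classical
  letI : LinearOrder ℂ := linearOrderOfSTO WellOrderingRel
  refine ⟨Tuple.sort d, fun i k l h1 h2 h3 => ?_⟩
  have hm := Tuple.monotone_sort d
  have h4 : d (Tuple.sort d i) ≤ d (Tuple.sort d k) := hm h1.le
  have h5 : d (Tuple.sort d k) ≤ d (Tuple.sort d l) := hm h2.le
  rw [← h3] at h5
  exact le_antisymm h5 h4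

/-- The statement depends only on the multisets of eigenvalues. -/
lemma regStatement_perm {r g s : ℕ} (a : Fin s → Fin r → ℂ) (σ : Fin s → Equiv.Perm (Fin r))
    (h : RegStatement r g s (fun j i => a j (σ j i))) : RegStatement r g s a := by
  have e : RelReg (g := g) (fun j i => a j (σ j i)) = RelReg (g := g) a := by
    ext ρ
    simp only [RelReg, InRegClass, Set.mem_setOf_eq]
    have h1 : ∀ j, ∏ i, (X - C (a j (σ j i))) = ∏ i, (X - C (a j i)) := fun j =>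
      Equiv.prod_comp (σ j) (fun i => (X - C (a j i) : ℂ[X]))
    simp only [h1]
  simp only [RegStatement] at h ⊢
  rwa [e] at h

/-- Reduction to contiguous eigenvalues. -/
theorem regStatement_sort {r g s : ℕ} (a : Fin s → Fin r → ℂ)
    (h : ∀ a' : Fin s → Fin r → ℂ, (∀ j i, ∃ i', a' j i = a j i') → (∀ j, ∏ i, a' j i = ∏ i, a j i) →
      (∀ j, ∀ i k l : Fin r, i < k → k < l → a' j i = a' j l → a' j k = a' j i) →
      RegStatement r g s a') : RegStatement r g s a := by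
  choose σ hσ using fun j => exists_sorted (a j)
  apply regStatement_perm a σ
  apply h
  · exact fun j i => ⟨_, rfl⟩
  · exact fun j => Equiv.prod_comp (σ j) (a j)
  · exact fun j => hσ j

/-- Positive genus, at least two punctures. -/
theorem reg_main_pos (r g s : ℕ) (hr : 2 ≤ r) (hg : 1 ≤ g) (hs : 2 ≤ s) (a : Fin s → Fin r → ℂ)
    (hai : ∀ j i, IsIntegral ℤ (a j i)) (hp : ∀ j, ∏ i, a j i = 1) : RegStatement r g s a := by
  obtain ⟨n, rfl⟩ : ∃ n, r = n + 2 := ⟨r - 2, by omega⟩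
  obtain ⟨g', rfl⟩ : ∃ g', g = g' + 1 := ⟨g - 1, by omega⟩
  obtain ⟨s', rfl⟩ : ∃ s', s = s' + 2 := ⟨s - 2, by omega⟩
  apply regStatement_sort
  intro a' h1 h2 h3
  have hai' : ∀ j i, IsIntegral ℤ (a' j i) := by
    intro j i
    obtain ⟨i', hi'⟩ := h1 j i
    rw [hi']
    exact hai j i'
  have hp' : ∀ j, ∏ i, a' j i = 1 := fun j => by rw [h2, hp]
  have hm : 4 ≤ mm (s' + 1) (g' + 1) := by
    simp only [mm]
    omega
  apply regStatement_of_chart a' hai' hp' hm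
  exact reg_chart a' hai' hp' hm ⟨s', by omega⟩ h3
    (hSx_pos a' hai' hp' hm) (hHx_pos a' hai' hp' hm) (hIrr_pos a' hai' hp' hm h3)

/-- Genus zero, at least four punctures. -/
theorem reg_main_zero (r s : ℕ) (hr : 2 ≤ r) (hs : 4 ≤ s) (a : Fin s → Fin r → ℂ)
    (hai : ∀ j i, IsIntegral ℤ (a j i)) (hp : ∀ j, ∏ i, a j i = 1) : RegStatement r 0 s a := by
  obtain ⟨n, rfl⟩ : ∃ n, r = n + 2 := ⟨r - 2, by omega⟩
  obtain ⟨s₀, rfl⟩ : ∃ s₀, s = s₀ + 2 + 1 := ⟨s - 3, by omega⟩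
  have hs₀ : 1 ≤ s₀ := by omega
  apply regStatement_sort
  intro a' h1 h2 h3
  have hai' : ∀ j i, IsIntegral ℤ (a' j i) := by
    intro j i
    obtain ⟨i', hi'⟩ := h1 j i
    rw [hi']
    exact hai j i'
  have hp' : ∀ j, ∏ i, a' j i = 1 := fun j => by rw [h2, hp]
  have hm : 4 ≤ mm (s₀ + 2) 0 := by
    simp only [mm]
    omega
  apply regStatement_of_chart a' hai' hp' hm
  exact reg_chart a' hai' hp' hm ⟨s₀ + 1, by omega⟩ h3
    (hSx_zero a' hai' hp' hm hs₀) (hHx_zero a' hai' hp' hm hs₀) (hIrr_zero a' hai' hp' hm hs₀ h3)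

/-- The main theorem for regular classes. -/
theorem reg_main (r g s : ℕ) (hr : 2 ≤ r) (hgs : (1 ≤ g ∧ 2 ≤ s) ∨ (g = 0 ∧ 4 ≤ s))
    (a : Fin s → Fin r → ℂ) (hai : ∀ j i, IsIntegral ℤ (a j i)) (hp : ∀ j, ∏ i, a j i = 1) :
    RegStatement r g s a := by
  rcases hgs with ⟨hg, hs⟩ | ⟨rfl, hs⟩
  · exact reg_main_pos r g s hr hg hs a hai hp
  · exact reg_main_zero r s hr hs a hai hp

end Vale.Agent.Lib.P002.Surf
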